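import Mathlib

/-!
# Quadratic optimal transport from a uniform convex source: definitions
-/

open MeasureTheory Set
open scoped ENNReal InnerProductSpace

namespace Vale.Agent.P074

/-- Euclidean space of dimension `d`. -/
abbrev E (d : ℕ) := EuclideanSpace ℝ (Fin d)

/-- The uniform probability measure `|K|⁻¹ 1_K dx` on `K`. -/
noncomputable def unif {d : ℕ} (K : Set (E d)) : Measure (E d) :=
  (volume K)⁻¹ • (volume.restrict K)

/-- `π` is a coupling of `μ` and `ν`. -/
def IsCoupling {d : ℕ} (μ ν : Measure (E d)) (π : Measure (E d × E d)) : Prop :=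
  π.map Prod.fst = μ ∧ π.map Prod.snd = ν

/-- The quadratic Wasserstein distance of two compactly supported probability measures. -/
noncomputable def W2 {d : ℕ} (μ ν : Measure (E d)) : ℝ :=
  Real.sqrt (sInf {c : ℝ | ∃ π : Measure (E d × E d),
    IsCoupling μ ν π ∧ c = ∫ p, ‖p.1 - p.2‖ ^ 2 ∂π})

/-- `T` is a quadratic optimal transport map from `ρ` to `μ`: a Borel map pushing `ρ` forward
to `μ` that minimizes the quadratic cost among all such Borel maps. -/
def IsOTMap {d : ℕ} (ρ μ : Measure (E d)) (T : E d → E d) : Prop :=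
  Measurable T ∧ ρ.map T = μ ∧
    ∀ S : E d → E d, Measurable S → ρ.map S = μ →
      ∫ x, ‖x - T x‖ ^ 2 ∂ρ ≤ ∫ x, ‖x - S x‖ ^ 2 ∂ρ

/-- `α` is an admissible exponent in dimension `d`. -/
def Admissible (d : ℕ) (α : ℝ) : Prop :=
  0 < α ∧ α ≤ 1 ∧
  ∀ K : Set (E d), IsCompact K → Convex ℝ K → (interior K).Nonempty →
  ∀ Y : Set (E d), IsCompact Y → Y.Nonempty →
  ∃ C : ℝ, ∀ μ ν : Measure (E d), IsProbabilityMeasure μ → IsProbabilityMeasure ν →
    μ Yᶜ = 0 → ν Yᶜ = 0 →
    ∀ T S : E d → E d, IsOTMap (unif K) μ T → IsOTMap (unif K) ν S →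
      Real.sqrt (∫ x, ‖T x - S x‖ ^ 2 ∂(unif K)) ≤ C * (W2 μ ν) ^ α

end Vale.Agent.P074
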