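import Mathlib
import Vale.Agent.P074.Defs

/-!
# Optimal maps are gradients of convex Lipschitz functions
-/

open MeasureTheory Set Filter Topology Metric
open scoped ENNReal InnerProductSpace

namespace Vale.Agent.P074
namespace Brenier

variable {d n : ℕ}

lemma decomp {A K : Set (E d)} {B : Fin n → Set (E d)} (hB : ∀ i, MeasurableSet (B i))
    (hd : Pairwise (Function.onFun Disjoint B)) (hBK : ∀ i, B i ⊆ K) (hA : MeasurableSet A) :
    volume (A ∩ K) = volume (A ∩ (K \ ⋃ i, B i)) + ∑ i, volume (A ∩ B i) := by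
  have h1 := measure_inter_add_sdiff (μ := (volume : Measure (E d))) (A ∩ K)
    (MeasurableSet.iUnion hB)
  have h2 : A ∩ K ∩ (⋃ i, B i) = ⋃ i, A ∩ B i := by
    ext x
    simp only [mem_inter_iff, mem_iUnion]
    constructor
    · rintro ⟨⟨hxA, -⟩, i, hi⟩
      exact ⟨i, hxA, hi⟩
    · rintro ⟨i, hxA, hi⟩
      exact ⟨⟨hxA, hBK i hi⟩, i, hi⟩
  have h3 : (A ∩ K) \ (⋃ i, B i) = A ∩ (K \ ⋃ i, B i) := by
    ext x
    simp only [mem_inter_iff, Set.mem_sdiff]
    tauto
  have h4 : volume (⋃ i, A ∩ B i) = ∑ i, volume (A ∩ B i) := by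
    rw [measure_iUnion, tsum_fintype]
    · intro i j hij
      exact (hd hij).mono inter_subset_right inter_subset_right
    · intro i
      exact hA.inter (hB i)
  rw [h2, h3, h4] at h1
  rw [← h1, add_comm]

/-- The piecewise translation permuting the balls `closedBall (w i) r`. -/
noncomputable def swapMap (w : Fin n → E d) (r : ℝ) (σ : Equiv.Perm (Fin n)) (z : E d) : E d :=
  z + ∑ i, (closedBall (w i) r).indicator (fun _ => w (σ i) - w i) z

lemma measurable_swapMap (w : Fin n → E d) (r : ℝ) (σ : Equiv.Perm (Fin n)) :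
    Measurable (swapMap w r σ) := by
  unfold swapMap
  refine measurable_id.add (Finset.measurable_sum _ fun i _ => ?_)
  exact measurable_const.indicator isClosed_closedBall.measurableSet

lemma swapMap_of_mem {w : Fin n → E d} {r : ℝ} (σ : Equiv.Perm (Fin n))
    (hd : Pairwise (Function.onFun Disjoint fun i => closedBall (w i) r)) {i : Fin n} {z : E d}
    (hz : z ∈ closedBall (w i) r) : swapMap w r σ z = z + (w (σ i) - w i) := by
  unfold swapMap
  congr 1
  rw [Finset.sum_eq_single i]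
  · exact indicator_of_mem hz _
  · intro j _ hj
    apply indicator_of_notMem
    intro hz'
    exact (disjoint_left.1 (hd hj) hz') hz
  · simp

lemma swapMap_of_notMem {w : Fin n → E d} {r : ℝ} (σ : Equiv.Perm (Fin n)) {z : E d}
    (hz : z ∉ ⋃ i, closedBall (w i) r) : swapMap w r σ z = z := by
  unfold swapMap
  rw [Finset.sum_eq_zero, add_zero]
  intro i _
  apply indicator_of_notMem
  intro hz'
  exact hz (mem_iUnion.2 ⟨i, hz'⟩)

lemma preimage_ball (a b : E d) (r : ℝ) :
    (fun x : E d => x + (b - a)) ⁻¹' (closedBall b r) = closedBall a r := by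
  ext x
  simp only [mem_preimage, mem_closedBall, dist_eq_norm]
  rw [show x + (b - a) - b = x - a by abel]

lemma map_swapMap {K : Set (E d)} {w : Fin n → E d} {r : ℝ}
    (σ : Equiv.Perm (Fin n))
    (hd : Pairwise (Function.onFun Disjoint fun i => closedBall (w i) r))
    (hBK : ∀ i, closedBall (w i) r ⊆ K) :
    (volume.restrict K).map (swapMap w r σ) = volume.restrict K := by
  have hBm : ∀ i, MeasurableSet (closedBall (w i) r) := fun i =>
    isClosed_closedBall.measurableSet
  ext s hs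
  rw [Measure.map_apply (measurable_swapMap w r σ) hs, Measure.restrict_apply hs,
    Measure.restrict_apply (measurable_swapMap w r σ hs),
    decomp hBm hd hBK (measurable_swapMap w r σ hs), decomp hBm hd hBK hs]
  congr 1
  · congr 1
    ext z
    simp only [mem_inter_iff, mem_preimage, Set.mem_sdiff]
    constructor
    · rintro ⟨h1, h2, h3⟩
      rw [swapMap_of_notMem σ h3] at h1
      exact ⟨h1, h2, h3⟩
    · rintro ⟨h1, h2, h3⟩
      refine ⟨?_, h2, h3⟩
      rw [swapMap_of_notMem σ h3]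
      exact h1
  · have h1 : ∀ i, volume (swapMap w r σ ⁻¹' s ∩ closedBall (w i) r)
        = volume (s ∩ closedBall (w (σ i)) r) := by
      intro i
      have h2 : swapMap w r σ ⁻¹' s ∩ closedBall (w i) r
          = (fun x : E d => x + (w (σ i) - w i)) ⁻¹' (s ∩ closedBall (w (σ i)) r) := by
        rw [preimage_inter, preimage_ball]
        ext z
        simp only [mem_inter_iff, mem_preimage]
        constructor
        · rintro ⟨h1, h2⟩
          rw [swapMap_of_mem σ hd h2] at h1
          exact ⟨h1, h2⟩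
        · rintro ⟨h1, h2⟩
          refine ⟨?_, h2⟩
          rw [swapMap_of_mem σ hd h2]
          exact h1
      rw [h2, measure_preimage_add_right]
    simp_rw [h1]
    exact Equiv.sum_comp σ (fun i => volume (s ∩ closedBall (w i) r))

lemma intOn {F : Type*} [NormedAddCommGroup F] {s : Set (E d)} (hs : IsCompact s)
    {f : E d → F} (hf : AEStronglyMeasurable f volume) {M : ℝ} (hM : ∀ x ∈ s, ‖f x‖ ≤ M) :
    IntegrableOn f s := by
  refine Measure.integrableOn_of_bounded (M := M) hs.measure_lt_top.ne hf ?_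
  filter_upwards [ae_restrict_mem hs.measurableSet] with x hx
  exact hM x hx

lemma vol_pos {K : Set (E d)} (hKi : (interior K).Nonempty) : volume K ≠ 0 := by
  have h := isOpen_interior.measure_pos (volume : Measure (E d)) hKi
  exact (lt_of_lt_of_le h (measure_mono interior_subset)).ne'

lemma cost_ineq {K : Set (E d)} (hK : IsCompact K) (hKi : (interior K).Nonempty)
    {μ : Measure (E d)} {R : ℝ} {T : E d → E d} (hT : IsOTMap (unif K) μ T)
    (hTR : ∀ x, ‖T x‖ ≤ R) {Θ : E d → E d} (hΘ : Measurable Θ)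
    (hΘK : (volume.restrict K).map Θ = volume.restrict K) :
    ∫ x in K, (inner ℝ x (T (Θ x)) - inner ℝ x (T x)) ≤ 0 := by
  obtain ⟨hTm, hTμ, hopt⟩ := hT
  have hR : 0 ≤ R := (norm_nonneg _).trans (hTR 0)
  have hS : (unif K).map (T ∘ Θ) = μ := by
    rw [← Measure.map_map hTm hΘ, ← hTμ]
    congr 1
    unfold unif
    rw [Measure.map_smul, hΘK]
  have h1 := hopt (T ∘ Θ) (hTm.comp hΘ) hS
  unfold unif at h1
  rw [integral_smul_measure, integral_smul_measure] at h1
  have hc : 0 < ((volume K)⁻¹).toReal := by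
    refine ENNReal.toReal_pos ?_ ?_
    · exact ENNReal.inv_ne_zero.2 hK.measure_lt_top.ne
    · exact ENNReal.inv_ne_top.2 (vol_pos hKi)
  have h2 : ∫ x in K, ‖x - T x‖ ^ 2 ≤ ∫ x in K, ‖x - T (Θ x)‖ ^ 2 := by
    simp only [smul_eq_mul, Function.comp_apply] at h1
    exact le_of_mul_le_mul_left h1 hc
  obtain ⟨D, hD0, hD⟩ := hK.isBounded.exists_pos_norm_le
  have hTΘm : Measurable (T ∘ Θ) := hTm.comp hΘ
  have i1 : IntegrableOn (fun x : E d => ‖x‖ ^ 2) K :=
    intOn hK (by fun_prop) (M := D ^ 2) (fun x hx => by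
      rw [Real.norm_of_nonneg (by positivity)]
      gcongr
      exact hD x hx)
  have i2 : ∀ U : E d → E d, Measurable U → (∀ x, ‖U x‖ ≤ R) →
      IntegrableOn (fun x : E d => ‖U x‖ ^ 2) K := fun U hU hUR =>
    intOn hK (hU.norm.pow_const 2).aestronglyMeasurable (M := R ^ 2) (fun x hx => by
      rw [Real.norm_of_nonneg (by positivity)]
      gcongr
      exact hUR x)
  have i3 : ∀ U : E d → E d, Measurable U → (∀ x, ‖U x‖ ≤ R) →
      IntegrableOn (fun x : E d => inner ℝ x (U x)) K := fun U hU hUR =>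
    intOn hK (measurable_id.inner hU).aestronglyMeasurable (M := D * R) (fun x hx => by
      refine (norm_inner_le_norm _ _).trans ?_
      have := hD x hx
      have := hUR x
      gcongr)
  have e1 : ∀ U : E d → E d, Measurable U → (∀ x, ‖U x‖ ≤ R) →
      ∫ x in K, ‖x - U x‖ ^ 2 = (∫ x in K, ‖x‖ ^ 2) - 2 * (∫ x in K, inner ℝ x (U x))
        + ∫ x in K, ‖U x‖ ^ 2 := by
    intro U hU hUR
    have k1 : ∫ x in K, ‖x - U x‖ ^ 2
        = ∫ x in K, ((‖x‖ ^ 2 - 2 * inner ℝ x (U x)) + ‖U x‖ ^ 2) :=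
      integral_congr_ae (Eventually.of_forall fun x => norm_sub_sq_real x (U x))
    have k2 : ∫ x in K, ((‖x‖ ^ 2 - 2 * inner ℝ x (U x)) + ‖U x‖ ^ 2)
        = (∫ x in K, (‖x‖ ^ 2 - 2 * inner ℝ x (U x))) + ∫ x in K, ‖U x‖ ^ 2 :=
      integral_add (i1.sub ((i3 U hU hUR).const_mul 2)) (i2 U hU hUR)
    have k3 : ∫ x in K, (‖x‖ ^ 2 - 2 * inner ℝ x (U x))
        = (∫ x in K, ‖x‖ ^ 2) - ∫ x in K, 2 * inner ℝ x (U x) :=
      integral_sub i1 ((i3 U hU hUR).const_mul 2)
    rw [k1, k2, k3, integral_const_mul]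
  have hTΘR : ∀ x, ‖(T ∘ Θ) x‖ ≤ R := fun x => hTR _
  have e2 : ∫ x in K, ‖T (Θ x)‖ ^ 2 = ∫ x in K, ‖T x‖ ^ 2 := by
    have h3 : ∫ x, ‖T x‖ ^ 2 ∂((volume.restrict K).map Θ) = ∫ x in K, ‖T (Θ x)‖ ^ 2 :=
      integral_map hΘ.aemeasurable (hTm.norm.pow_const 2).aestronglyMeasurable
    rw [← h3, hΘK]
  have h4 := e1 T hTm hTR
  have h5 := e1 (T ∘ Θ) hTΘm hTΘR
  simp only [Function.comp_apply] at h5
  rw [h4, h5, e2] at h2
  have k4 : ∫ x in K, (inner ℝ x (T (Θ x)) - inner ℝ x (T x))
      = (∫ x in K, inner ℝ x (T (Θ x))) - ∫ x in K, inner ℝ x (T x) :=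
    integral_sub (i3 (T ∘ Θ) hTΘm hTΘR) (i3 T hTm hTR)
  rw [k4]
  linarith

lemma swap_ineq {K : Set (E d)} (hK : IsCompact K) (hKi : (interior K).Nonempty)
    {μ : Measure (E d)} {R : ℝ} {T : E d → E d} (hT : IsOTMap (unif K) μ T)
    (hTR : ∀ x, ‖T x‖ ≤ R) {w : Fin n → E d} {r : ℝ} (σ : Equiv.Perm (Fin n))
    (hd : Pairwise (Function.onFun Disjoint fun i => closedBall (w i) r))
    (hBK : ∀ i, closedBall (w i) r ⊆ K) :
    0 ≤ ∑ i, inner ℝ (w (σ i) - w i) (∫ y in closedBall (w (σ i)) r, T y) := by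
  have hBm : ∀ i, MeasurableSet (closedBall (w i) r) := fun i =>
    isClosed_closedBall.measurableSet
  have hTm := hT.1
  have hR : 0 ≤ R := (norm_nonneg _).trans (hTR 0)
  have hΘ := measurable_swapMap w r σ
  have h1 := cost_ineq hK hKi hT hTR hΘ (map_swapMap σ hd hBK)
  obtain ⟨D, hD0, hD⟩ := hK.isBounded.exists_pos_norm_le
  have hUK : (⋃ i, closedBall (w i) r) ⊆ K := iUnion_subset hBK
  have hC : ∀ i, IsCompact (closedBall (w i) r) := fun i => isCompact_closedBall _ _
  -- integrability on each ball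
  have i3 : ∀ U : E d → E d, Measurable U → (∀ x, ‖U x‖ ≤ R) → ∀ i,
      IntegrableOn (fun x : E d => inner ℝ x (U x)) (closedBall (w i) r) := fun U hU hUR i =>
    intOn (hC i) (measurable_id.inner hU).aestronglyMeasurable (M := D * R) (fun x hx => by
      refine (norm_inner_le_norm _ _).trans ?_
      have := hD x (hBK i hx)
      have := hUR x
      gcongr)
  have h2 : ∫ x in K, (inner ℝ x (T (swapMap w r σ x)) - inner ℝ x (T x))
      = ∫ x in ⋃ i, closedBall (w i) r,
        (inner ℝ x (T (swapMap w r σ x)) - inner ℝ x (T x)) := by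
    refine setIntegral_eq_of_subset_of_forall_sdiff_eq_zero hK.measurableSet hUK ?_
    rintro x ⟨-, hx⟩
    rw [swapMap_of_notMem σ hx, sub_self]
  have hTΘR : ∀ x, ‖(T ∘ swapMap w r σ) x‖ ≤ R := fun x => hTR _
  have h2' : ∫ x in ⋃ i, closedBall (w i) r,
        (inner ℝ x (T (swapMap w r σ x)) - inner ℝ x (T x))
      = ∑ i, ∫ x in closedBall (w i) r,
        (inner ℝ x (T (swapMap w r σ x)) - inner ℝ x (T x)) :=
    integral_iUnion_fintype hBm hd (fun i =>
      (i3 (T ∘ swapMap w r σ) (hTm.comp hΘ) hTΘR i).sub (i3 T hTm hTR i))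
  rw [h2, h2'] at h1
  have h3 : ∀ i, ∫ x in closedBall (w i) r, (inner ℝ x (T (swapMap w r σ x)) - inner ℝ x (T x))
      = (∫ y in closedBall (w (σ i)) r, inner ℝ y (T y))
        - inner ℝ (w (σ i) - w i) (∫ y in closedBall (w (σ i)) r, T y)
        - ∫ x in closedBall (w i) r, inner ℝ x (T x) := by
    intro i
    have j1 := integral_sub (i3 (T ∘ swapMap w r σ) (hTm.comp hΘ) hTΘR i) (i3 T hTm hTR i)
    simp only [Function.comp_apply] at j1
    rw [j1]
    congr 1
    have j2 : ∫ x in closedBall (w i) r, inner ℝ x (T (swapMap w r σ x))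
        = ∫ x in closedBall (w i) r,
          (fun y : E d => inner ℝ (y - (w (σ i) - w i)) (T y)) (x + (w (σ i) - w i)) := by
      refine setIntegral_congr_fun (hBm i) fun x hx => ?_
      simp only [swapMap_of_mem σ hd hx, add_sub_cancel_right]
    have j3 := (measurePreserving_add_right (volume : Measure (E d))
      (w (σ i) - w i)).setIntegral_preimage_emb
      (MeasurableEquiv.addRight (w (σ i) - w i)).measurableEmbedding
      (fun y : E d => inner ℝ (y - (w (σ i) - w i)) (T y)) (closedBall (w (σ i)) r)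
    rw [preimage_ball] at j3
    rw [j2, j3]
    have j4 : IntegrableOn T (closedBall (w (σ i)) r) :=
      intOn (hC _) hTm.aestronglyMeasurable (fun x _ => hTR x)
    have j5 : IntegrableOn (fun y => inner ℝ (w (σ i) - w i) (T y)) (closedBall (w (σ i)) r) :=
      Integrable.const_inner _ j4
    rw [← integral_inner j4, ← integral_sub (i3 T hTm hTR (σ i)) j5]
    refine integral_congr_ae (Eventually.of_forall fun x => ?_)
    exact inner_sub_left _ _ _
  simp_rw [h3] at h1
  rw [Finset.sum_sub_distrib, Finset.sum_sub_distrib,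
    Equiv.sum_comp σ (fun i => ∫ y in closedBall (w i) r, inner ℝ y (T y))] at h1
  linarith

/-- Interior points at which all (possibly off-centre) ball averages of `T` converge to `T x`. -/
def good (K : Set (E d)) (T : E d → E d) : Set (E d) :=
  {x | x ∈ interior K ∧ ∀ v : E d,
    Tendsto (fun r : ℝ => ⨍ y in closedBall (x + r • v) r, T y) (𝓝[>] 0) (𝓝 (T x))}

lemma ae_good {K : Set (E d)} (hK : IsCompact K) (hKc : Convex ℝ K) {R : ℝ} {T : E d → E d}
    (hTm : Measurable T) (hTR : ∀ x, ‖T x‖ ≤ R) : ∀ᵐ x ∂(volume.restrict K), x ∈ good K T := by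
  have hloc : LocallyIntegrable T volume := by
    rw [locallyIntegrable_iff]
    intro k hk
    exact intOn hk hTm.aestronglyMeasurable (fun x _ => hTR x)
  have h1 : ∀ᵐ x ∂(volume : Measure (E d)), ∀ k : ℕ, ∀ v : E d, ‖v‖ ≤ k →
      Tendsto (fun r : ℝ => ⨍ y in closedBall (x + r • v) r, T y) (𝓝[>] 0) (𝓝 (T x)) := by
    rw [ae_all_iff]
    intro k
    filter_upwards [IsUnifLocDoublingMeasure.ae_tendsto_average volume hloc (k : ℝ)] with x hx v hv
    refine hx (fun r : ℝ => x + r • v) id tendsto_id ?_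
    filter_upwards [self_mem_nhdsWithin] with r hr
    have hr' : (0 : ℝ) < r := hr
    rw [mem_closedBall, dist_eq_norm, show x - (x + r • v) = -(r • v) by abel, norm_neg,
      norm_smul, Real.norm_of_nonneg hr'.le, id, mul_comm]
    exact mul_le_mul_of_nonneg_right hv hr'.le
  have h2 : ∀ᵐ x ∂(volume : Measure (E d)), x ∉ frontier K :=
    measure_eq_zero_iff_ae_notMem.1 (hKc.addHaar_frontier volume)
  filter_upwards [ae_restrict_of_ae h1, ae_restrict_of_ae h2, ae_restrict_mem hK.measurableSet]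
    with x hx1 hx2 hx3
  refine ⟨?_, fun v => ?_⟩
  · rw [← self_sdiff_frontier]
    exact ⟨hx3, hx2⟩
  · obtain ⟨k, hk⟩ := exists_nat_ge ‖v‖
    exact hx1 k v hk

lemma cyc_mono {K : Set (E d)} (hK : IsCompact K) (hKi : (interior K).Nonempty)
    {μ : Measure (E d)} {R : ℝ} {T : E d → E d} (hT : IsOTMap (unif K) μ T)
    (hTR : ∀ x, ‖T x‖ ≤ R) (p : Fin n → E d) (hp : ∀ i, p i ∈ good K T)
    (σ : Equiv.Perm (Fin n)) :
    0 ≤ ∑ i, inner ℝ (p (σ i) - p i) (T (p (σ i))) := by
  rcases subsingleton_or_nontrivial (E d) with hsub | hnon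
  · refine Finset.sum_nonneg fun i _ => ?_
    rw [Subsingleton.elim (p (σ i) - p i) 0, inner_zero_left]
  obtain ⟨e, he⟩ : ∃ e : E d, ‖e‖ = 1 := exists_norm_eq (E d) zero_le_one
  set v : Fin n → E d := fun i => (3 * ((i : ℕ) : ℝ)) • e with hv
  set w : ℝ → Fin n → E d := fun r i => p i + r • v i with hw
  have hwlim : ∀ i, Tendsto (fun r => w r i) (𝓝[>] 0) (𝓝 (p i)) := by
    intro i
    have h : Tendsto (fun r : ℝ => p i + r • v i) (𝓝 0) (𝓝 (p i + (0 : ℝ) • v i)) :=
      (by fun_prop : Continuous fun r : ℝ => p i + r • v i).tendsto 0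
    rw [zero_smul, add_zero] at h
    exact h.mono_left nhdsWithin_le_nhds
  have hrlim : Tendsto (fun r : ℝ => r + r) (𝓝[>] 0) (𝓝 0) := by
    have h : Tendsto (fun r : ℝ => r + r) (𝓝 0) (𝓝 (0 + 0)) :=
      (by fun_prop : Continuous fun r : ℝ => r + r).tendsto 0
    rw [add_zero] at h
    exact h.mono_left nhdsWithin_le_nhds
  have hdis : ∀ᶠ r : ℝ in 𝓝[>] 0,
      ∀ i j, i ≠ j → Disjoint (closedBall (w r i) r) (closedBall (w r j) r) := by
    rw [eventually_all]
    intro i
    rw [eventually_all]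
    intro j
    by_cases hij : i = j
    · exact Eventually.of_forall fun r h => (h hij).elim
    have hkey : ∀ᶠ r : ℝ in 𝓝[>] 0, r + r < dist (w r i) (w r j) := by
      by_cases hpij : p i = p j
      · filter_upwards [self_mem_nhdsWithin] with r hr
        have hr' : (0 : ℝ) < r := hr
        have h1 : w r i - w r j = (r * (3 * (((i : ℕ) : ℝ) - ((j : ℕ) : ℝ)))) • e := by
          simp only [hw, hv, hpij]
          module
        rw [dist_eq_norm, h1, norm_smul, he, mul_one, Real.norm_eq_abs, abs_mul,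
          abs_of_pos hr', abs_mul, abs_of_pos (by norm_num : (0 : ℝ) < 3)]
        have h2 : (1 : ℝ) ≤ |((i : ℕ) : ℝ) - ((j : ℕ) : ℝ)| := by
          have h3 : ((i : ℕ) : ℤ) - ((j : ℕ) : ℤ) ≠ 0 := by
            intro h
            apply hij
            apply Fin.ext
            omega
          have h4 := Int.one_le_abs h3
          have h5 : ((1 : ℤ) : ℝ) ≤ ((|((i : ℕ) : ℤ) - ((j : ℕ) : ℤ)| : ℤ) : ℝ) :=
            Int.cast_le.2 h4
          rw [Int.cast_abs] at h5
          push_cast at h5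
          exact h5
        nlinarith
      · refine hrlim.eventually_lt ((hwlim i).dist (hwlim j)) ?_
        exact dist_pos.2 hpij
    filter_upwards [hkey] with r hr _
    exact closedBall_disjoint_closedBall hr
  have hsub : ∀ᶠ r : ℝ in 𝓝[>] 0, ∀ i, closedBall (w r i) r ⊆ K := by
    rw [eventually_all]
    intro i
    obtain ⟨ε, hε, hεK⟩ := Metric.isOpen_iff.1 isOpen_interior (p i) (hp i).1
    have hlim2 : Tendsto (fun r : ℝ => r + dist (w r i) (p i)) (𝓝[>] 0) (𝓝 0) := by
      have h1 : Tendsto (fun r : ℝ => r) (𝓝[>] 0) (𝓝 0) := tendsto_id.mono_left nhdsWithin_le_nhds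
      have h2 := h1.add ((hwlim i).dist (tendsto_const_nhds (x := p i)))
      rw [dist_self, add_zero] at h2
      exact h2
    filter_upwards [hlim2.eventually_lt_const hε] with r hr
    intro x hx
    apply interior_subset
    apply hεK
    rw [mem_ball]
    rw [mem_closedBall] at hx
    linarith [dist_triangle x (w r i) (p i)]
  have hlim : Tendsto (fun r : ℝ => ∑ i, inner ℝ (w r (σ i) - w r i)
      (⨍ y in closedBall (w r (σ i)) r, T y)) (𝓝[>] 0)
      (𝓝 (∑ i, inner ℝ (p (σ i) - p i) (T (p (σ i))))) := by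
    refine tendsto_finsetSum _ fun i _ => ?_
    exact ((hwlim (σ i)).sub (hwlim i)).inner ((hp (σ i)).2 (v (σ i)))
  refine ge_of_tendsto hlim ?_
  filter_upwards [hdis, hsub] with r hr1 hr2
  have h1 := swap_ineq hK hKi hT hTR σ (fun i j hij => hr1 i j hij) hr2
  have h2 : ∀ i, inner ℝ (w r (σ i) - w r i) (⨍ y in closedBall (w r (σ i)) r, T y)
      = (volume.real (closedBall (0 : E d) r))⁻¹
        * inner ℝ (w r (σ i) - w r i) (∫ y in closedBall (w r (σ i)) r, T y) := by
    intro i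
    rw [setAverage_eq, inner_smul_right, Measure.addHaar_real_closedBall_center]
  simp_rw [h2]
  rw [← Finset.mul_sum]
  exact mul_nonneg (inv_nonneg.2 measureReal_nonneg) h1

/-- The value at `x` of the Rockafellar chain `q n, …, q 1, q 0`. -/
noncomputable def chain (T : E d → E d) (q : Fin (n + 1) → E d) (x : E d) : ℝ :=
  inner ℝ (x - q 0) (T (q 0)) + ∑ i : Fin n, inner ℝ (q i.castSucc - q i.succ) (T (q i.succ))

lemma chain_cons (T : E d → E d) (q : Fin (n + 1) → E d) (a x : E d) :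
    chain T (Fin.cons a q : Fin (n + 1 + 1) → E d) x = inner ℝ (x - a) (T a) + chain T q a := by
  unfold chain
  rw [Fin.sum_univ_succ]
  simp only [Fin.cons_zero, Fin.castSucc_zero, Fin.cons_succ]
  congr 1

lemma chain_sub (T : E d → E d) (q : Fin (n + 1) → E d) (x y : E d) :
    chain T q x = chain T q y + inner ℝ (x - y) (T (q 0)) := by
  unfold chain
  have h : (x - q 0) = (y - q 0) + (x - y) := by abel
  rw [h, inner_add_left]
  ring

lemma chain_le {G : Set (E d)} {T : E d → E d}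
    (hcyc : ∀ (m : ℕ) (p : Fin m → E d), (∀ i, p i ∈ G) → ∀ σ : Equiv.Perm (Fin m),
      0 ≤ ∑ i, inner ℝ (p (σ i) - p i) (T (p (σ i))))
    (q : Fin (n + 1) → E d) (hq : ∀ i, q i ∈ G) : chain T q (q (Fin.last n)) ≤ 0 := by
  have h1 := hcyc (n + 1) q hq (finRotate (n + 1))
  rw [Fin.sum_univ_castSucc] at h1
  have h2 : ∀ i : Fin n, finRotate (n + 1) i.castSucc = i.succ := by
    intro i
    rw [finRotate_apply, Fin.coeSucc_eq_succ]
  simp only [h2, finRotate_last] at h1
  unfold chain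
  have h3 : ∀ a b c : E d, inner ℝ (a - b) c = - inner ℝ (b - a) c := by
    intro a b c
    rw [← inner_neg_left, neg_sub]
  rw [h3]
  have h4 : ∑ i : Fin n, inner ℝ (q i.castSucc - q i.succ) (T (q i.succ))
      = - ∑ i : Fin n, inner ℝ (q i.succ - q i.castSucc) (T (q i.succ)) := by
    rw [← Finset.sum_neg_distrib]
    exact Finset.sum_congr rfl fun i _ => h3 _ _ _
  rw [h4]
  linarith

/-- Chains in `G` starting at `x₀`. -/
abbrev Idx (G : Set (E d)) (x₀ : E d) :=
  {Q : (Σ n : ℕ, (Fin (n + 1) → E d)) // (∀ i, Q.2 i ∈ G) ∧ Q.2 (Fin.last Q.1) = x₀}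

/-- Rockafellar's potential. -/
noncomputable def pot (T : E d → E d) (G : Set (E d)) (x₀ x : E d) : ℝ :=
  ⨆ Q : Idx G x₀, chain T Q.1.2 x

lemma exists_conv {G : Set (E d)} {T : E d → E d} {R : ℝ} (hR : 0 ≤ R) (hTR : ∀ x, ‖T x‖ ≤ R)
    (hcyc : ∀ (m : ℕ) (p : Fin m → E d), (∀ i, p i ∈ G) → ∀ σ : Equiv.Perm (Fin m),
      0 ≤ ∑ i, inner ℝ (p (σ i) - p i) (T (p (σ i)))) {x₀ : E d} (hx₀ : x₀ ∈ G) :
    ∃ φ : E d → ℝ, ConvexOn ℝ univ φ ∧ LipschitzWith (Real.toNNReal R) φ ∧
      ∀ a ∈ G, ∀ z, φ a + inner ℝ (z - a) (T a) ≤ φ z := by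
  have hne : Nonempty (Idx G x₀) := ⟨⟨⟨0, fun _ => x₀⟩, fun _ => hx₀, rfl⟩⟩
  have hinn : ∀ a b : E d, inner ℝ a (T b) ≤ R * ‖a‖ := by
    intro a b
    refine (real_inner_le_norm _ _).trans ?_
    rw [mul_comm]
    exact mul_le_mul_of_nonneg_right (hTR b) (norm_nonneg _)
  have hbdd : ∀ x, BddAbove (range fun Q : Idx G x₀ => chain T Q.1.2 x) := by
    intro x
    refine ⟨R * ‖x - x₀‖, ?_⟩
    rintro _ ⟨⟨⟨m, q⟩, hq, hq0⟩, rfl⟩
    simp only at hq hq0 ⊢
    rw [chain_sub T q x x₀]
    have h1 := chain_le hcyc q hq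
    rw [hq0] at h1
    linarith [hinn (x - x₀) (q 0)]
  have hle : ∀ x (Q : Idx G x₀), chain T Q.1.2 x ≤ pot T G x₀ x := fun x Q =>
    le_ciSup (hbdd x) Q
  refine ⟨pot T G x₀, ⟨convex_univ, ?_⟩, ?_, ?_⟩
  · intro x _ y _ a b ha hb hab
    refine ciSup_le fun Q => ?_
    have h1 : chain T Q.1.2 (a • x + b • y) = a * chain T Q.1.2 x + b * chain T Q.1.2 y := by
      have e1 := chain_sub T Q.1.2 (a • x + b • y) 0
      have e2 := chain_sub T Q.1.2 x 0
      have e3 := chain_sub T Q.1.2 y 0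
      rw [e1, e2, e3]
      simp only [sub_zero, inner_add_left, real_inner_smul_left]
      have : a * chain T Q.1.2 0 + b * chain T Q.1.2 0 = chain T Q.1.2 0 := by
        rw [← add_mul, hab, one_mul]
      linarith
    rw [h1]
    simp only [smul_eq_mul]
    have h2 := mul_le_mul_of_nonneg_left (hle x Q) ha
    have h3 := mul_le_mul_of_nonneg_left (hle y Q) hb
    linarith
  · refine LipschitzWith.of_le_add_mul _ fun x y => ?_
    rw [Real.coe_toNNReal R hR, dist_eq_norm]
    refine ciSup_le fun Q => ?_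
    rw [chain_sub T Q.1.2 x y]
    linarith [hle y Q, hinn (x - y) (Q.1.2 0)]
  · intro a ha z
    have h1 : pot T G x₀ a ≤ pot T G x₀ z - inner ℝ (z - a) (T a) := by
      refine ciSup_le fun Q => ?_
      obtain ⟨⟨m, q⟩, hq, hq0⟩ := Q
      have h2 := hle z ⟨⟨m + 1, (Fin.cons a q : Fin (m + 1 + 1) → E d)⟩, by
        intro i
        refine Fin.cases ?_ (fun j => ?_) i
        · simpa using ha
        · simpa using hq j, by
        simp only at hq0 ⊢
        rw [← Fin.succ_last, Fin.cons_succ]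
        exact hq0⟩
      simp only [chain_cons] at h2
      simp only
      linarith
    linarith

end Brenier

open Brenier

/-- **Brenier's theorem** for optimal maps from the uniform measure on a convex body to a measure
of bounded support: the optimal map is a.e. the gradient of a convex Lipschitz function. -/
theorem exists_potential {d : ℕ} {K : Set (E d)} (hK : IsCompact K) (hKc : Convex ℝ K)
    (hKi : (interior K).Nonempty) {μ : Measure (E d)} {R : ℝ} (hR : 0 ≤ R)
    (hμ : μ (Metric.closedBall 0 R)ᶜ = 0) [IsProbabilityMeasure μ] {T : E d → E d}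
    (hT : IsOTMap (unif K) μ T) :
    ∃ φ : E d → ℝ, ConvexOn ℝ univ φ ∧ LipschitzWith (Real.toNNReal R) φ ∧
      ∀ᵐ x ∂(volume.restrict K), HasGradientAt φ (T x) x := by
  classical
  have hTm := hT.1
  -- a bounded version of `T`
  have hTae : ∀ᵐ x ∂(unif K), ‖T x‖ ≤ R := by
    have h1 : (unif K) (T ⁻¹' (Metric.closedBall 0 R)ᶜ) = 0 := by
      rw [← Measure.map_apply hTm isClosed_closedBall.measurableSet.compl, hT.2.1, hμ]
    filter_upwards [measure_eq_zero_iff_ae_notMem.1 h1] with x hx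
    simpa using hx
  set T' : E d → E d := fun x => if ‖T x‖ ≤ R then T x else 0 with hT'
  have hT'm : Measurable T' := by
    refine Measurable.ite ?_ hTm measurable_const
    exact measurableSet_le hTm.norm measurable_const
  have hT'R : ∀ x, ‖T' x‖ ≤ R := by
    intro x
    simp only [hT']
    split_ifs with h
    · exact h
    · simpa using hR
  have hTT' : T =ᵐ[unif K] T' := by
    filter_upwards [hTae] with x hx
    simp only [hT', if_pos hx]
  have hOT' : IsOTMap (unif K) μ T' := by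
    refine ⟨hT'm, ?_, ?_⟩
    · rw [← Measure.map_congr hTT', hT.2.1]
    · intro S hS hSμ
      have h1 : ∫ x, ‖x - T' x‖ ^ 2 ∂(unif K) = ∫ x, ‖x - T x‖ ^ 2 ∂(unif K) := by
        refine integral_congr_ae ?_
        filter_upwards [hTT'] with x hx
        simp only [hx]
      rw [h1]
      exact hT.2.2 S hS hSμ
  have hTT'K : T =ᵐ[volume.restrict K] T' := by
    have hne : (volume K)⁻¹ ≠ 0 := ENNReal.inv_ne_zero.2 hK.measure_lt_top.ne
    have h1 := hTT'
    unfold unif at h1
    exact (Measure.ae_ennreal_smul_measure_iff hne).1 h1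
  have hgood := ae_good hK hKc hT'm hT'R
  have hGne : ∃ x₀, x₀ ∈ good K T' := by
    by_contra hcon
    push Not at hcon
    have h1 : ∀ᵐ x ∂(volume.restrict K), False := by
      filter_upwards [hgood] with x hx
      exact hcon x hx
    rw [eventually_false_iff_eq_bot, ae_eq_bot, Measure.restrict_eq_zero] at h1
    exact vol_pos hKi h1
  obtain ⟨x₀, hx₀⟩ := hGne
  obtain ⟨φ, hφc, hφL, hφs⟩ := exists_conv (G := good K T') hR hT'R
    (fun m p hp σ => cyc_mono hK hKi hOT' hT'R p hp σ) hx₀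
  refine ⟨φ, hφc, hφL, ?_⟩
  have hdiff : ∀ᵐ x ∂(volume : Measure (E d)), DifferentiableAt ℝ φ x :=
    hφL.ae_differentiableAt
  filter_upwards [hgood, ae_restrict_of_ae hdiff, hTT'K] with x hx hxd hxT
  rw [hxT]
  have hmin : IsLocalMin (fun z => φ z - inner ℝ (z - x) (T' x)) x := by
    refine Eventually.of_forall fun z => ?_
    simp only [sub_self, inner_zero_left, sub_zero]
    linarith [hφs x hx z]
  rw [hasGradientAt_iff_hasFDerivAt]
  have h1 : HasFDerivAt (fun z : E d => φ z - inner ℝ (z - x) (T' x))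
      (fderiv ℝ φ x - (InnerProductSpace.toDual ℝ (E d)) (T' x)) x := by
    refine hxd.hasFDerivAt.sub ?_
    have h2 : HasFDerivAt (fun z : E d => (InnerProductSpace.toDual ℝ (E d)) (T' x) (z - x))
        ((InnerProductSpace.toDual ℝ (E d)) (T' x)) x := by
      have h3 := ((InnerProductSpace.toDual ℝ (E d)) (T' x)).hasFDerivAt.comp x
        ((hasFDerivAt_id x).sub_const x)
      rw [ContinuousLinearMap.comp_id] at h3
      exact h3
    refine h2.congr_of_eventuallyEq (Eventually.of_forall fun z => ?_)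
    simp only [InnerProductSpace.toDual_apply_apply]
    exact real_inner_comm _ _
  have h4 := hmin.hasFDerivAt_eq_zero h1
  rw [sub_eq_zero] at h4
  rw [← h4]
  exact hxd.hasFDerivAt

end Vale.Agent.P074
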