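import Vale.Agent.P074.Defs

/-!
# Maxima of affine functions and their cells
-/

open MeasureTheory Set
open scoped ENNReal InnerProductSpace

namespace Vale.Agent.P074

/-- maximum of finitely many affine functions -/
noncomputable def maxAff {d : ℕ} {ι : Type*} (y : ι → E d) (a : ι → ℝ) (x : E d) : ℝ :=
  ⨆ i, (inner ℝ x (y i) - a i)

/-- the cell of `K` on which the `i`-th affine function is maximal -/
def cell {d : ℕ} {ι : Type*} (K : Set (E d)) (y : ι → E d) (a : ι → ℝ) (i : ι) : Set (E d) :=
  {x : E d | x ∈ K ∧ ∀ j, inner ℝ x (y j) - a j ≤ inner ℝ x (y i) - a i}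

end Vale.Agent.P074
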