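import Vale.Agent.P074.Defs

/-!
# An interpolation inequality for differences of convex Lipschitz functions

`∫_K |∇φ - ∇ψ|² ≤ C (∫_K |φ - ψ|²)^{1/3}` on a convex body `K`.
-/

open MeasureTheory Set Metric
open scoped ENNReal InnerProductSpace NNReal

namespace Vale.Agent.P074

variable {d : ℕ}

/-- gradient inequality for convex functions -/
theorem convex_grad_le {φ : E d → ℝ} (hφ : ConvexOn ℝ univ φ) {x g : E d}
    (hg : HasGradientAt φ g x) (v : E d) : φ x + inner ℝ g v ≤ φ (x + v) := by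
  have hc : ConvexOn ℝ univ (φ ∘ (AffineMap.lineMap x (x + v) : ℝ →ᵃ[ℝ] E d)) := by
    have := hφ.comp_affineMap (AffineMap.lineMap x (x + v) : ℝ →ᵃ[ℝ] E d)
    simpa using this
  have hline : HasDerivAt (AffineMap.lineMap x (x + v) : ℝ → E d) v (0:ℝ) := by
    have := AffineMap.hasDerivAt_lineMap (𝕜 := ℝ) (a := x) (b := x + v) (x := (0:ℝ))
    simpa using this
  have hd : HasDerivAt (φ ∘ (AffineMap.lineMap x (x + v) : ℝ →ᵃ[ℝ] E d)) (inner ℝ g v) (0:ℝ) := by
    have h1 : HasFDerivAt φ ((InnerProductSpace.toDual ℝ (E d)) g)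
        ((AffineMap.lineMap x (x + v) : ℝ →ᵃ[ℝ] E d) (0:ℝ)) := by
      simpa using hg.hasFDerivAt
    have := h1.comp_hasDerivAt (0:ℝ) hline
    simpa using this
  have := hc.le_slope_of_hasDerivAt (mem_univ 0) (mem_univ 1) zero_lt_one hd
  rw [slope_def_field] at this
  simp only [Function.comp, AffineMap.lineMap_apply_one, AffineMap.lineMap_apply_zero, sub_zero,
    div_one] at this
  linarith

theorem grad_norm_le {φ : E d → ℝ} (hφ : ConvexOn ℝ univ φ) {L : ℝ≥0} (hL : LipschitzWith L φ)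
    {x g : E d} (hg : HasGradientAt φ g x) : ‖g‖ ≤ L := by
  have h1 := convex_grad_le hφ hg g
  have h2 : φ (x + g) - φ x ≤ L * ‖g‖ := by
    have := hL.dist_le_mul (x + g) x
    rw [Real.dist_eq, dist_eq_norm, add_sub_cancel_left] at this
    exact (le_abs_self _).trans this
  rw [real_inner_self_eq_norm_sq] at h1
  by_contra hcon
  push Not at hcon
  have hg0 : 0 < ‖g‖ := lt_of_le_of_lt L.2 hcon
  nlinarith

/-- the shrunken body -/
def shrink (K : Set (E d)) (p : E d) (t : ℝ) : Set (E d) :=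
  AffineMap.homothety p (1 - t) '' K

theorem mem_shrink {K : Set (E d)} {p : E d} {t : ℝ} {x : E d} :
    x ∈ shrink K p t ↔ ∃ k ∈ K, x = p + (1 - t) • (k - p) := by
  unfold shrink
  simp only [mem_image, AffineMap.homothety_apply, vsub_eq_sub, vadd_eq_add]
  constructor
  · rintro ⟨k, hk, rfl⟩; exact ⟨k, hk, add_comm _ _⟩
  · rintro ⟨k, hk, rfl⟩; exact ⟨k, hk, add_comm _ _⟩

theorem shrink_add_mem {K : Set (E d)} (hKc : Convex ℝ K) {p : E d} {r : ℝ}
    (hr : closedBall p r ⊆ K) {t : ℝ} (ht0 : 0 < t) (ht1 : t ≤ 1) {x v : E d}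
    (hx : x ∈ shrink K p t) (hv : ‖v‖ ≤ t * r) : x + v ∈ K := by
  obtain ⟨k, hk, rfl⟩ := mem_shrink.mp hx
  have hq : p + (1 / t) • v ∈ K := by
    apply hr
    rw [mem_closedBall, dist_eq_norm, add_sub_cancel_left, norm_smul, Real.norm_of_nonneg
      (by positivity)]
    rw [div_mul_eq_mul_div, one_mul, div_le_iff₀ ht0]
    linarith
  have := hKc hk hq (a := 1 - t) (b := t) (by linarith) ht0.le (by ring)
  convert this using 1
  rw [smul_add, smul_smul, mul_one_div_cancel ht0.ne', one_smul, smul_sub]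
  have : p = (1 - t) • p + t • p := by rw [← add_smul]; simp
  nth_rewrite 1 [this]
  abel

theorem shrink_subset {K : Set (E d)} (hKc : Convex ℝ K) {p : E d} {r : ℝ} (hr0 : 0 ≤ r)
    (hr : closedBall p r ⊆ K) {t : ℝ} (ht0 : 0 < t) (ht1 : t ≤ 1) : shrink K p t ⊆ K := by
  intro x hx
  have := shrink_add_mem hKc hr ht0 ht1 hx (v := 0) (by simp; positivity)
  simpa using this

theorem shrink_add_mem_shrink {K : Set (E d)} (hKc : Convex ℝ K) {p : E d} {r : ℝ}
    (hr : closedBall p r ⊆ K) {t : ℝ} (ht0 : 0 < t) (ht1 : t ≤ 1 / 2) {x v : E d}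
    (hx : x ∈ shrink K p (2 * t)) (hv : ‖v‖ ≤ t * r) : x + v ∈ shrink K p t := by
  obtain ⟨k, hk, rfl⟩ := mem_shrink.mp hx
  have h1t : 0 < 1 - t := by linarith
  rw [mem_shrink]
  have hq : p + (1 / t) • v ∈ K := by
    apply hr
    rw [mem_closedBall, dist_eq_norm, add_sub_cancel_left, norm_smul, Real.norm_of_nonneg
      (by positivity)]
    rw [div_mul_eq_mul_div, one_mul, div_le_iff₀ ht0]
    linarith
  have := hKc hk hq (a := (1 - 2 * t) / (1 - t)) (b := t / (1 - t))
    (div_nonneg (by linarith) h1t.le) (div_nonneg ht0.le h1t.le) (by field_simp; ring)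
  refine ⟨_, this, ?_⟩
  match_scalars <;> field_simp <;> ring

theorem measurableSet_shrink {K : Set (E d)} (hK : IsCompact K) (p : E d) (t : ℝ) :
    MeasurableSet (shrink K p t) := by
  apply IsCompact.measurableSet
  apply hK.image
  exact AffineMap.homothety_continuous p (1 - t)

theorem volume_diff_shrink {K : Set (E d)} (hK : IsCompact K) (hKc : Convex ℝ K) {p : E d}
    {r : ℝ} (hr0 : 0 ≤ r) (hr : closedBall p r ⊆ K) {t : ℝ} (ht0 : 0 < t) (ht1 : t ≤ 1) :
    (volume (K \ shrink K p t)).toReal ≤ d * t * (volume K).toReal := by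
  have hfin : volume K ≠ ∞ := hK.measure_lt_top.ne
  have hsub := shrink_subset hKc hr0 hr ht0 ht1
  rw [measure_sdiff hsub (measurableSet_shrink hK p t).nullMeasurableSet
    (ne_top_of_le_ne_top hfin (measure_mono hsub))]
  rw [ENNReal.toReal_sub_of_le (measure_mono hsub) hfin]
  unfold shrink
  rw [Measure.addHaar_image_homothety, ENNReal.toReal_mul, ENNReal.toReal_ofReal (abs_nonneg _),
    finrank_euclideanSpace_fin, abs_of_nonneg (by apply pow_nonneg; linarith)]
  have hb : 1 + (d:ℝ) * (-t) ≤ (1 + (-t)) ^ d := one_add_mul_le_pow (by linarith) d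
  have hv : 0 ≤ (volume K).toReal := ENNReal.toReal_nonneg
  have : (1 + (-t)) ^ d = (1 - t) ^ d := by congr 1
  rw [this] at hb
  nlinarith

theorem setIntegral_translate_le {K A : Set (E d)} (hA : MeasurableSet A) (hK : MeasurableSet K)
    {F : E d → ℝ} (hF : ∀ x, 0 ≤ F x) (hFi : IntegrableOn F K) (v : E d)
    (hAv : ∀ x ∈ A, x + v ∈ K) : ∫ x in A, F (x + v) ≤ ∫ x in K, F x := by
  have hmp := measurePreserving_add_right (volume : Measure (E d)) v
  have hS : A = (fun x => x + v) ⁻¹' ((fun x => x - v) ⁻¹' A) := by ext; simp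
  have h1 : ∫ x in A, F (x + v) = ∫ y in (fun x => x - v) ⁻¹' A, F y := by
    conv_lhs => rw [hS]
    exact hmp.setIntegral_preimage_emb (measurableEmbedding_addRight v) F _
  rw [h1]
  refine setIntegral_mono_set hFi (ae_of_all _ hF) (LE.le.eventuallyLE ?_)
  intro y hy
  have := hAv _ hy
  simpa using this

theorem second_diff_bound {K : Set (E d)} (hK : IsCompact K) (hKc : Convex ℝ K) {p : E d}
    {r : ℝ} (hr0 : 0 < r) (hr : closedBall p r ⊆ K) {t : ℝ} (ht0 : 0 < t) (ht1 : t ≤ 1 / 2)
    {L : ℝ≥0} {ψ : E d → ℝ} (hL : LipschitzWith L ψ) {v : E d} (hv : ‖v‖ ≤ t * r) :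
    ∫ x in shrink K p t, (ψ (x + v) - 2 * ψ x + ψ (x - v)) ≤
      4 * d * L * ‖v‖ * t * (volume K).toReal := by
  have hψ : Continuous ψ := hL.continuous
  have hKm := hK.measurableSet
  have hKtm := measurableSet_shrink hK p t
  have hK2m := measurableSet_shrink hK p (2 * t)
  have hKt := shrink_subset hKc hr0.le hr ht0 (by linarith)
  have hK2 := shrink_subset hKc hr0.le hr (t := 2 * t) (by linarith) (by linarith)
  have hK2t : shrink K p (2 * t) ⊆ shrink K p t := by
    intro x hx
    have := shrink_add_mem_shrink hKc hr ht0 ht1 hx (v := 0) (by simp; positivity)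
    simpa using this
  set g : E d → ℝ := fun x => ψ (x + v) - ψ x with hg
  have hgc : Continuous g := by fun_prop
  have hgb : ∀ x, |g x| ≤ L * ‖v‖ := by
    intro x
    have := hL.dist_le_mul (x + v) x
    rw [Real.dist_eq, dist_eq_norm, add_sub_cancel_left] at this
    exact this
  have hgi : IntegrableOn g K := hgc.continuousOn.integrableOn_compact hK
  set S' : Set (E d) := (fun x => x + v) ⁻¹' (shrink K p t) with hS'
  have hS'm : MeasurableSet S' := (measurable_add_const v) hKtm
  have hS'K : S' ⊆ K := by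
    intro y hy
    have := shrink_add_mem hKc hr ht0 (by linarith) (x := y + v) hy (v := -v) (by simpa using hv)
    simpa using this
  have hK2S : shrink K p (2 * t) ⊆ S' := by
    intro y hy
    exact shrink_add_mem_shrink hKc hr ht0 ht1 hy hv
  have hdiff := volume_diff_shrink hK hKc hr0.le hr (t := 2 * t) (by linarith) (by linarith)
  have hfinK : volume K ≠ ∞ := hK.measure_lt_top.ne
  -- integrals over sets between K2t and K
  have hbetween : ∀ B : Set (E d), MeasurableSet B → B ⊆ K → shrink K p (2 * t) ⊆ B →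
      |(∫ x in B, g x) - ∫ x in shrink K p (2 * t), g x| ≤
        L * ‖v‖ * (d * (2 * t) * (volume K).toReal) := by
    intro B hB hBK hKB
    have e : ∫ x in B, g x =
        (∫ x in shrink K p (2 * t), g x) + ∫ x in B \ shrink K p (2 * t), g x := by
      rw [← setIntegral_union disjoint_sdiff_self_right (hB.diff hK2m) (hgi.mono_set hK2)
        (hgi.mono_set (sdiff_subset.trans hBK)), union_diff_cancel hKB]
    rw [e, add_sub_cancel_left, ← Real.norm_eq_abs]
    have hfin : volume (B \ shrink K p (2 * t)) < ∞ :=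
      lt_of_le_of_lt (measure_mono (sdiff_subset.trans hBK)) hK.measure_lt_top
    refine (norm_setIntegral_le_of_norm_le_const hfin (fun x _ => hgb x)).trans ?_
    apply mul_le_mul_of_nonneg_left _ (by positivity)
    refine le_trans ?_ hdiff
    apply ENNReal.toReal_mono
    · exact ne_top_of_le_ne_top hfinK (measure_mono sdiff_subset)
    · exact measure_mono (sdiff_subset_sdiff_left hBK)
  have h1 := hbetween _ hKtm hKt hK2t
  have h2 := hbetween S' hS'm hS'K hK2S
  have h3 : ∫ x in shrink K p t, g (x - v) = ∫ x in S', g x := by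
    have hmp := measurePreserving_add_right (volume : Measure (E d)) (-v)
    have e1 : shrink K p t = (fun x => x + -v) ⁻¹' S' := by
      ext x; simp [hS']
    have := hmp.setIntegral_preimage_emb (measurableEmbedding_addRight (-v)) g S'
    rw [← this]
    conv_lhs => rw [e1]
    simp only [sub_eq_add_neg]
  have h4 : ∫ x in shrink K p t, (ψ (x + v) - 2 * ψ x + ψ (x - v)) =
      (∫ x in shrink K p t, g x) - ∫ x in shrink K p t, g (x - v) := by
    rw [← integral_sub]
    · congr 1
      ext x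
      simp only [hg, sub_add_cancel]
      ring
    · exact hgi.mono_set hKt
    · have : Continuous (fun x => g (x - v)) := by fun_prop
      exact (this.continuousOn.integrableOn_compact hK).mono_set hKt
  rw [h4, h3]
  rw [abs_le] at h1 h2
  nlinarith [h1.1, h1.2, h2.1, h2.2]

/-- pointwise estimate behind `coord_est` -/
theorem pointwise_est {L : ℝ≥0} {φ ψ : E d → ℝ} (hφ : ConvexOn ℝ univ φ)
    (hψ : ConvexOn ℝ univ ψ) (hψL : LipschitzWith L ψ) (j : Fin d) {τ : ℝ} (hτ0 : 0 < τ)
    {x gφ gψ : E d} (h1 : HasGradientAt φ gφ x) (h2 : HasGradientAt ψ gψ x) :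
    τ ^ 2 * (gφ j - gψ j) ^ 2 ≤
      3 * ((φ (x + EuclideanSpace.single j τ) - ψ (x + EuclideanSpace.single j τ)) ^ 2 +
        (φ (x + -EuclideanSpace.single j τ) - ψ (x + -EuclideanSpace.single j τ)) ^ 2 +
        (φ x - ψ x) ^ 2 +
        2 * L * τ * (ψ (x + EuclideanSpace.single j τ) - 2 * ψ x +
          ψ (x - EuclideanSpace.single j τ))) := by
  set v : E d := EuclideanSpace.single j τ with hv
  have hvn : ‖v‖ = τ := by simp [hv, abs_of_pos hτ0]
  have hinner : ∀ g : E d, inner ℝ g v = τ * g j := by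
    intro g; simp [hv, EuclideanSpace.inner_single_right]
  have a1 := convex_grad_le hφ h1 v
  have a2 := convex_grad_le hφ h1 (-v)
  have a3 := convex_grad_le hψ h2 v
  have a4 := convex_grad_le hψ h2 (-v)
  rw [inner_neg_right] at a2 a4
  rw [hinner] at a1 a2 a3 a4
  rw [show x - v = x + -v from sub_eq_add_neg _ _]
  set D : ℝ := ψ (x + v) - 2 * ψ x + ψ (x + -v) with hD
  have hD0 : 0 ≤ D := by linarith
  have hD1 : D ≤ 2 * L * τ := by
    have b1 := hψL.dist_le_mul (x + v) x
    have b2 := hψL.dist_le_mul (x + -v) x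
    rw [Real.dist_eq, dist_eq_norm, add_sub_cancel_left, hvn] at b1
    rw [Real.dist_eq, dist_eq_norm, add_sub_cancel_left, norm_neg, hvn] at b2
    have b1' := (le_abs_self _).trans b1
    have b2' := (le_abs_self _).trans b2
    linarith
  have hD2 : D ^ 2 ≤ 2 * L * τ * D := by nlinarith
  have e1 : τ * (gφ j - gψ j) ≤ (φ (x + v) - ψ (x + v)) - (φ x - ψ x) + D := by linarith
  have e2 : -(τ * (gφ j - gψ j)) ≤ (φ (x + -v) - ψ (x + -v)) - (φ x - ψ x) + D := by linarith
  generalize φ (x + v) - ψ (x + v) = P at *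
  generalize φ (x + -v) - ψ (x + -v) = M at *
  generalize φ x - ψ x = Q at *
  generalize D = D' at *
  have hA2 : τ ^ 2 * (gφ j - gψ j) ^ 2 = (τ * (gφ j - gψ j)) ^ 2 := by ring
  rw [hA2]
  generalize τ * (gφ j - gψ j) = A at *
  have hfin : A ^ 2 ≤ 3 * (P ^ 2 + M ^ 2 + Q ^ 2 + D' ^ 2) := by
    rcases le_total 0 A with hA0 | hA0
    · have : A ^ 2 ≤ (P - Q + D') ^ 2 := pow_le_pow_left₀ hA0 e1 2
      nlinarith [sq_nonneg (P + Q), sq_nonneg (P - D'), sq_nonneg (Q + D'), sq_nonneg M]
    · have : (-A) ^ 2 ≤ (M - Q + D') ^ 2 := pow_le_pow_left₀ (by linarith) e2 2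
      nlinarith [sq_nonneg (M + Q), sq_nonneg (M - D'), sq_nonneg (Q + D'), sq_nonneg P]
  linarith

/-- estimate for one partial derivative -/
theorem coord_est {K : Set (E d)} (hK : IsCompact K) (hKc : Convex ℝ K) {p : E d}
    {r : ℝ} (hr0 : 0 < r) (hr : closedBall p r ⊆ K) {t : ℝ} (ht0 : 0 < t) (ht1 : t ≤ 1 / 2)
    {L : ℝ≥0} {φ ψ : E d → ℝ} (hφ : ConvexOn ℝ univ φ) (hψ : ConvexOn ℝ univ ψ)
    (hφL : LipschitzWith L φ) (hψL : LipschitzWith L ψ) {T S : E d → E d}
    (hT : Measurable T) (hS : Measurable S)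
    (hTg : ∀ᵐ x ∂(volume.restrict K), HasGradientAt φ (T x) x)
    (hSg : ∀ᵐ x ∂(volume.restrict K), HasGradientAt ψ (S x) x) (j : Fin d) :
    ∫ x in K, (T x j - S x j) ^ 2 ≤
      12 * (∫ x in K, (φ x - ψ x) ^ 2) / (t * r) ^ 2 + 36 * d * L ^ 2 * t * (volume K).toReal := by
  have hKm := hK.measurableSet
  have hKtm := measurableSet_shrink hK p t
  have hKt := shrink_subset hKc hr0.le hr ht0 (by linarith)
  have hφc := hφL.continuous
  have hψc := hψL.continuous
  have hfinK : volume K ≠ ∞ := hK.measure_lt_top.ne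
  set τ : ℝ := t * r with hτ
  have hτ0 : 0 < τ := by positivity
  set v : E d := EuclideanSpace.single j τ with hv
  have hvn : ‖v‖ = τ := by simp [hv, abs_of_pos hτ0]
  have hvle : ‖v‖ ≤ t * r := hvn.le
  have hinner : ∀ g : E d, inner ℝ g v = τ * g j := by
    intro g; simp [hv, EuclideanSpace.inner_single_right]
  set J : ℝ := ∫ x in K, (φ x - ψ x) ^ 2 with hJ
  have hcoord : Measurable (fun x => (T x j - S x j) ^ 2) := by
    have h1 : Measurable (fun x => T x j) := (show Measurable (fun x : E d => x j) by fun_prop).comp hT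
    have h2 : Measurable (fun x => S x j) := (show Measurable (fun x : E d => x j) by fun_prop).comp hS
    exact (h1.sub h2).pow_const 2
  have hae : ∀ᵐ x ∂(volume.restrict K), (T x j - S x j) ^ 2 ≤ 4 * L ^ 2 := by
    filter_upwards [hTg, hSg] with x h1 h2
    have b1 := grad_norm_le hφ hφL h1
    have b2 := grad_norm_le hψ hψL h2
    have c1 : |T x j| ≤ ‖T x‖ := PiLp.norm_apply_le (T x) j
    have c2 : |S x j| ≤ ‖S x‖ := PiLp.norm_apply_le (S x) j
    have : |T x j - S x j| ≤ 2 * L := by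
      refine (abs_sub _ _).trans ?_
      linarith
    calc (T x j - S x j) ^ 2 = |T x j - S x j| ^ 2 := (sq_abs _).symm
      _ ≤ (2 * L) ^ 2 := pow_le_pow_left₀ (abs_nonneg _) this 2
      _ = 4 * L ^ 2 := by ring
  have hint : IntegrableOn (fun x => (T x j - S x j) ^ 2) K := by
    refine Measure.integrableOn_of_bounded (M := 4 * L ^ 2) hfinK hcoord.aestronglyMeasurable ?_
    filter_upwards [hae] with x hx
    rw [Real.norm_of_nonneg (by positivity)]; exact hx
  -- split K
  have hsplit : ∫ x in K, (T x j - S x j) ^ 2 =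
      (∫ x in shrink K p t, (T x j - S x j) ^ 2) +
        ∫ x in K \ shrink K p t, (T x j - S x j) ^ 2 := by
    rw [← setIntegral_union disjoint_sdiff_self_right (hKm.diff hKtm) (hint.mono_set hKt)
        (hint.mono_set sdiff_subset), union_diff_cancel hKt]
  have houter : ∫ x in K \ shrink K p t, (T x j - S x j) ^ 2 ≤
      4 * L ^ 2 * (d * t * (volume K).toReal) := by
    have hfin : volume (K \ shrink K p t) < ∞ :=
      lt_of_le_of_lt (measure_mono sdiff_subset) hK.measure_lt_top
    have h1 : ‖∫ x in K \ shrink K p t, (T x j - S x j) ^ 2‖ ≤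
        4 * L ^ 2 * (volume (K \ shrink K p t)).toReal := by
      apply norm_setIntegral_le_of_norm_le_const_ae' hfin
      have := (ae_restrict_iff' hKm).mp hae
      filter_upwards [this] with x hx hxm
      rw [Real.norm_of_nonneg (by positivity)]
      exact hx hxm.1
    have h2 := volume_diff_shrink hK hKc hr0.le hr ht0 (by linarith : t ≤ 1)
    calc ∫ x in K \ shrink K p t, (T x j - S x j) ^ 2
        ≤ 4 * L ^ 2 * (volume (K \ shrink K p t)).toReal := (le_abs_self _).trans h1
      _ ≤ _ := mul_le_mul_of_nonneg_left h2 (by positivity)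
  -- inner part
  set D : E d → ℝ := fun x => ψ (x + v) - 2 * ψ x + ψ (x - v) with hD
  have hDc : Continuous D := by fun_prop
  have hpt : ∀ᵐ x ∂(volume.restrict (shrink K p t)), τ ^ 2 * (T x j - S x j) ^ 2 ≤
      3 * ((φ (x + v) - ψ (x + v)) ^ 2 + (φ (x + -v) - ψ (x + -v)) ^ 2 + (φ x - ψ x) ^ 2 +
        2 * L * τ * D x) := by
    have hle : volume.restrict (shrink K p t) ≤ volume.restrict K := Measure.restrict_mono hKt le_rfl
    filter_upwards [ae_mono hle hTg, ae_mono hle hSg] with x h1 h2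
    exact pointwise_est hφ hψ hψL j hτ0 h1 h2
  have hf2c : Continuous (fun x => (φ x - ψ x) ^ 2) := by fun_prop
  have hf2i : IntegrableOn (fun x => (φ x - ψ x) ^ 2) K := hf2c.continuousOn.integrableOn_compact hK
  have i1 : ∫ x in shrink K p t, (φ (x + v) - ψ (x + v)) ^ 2 ≤ J :=
    setIntegral_translate_le hKtm hKm (fun x => by positivity) hf2i v
      (fun x hx => shrink_add_mem hKc hr ht0 (by linarith) hx hvle)
  have i2 : ∫ x in shrink K p t, (φ (x + -v) - ψ (x + -v)) ^ 2 ≤ J :=
    setIntegral_translate_le hKtm hKm (fun x => by positivity) hf2i (-v)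
      (fun x hx => shrink_add_mem hKc hr ht0 (by linarith) hx (by simpa using hvle))
  have i3 : ∫ x in shrink K p t, (φ x - ψ x) ^ 2 ≤ J :=
    setIntegral_mono_set hf2i (ae_of_all _ fun x => by positivity)
      (LE.le.eventuallyLE hKt)
  have i4 := second_diff_bound hK hKc hr0 hr ht0 ht1 hψL hvle
  rw [hvn] at i4
  have hq1 : IntegrableOn (fun x => (φ (x + v) - ψ (x + v)) ^ 2) (shrink K p t) := by
    have : Continuous (fun x => (φ (x + v) - ψ (x + v)) ^ 2) := by fun_prop
    exact (this.continuousOn.integrableOn_compact hK).mono_set hKt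
  have hq2 : IntegrableOn (fun x => (φ (x + -v) - ψ (x + -v)) ^ 2) (shrink K p t) := by
    have : Continuous (fun x => (φ (x + -v) - ψ (x + -v)) ^ 2) := by fun_prop
    exact (this.continuousOn.integrableOn_compact hK).mono_set hKt
  have hq3 := hf2i.mono_set hKt
  have hq4 : IntegrableOn D (shrink K p t) := (hDc.continuousOn.integrableOn_compact hK).mono_set hKt
  have hinnerint : τ ^ 2 * ∫ x in shrink K p t, (T x j - S x j) ^ 2 ≤
      3 * (J + J + J + 2 * L * τ * (4 * d * L * τ * t * (volume K).toReal)) := by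
    rw [← integral_const_mul]
    have hR : ∫ x in shrink K p t, 3 * ((φ (x + v) - ψ (x + v)) ^ 2 +
        (φ (x + -v) - ψ (x + -v)) ^ 2 + (φ x - ψ x) ^ 2 + 2 * L * τ * D x) =
        3 * ((∫ x in shrink K p t, (φ (x + v) - ψ (x + v)) ^ 2) +
          (∫ x in shrink K p t, (φ (x + -v) - ψ (x + -v)) ^ 2) +
          (∫ x in shrink K p t, (φ x - ψ x) ^ 2) + 2 * L * τ * ∫ x in shrink K p t, D x) := by
      rw [integral_const_mul, integral_add, integral_add, integral_add, integral_const_mul]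
      · exact hq1
      · exact hq2
      · exact hq1.add hq2
      · exact hq3
      · exact (hq1.add hq2).add hq3
      · exact hq4.const_mul _
    refine (integral_mono_ae ?_ ?_ hpt).trans ?_
    · exact (hint.mono_set hKt).const_mul _
    · exact (((hq1.add hq2).add hq3).add (hq4.const_mul _)).const_mul _
    · rw [hR]
      have : 2 * L * τ * ∫ x in shrink K p t, D x ≤
          2 * L * τ * (4 * d * L * τ * t * (volume K).toReal) :=
        mul_le_mul_of_nonneg_left i4 (by positivity)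
      linarith
  have hJ0 : 0 ≤ J := integral_nonneg fun x => by positivity
  have hin : ∫ x in shrink K p t, (T x j - S x j) ^ 2 ≤
      9 * J / τ ^ 2 + 24 * d * L ^ 2 * t * (volume K).toReal := by
    rw [← sub_nonneg]
    have e : 9 * J / τ ^ 2 + 24 * d * L ^ 2 * t * (volume K).toReal -
        ∫ x in shrink K p t, (T x j - S x j) ^ 2 =
        (3 * (J + J + J + 2 * L * τ * (4 * d * L * τ * t * (volume K).toReal)) -
          τ ^ 2 * ∫ x in shrink K p t, (T x j - S x j) ^ 2) / τ ^ 2 := by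
      field_simp; ring
    rw [e]
    exact div_nonneg (by linarith) (by positivity)
  rw [hsplit]
  have h9 : 9 * J / τ ^ 2 ≤ 12 * J / τ ^ 2 := by
    apply div_le_div_of_nonneg_right _ (by positivity); linarith
  have hv0 : 0 ≤ (volume K).toReal := ENNReal.toReal_nonneg
  have h10 : 0 ≤ d * (L:ℝ) ^ 2 * t * (volume K).toReal := by positivity
  nlinarith

/-- The interpolation inequality. -/
theorem gn {K : Set (E d)} (hK : IsCompact K) (hKc : Convex ℝ K) (hKi : (interior K).Nonempty)
    (L : ℝ≥0) : ∃ C : ℝ, 0 ≤ C ∧ ∀ (φ ψ : E d → ℝ) (T S : E d → E d),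
      ConvexOn ℝ univ φ → ConvexOn ℝ univ ψ → LipschitzWith L φ → LipschitzWith L ψ →
      Measurable T → Measurable S →
      (∀ᵐ x ∂(volume.restrict K), HasGradientAt φ (T x) x) →
      (∀ᵐ x ∂(volume.restrict K), HasGradientAt ψ (S x) x) →
      ∫ x in K, ‖T x - S x‖ ^ 2 ≤ C * (∫ x in K, (φ x - ψ x) ^ 2) ^ (1 / 3 : ℝ) := by
  obtain ⟨p, hp⟩ := hKi
  obtain ⟨r, hr0, hr⟩ : ∃ r > 0, closedBall p r ⊆ K := by
    obtain ⟨ε, hε, hb⟩ := Metric.isOpen_iff.mp isOpen_interior p hp
    refine ⟨ε / 2, by positivity, ?_⟩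
    exact (closedBall_subset_ball (by linarith)).trans (hb.trans interior_subset)
  have hfinK : volume K ≠ ∞ := hK.measure_lt_top.ne
  have hKm := hK.measurableSet
  set vK : ℝ := (volume K).toReal with hvK
  have hvK0 : 0 ≤ vK := ENNReal.toReal_nonneg
  set A : ℝ := d * (12 / r ^ 2) with hA
  set B : ℝ := d * (36 * d * L ^ 2 * vK) with hB
  have hA0 : 0 ≤ A := by positivity
  have hB0 : 0 ≤ B := by positivity
  refine ⟨A + B + 8 * L ^ 2 * vK, by positivity, ?_⟩
  intro φ ψ T S hφ hψ hφL hψL hT hS hTg hSg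
  set J : ℝ := ∫ x in K, (φ x - ψ x) ^ 2 with hJ
  have hJ0 : 0 ≤ J := integral_nonneg fun x => by positivity
  have hsum : ∫ x in K, ‖T x - S x‖ ^ 2 = ∑ j, ∫ x in K, (T x j - S x j) ^ 2 := by
    rw [← integral_finsetSum]
    · congr 1
      ext x
      rw [EuclideanSpace.norm_sq_eq]
      simp [sq_abs]
    · intro j _
      have h1 : Measurable (fun x => T x j) :=
        (show Measurable (fun x : E d => x j) by fun_prop).comp hT
      have h2 : Measurable (fun x => S x j) :=
        (show Measurable (fun x : E d => x j) by fun_prop).comp hS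
      refine Measure.integrableOn_of_bounded (M := 4 * L ^ 2) hfinK
        ((h1.sub h2).pow_const 2).aestronglyMeasurable ?_
      filter_upwards [hTg, hSg] with x h1 h2
      have b1 := grad_norm_le hφ hφL h1
      have b2 := grad_norm_le hψ hψL h2
      have c1 : |T x j| ≤ ‖T x‖ := PiLp.norm_apply_le (T x) j
      have c2 : |S x j| ≤ ‖S x‖ := PiLp.norm_apply_le (S x) j
      have : |T x j - S x j| ≤ 2 * L := by
        refine (abs_sub _ _).trans ?_
        linarith
      rw [Real.norm_of_nonneg (by positivity)]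
      calc (T x j - S x j) ^ 2 = |T x j - S x j| ^ 2 := (sq_abs _).symm
        _ ≤ (2 * L) ^ 2 := pow_le_pow_left₀ (abs_nonneg _) this 2
        _ = 4 * L ^ 2 := by ring
  have hmain : ∀ t : ℝ, 0 < t → t ≤ 1 / 2 →
      ∫ x in K, ‖T x - S x‖ ^ 2 ≤ A * (J / t ^ 2) + B * t := by
    intro t ht0 ht1
    rw [hsum]
    calc ∑ j, ∫ x in K, (T x j - S x j) ^ 2
        ≤ ∑ _j : Fin d, (12 * J / (t * r) ^ 2 + 36 * d * L ^ 2 * t * vK) :=
          Finset.sum_le_sum fun j _ =>
            coord_est hK hKc hr0 hr ht0 ht1 hφ hψ hφL hψL hT hS hTg hSg j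
      _ = A * (J / t ^ 2) + B * t := by
          rw [Finset.sum_const, Finset.card_univ, Fintype.card_fin, nsmul_eq_mul, hA, hB]
          field_simp
  have hbig : ∫ x in K, ‖T x - S x‖ ^ 2 ≤ 4 * L ^ 2 * vK := by
    have h1 : ‖∫ x in K, ‖T x - S x‖ ^ 2‖ ≤ 4 * L ^ 2 * (volume K).toReal := by
      apply norm_setIntegral_le_of_norm_le_const_ae' hK.measure_lt_top
      have h3 : ∀ᵐ x ∂(volume.restrict K), ‖‖T x - S x‖ ^ 2‖ ≤ 4 * L ^ 2 := by
        filter_upwards [hTg, hSg] with x h1 h2
        have b1 := grad_norm_le hφ hφL h1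
        have b2 := grad_norm_le hψ hψL h2
        rw [Real.norm_of_nonneg (by positivity)]
        calc ‖T x - S x‖ ^ 2 ≤ (2 * L) ^ 2 :=
              pow_le_pow_left₀ (norm_nonneg _) ((norm_sub_le _ _).trans (by linarith)) 2
          _ = 4 * L ^ 2 := by ring
      exact (ae_restrict_iff' hKm).mp h3
    exact (le_abs_self _).trans h1
  rcases hJ0.eq_or_lt with hJz | hJpos
  · -- J = 0
    rw [← hJz, Real.zero_rpow (by norm_num), mul_zero]
    by_contra hcon
    push Not at hcon
    set I := ∫ x in K, ‖T x - S x‖ ^ 2 with hI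
    have h2 := hmain (min (1 / 2) (I / (2 * (B + 1)))) (lt_min (by norm_num) (by positivity))
      (min_le_left _ _)
    rw [← hJz, zero_div, mul_zero, zero_add] at h2
    have h3 : B * min (1 / 2) (I / (2 * (B + 1))) ≤ B * (I / (2 * (B + 1))) :=
      mul_le_mul_of_nonneg_left (min_le_right _ _) hB0
    have h4 : B * (I / (2 * (B + 1))) ≤ I / 2 := by
      rw [mul_div_assoc', div_le_div_iff₀ (by positivity) (by norm_num)]
      nlinarith
    linarith
  · have hJ3 : 0 < J ^ (1 / 3 : ℝ) := Real.rpow_pos_of_pos hJpos _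
    have hcube : (J ^ (1 / 3 : ℝ)) ^ 3 = J := by
      rw [← Real.rpow_natCast, ← Real.rpow_mul hJpos.le]; norm_num
    rcases le_total (J ^ (1 / 3 : ℝ)) (1 / 2) with hle | hge
    · have h1 := hmain _ hJ3 hle
      have h2 : J / (J ^ (1 / 3 : ℝ)) ^ 2 = J ^ (1 / 3 : ℝ) := by
        rw [div_eq_iff (by positivity)]
        nth_rewrite 1 [← hcube]; ring
      rw [h2] at h1
      have h3 : 0 ≤ 8 * (L:ℝ) ^ 2 * vK * J ^ (1 / 3 : ℝ) := by positivity
      nlinarith
    · have h3 : 4 * (L:ℝ) ^ 2 * vK ≤ 8 * L ^ 2 * vK * J ^ (1 / 3 : ℝ) := by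
        have : 0 ≤ 8 * (L:ℝ) ^ 2 * vK := by positivity
        nlinarith
      have h4 : 0 ≤ (A + B) * J ^ (1 / 3 : ℝ) := by positivity
      nlinarith

end Vale.Agent.P074
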