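import Vale.Agent.P074.Cells
import Vale.Agent.P074.GN

/-!
# Discretization of convex potentials by finitely many tangent planes
-/

open MeasureTheory Set Metric
open scoped ENNReal InnerProductSpace NNReal

namespace Vale.Agent.P074

variable {d : ℕ}

/-- affine hyperplanes are null -/
theorem volume_hyperplane {w : E d} (hw : w ≠ 0) (c : ℝ) :
    volume {x : E d | inner ℝ x w = c} = 0 := by
  have hw2 : (0:ℝ) < ‖w‖ ^ 2 := by
    have : 0 < ‖w‖ := norm_pos_iff.mpr hw
    positivity
  set L : E d →ₗ[ℝ] ℝ := (innerSL ℝ w : E d →L[ℝ] ℝ).toLinearMap with hL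
  have hLa : ∀ x, L x = inner ℝ w x := fun x => rfl
  have hne : LinearMap.ker L ≠ ⊤ := by
    intro h
    have : w ∈ LinearMap.ker L := by rw [h]; trivial
    rw [LinearMap.mem_ker, hLa, real_inner_self_eq_norm_sq] at this
    exact hw2.ne' this
  have h0 := Measure.addHaar_submodule (volume : Measure (E d)) (LinearMap.ker L) hne
  have hp : {x : E d | inner ℝ x w = c} =
      (fun x => (-((c / ‖w‖ ^ 2) • w)) + x) ⁻¹' (LinearMap.ker L : Set (E d)) := by
    ext x
    simp only [mem_ofPred_eq, mem_preimage, SetLike.mem_coe, LinearMap.mem_ker, hLa,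
      inner_add_right, inner_neg_right, inner_smul_right, real_inner_self_eq_norm_sq]
    rw [div_mul_cancel₀ _ hw2.ne', real_inner_comm w x]
    constructor
    · intro h; rw [h]; ring
    · intro h; linarith
  rw [hp, measure_preimage_add]
  exact h0

section finite

variable {ι : Type*} [Finite ι] {y : ι → E d} {a : ι → ℝ}

theorem le_maxAff (y : ι → E d) (a : ι → ℝ) (x : E d) (i : ι) :
    inner ℝ x (y i) - a i ≤ maxAff y a x :=
  le_ciSup (f := fun i => inner ℝ x (y i) - a i) (Set.finite_range _).bddAbove i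

theorem exists_maxAff_eq [Nonempty ι] (y : ι → E d) (a : ι → ℝ) (x : E d) :
    ∃ i, maxAff y a x = inner ℝ x (y i) - a i := by
  obtain ⟨i, hi⟩ := exists_eq_ciSup_of_finite (f := fun i => inner ℝ x (y i) - a i)
  exact ⟨i, hi.symm⟩

theorem mem_cell_iff {K : Set (E d)} {x : E d} {i : ι} :
    x ∈ cell K y a i ↔ x ∈ K ∧ maxAff y a x = inner ℝ x (y i) - a i := by
  constructor
  · rintro ⟨h1, h2⟩
    refine ⟨h1, le_antisymm ?_ (le_maxAff y a x i)⟩
    have : Nonempty ι := ⟨i⟩
    exact ciSup_le h2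
  · rintro ⟨h1, h2⟩
    exact ⟨h1, fun j => by rw [← h2]; exact le_maxAff y a x j⟩

theorem convexOn_maxAff [Nonempty ι] (y : ι → E d) (a : ι → ℝ) :
    ConvexOn ℝ univ (maxAff y a) := by
  refine ⟨convex_univ, ?_⟩
  intro x _ x' _ s t hs ht hst
  obtain ⟨i, hi⟩ := exists_maxAff_eq y a (s • x + t • x')
  rw [hi, inner_add_left, inner_smul_left, inner_smul_left]
  simp only [conj_trivial, smul_eq_mul]
  have h1 := mul_le_mul_of_nonneg_left (le_maxAff y a x i) hs
  have h2 := mul_le_mul_of_nonneg_left (le_maxAff y a x' i) ht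
  have : a i = s * a i + t * a i := by rw [← add_mul, hst, one_mul]
  linarith

theorem lipschitz_maxAff [Nonempty ι] {L : ℝ≥0} (hy : ∀ i, ‖y i‖ ≤ L) (a : ι → ℝ) :
    LipschitzWith L (maxAff y a) := by
  apply LipschitzWith.of_le_add_mul
  intro x x'
  obtain ⟨i, hi⟩ := exists_maxAff_eq y a x
  rw [hi]
  have h1 := le_maxAff y a x' i
  have h2 : inner ℝ (x - x') (y i) ≤ ‖x - x'‖ * ‖y i‖ := real_inner_le_norm _ _
  rw [inner_sub_left] at h2
  rw [dist_eq_norm]
  have h3 : ‖x - x'‖ * ‖y i‖ ≤ L * ‖x - x'‖ := by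
    rw [mul_comm]; exact mul_le_mul_of_nonneg_right (hy i) (norm_nonneg _)
  linarith

theorem hasGradientAt_affine (w : E d) (c : ℝ) (x : E d) :
    HasGradientAt (fun x => inner ℝ x w - c) w x := by
  have h : HasFDerivAt (fun x => (InnerProductSpace.toDual ℝ (E d)) w x - c)
      ((InnerProductSpace.toDual ℝ (E d)) w) x :=
    ((InnerProductSpace.toDual ℝ (E d)) w).hasFDerivAt.sub_const c
  have e : (fun x : E d => inner ℝ x w - c) =
      fun x => (InnerProductSpace.toDual ℝ (E d)) w x - c := by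
    ext x; rw [InnerProductSpace.toDual_apply_apply, real_inner_comm]
  rw [hasGradientAt_iff_hasFDerivAt, e]
  exact h

theorem hasGradientAt_maxAff [Nonempty ι] (hy : Function.Injective y) (K : Set (E d)) :
    ∀ᵐ x ∂(volume : Measure (E d)), ∀ i, x ∈ cell K y a i → HasGradientAt (maxAff y a) (y i) x := by
  have hties : ∀ᵐ x ∂(volume : Measure (E d)), ∀ i j, i ≠ j →
      inner ℝ x (y i) - a i ≠ inner ℝ x (y j) - a j := by
    rw [ae_all_iff]; intro i
    rw [ae_all_iff]; intro j
    by_cases hij : i = j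
    · exact ae_of_all _ fun x h => absurd hij h
    · have hne : y i - y j ≠ 0 := sub_ne_zero.mpr (fun h => hij (hy h))
      have h0 := volume_hyperplane hne (a i - a j)
      rw [ae_iff]
      refine measure_mono_null ?_ h0
      intro x hx
      simp only [mem_ofPred_eq, not_forall, not_not] at hx ⊢
      obtain ⟨_, hx⟩ := hx
      rw [inner_sub_right]; linarith
  filter_upwards [hties] with x hx i hi
  have hlt : ∀ j, j ≠ i → inner ℝ x (y j) - a j < inner ℝ x (y i) - a i := fun j hj =>
    lt_of_le_of_ne (hi.2 j) (hx j i hj)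
  have hev : ∀ᶠ z in nhds x, ∀ j, j ≠ i → inner ℝ z (y j) - a j < inner ℝ z (y i) - a i := by
    rw [Filter.eventually_all]
    intro j
    by_cases hj : j = i
    · exact Filter.Eventually.of_forall fun z h => absurd hj h
    · have hc1 : Continuous (fun z : E d => inner ℝ z (y j) - a j) := by fun_prop
      have hc2 : Continuous (fun z : E d => inner ℝ z (y i) - a i) := by fun_prop
      have := (hc1.continuousAt (x := x)).eventually_lt (hc2.continuousAt (x := x)) (hlt j hj)
      filter_upwards [this] with z hz _ using hz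
  refine (hasGradientAt_affine (y i) (a i) x).congr_of_eventuallyEq ?_
  filter_upwards [hev] with z hz
  apply le_antisymm
  · apply ciSup_le
    intro j
    by_cases hj : j = i
    · rw [hj]
    · exact (hz j hj).le
  · exact le_maxAff y a z i

omit [Finite ι] in
theorem isCompact_cell {K : Set (E d)} (hK : IsCompact K) (y : ι → E d) (a : ι → ℝ) (i : ι) :
    IsCompact (cell K y a i) := by
  have : cell K y a i = K ∩ ⋂ j, {x : E d | inner ℝ x (y j) - a j ≤ inner ℝ x (y i) - a i} := by
    ext x; simp [cell]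
  rw [this]
  apply hK.inter_right
  refine isClosed_iInter fun j => ?_
  exact isClosed_le (by fun_prop) (by fun_prop)

theorem cells_cover [Nonempty ι] {K : Set (E d)} {x : E d} (hx : x ∈ K) (y : ι → E d) (a : ι → ℝ) :
    ∃ i, x ∈ cell K y a i := by
  obtain ⟨i, hi⟩ := exists_maxAff_eq y a x
  exact ⟨i, mem_cell_iff.mpr ⟨hx, hi⟩⟩

omit [Finite ι] in
theorem cells_ae_disjoint (hy : Function.Injective y) (K : Set (E d)) {i j : ι} (hij : i ≠ j) :
    volume (cell K y a i ∩ cell K y a j) = 0 := by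
  have hne : y i - y j ≠ 0 := sub_ne_zero.mpr (fun h => hij (hy h))
  refine measure_mono_null ?_ (volume_hyperplane hne (a i - a j))
  rintro x ⟨h1, h2⟩
  have e1 := h1.2 j
  have e2 := h2.2 i
  simp only [mem_ofPred_eq]
  rw [inner_sub_right]; linarith

end finite

/-- full-measure subsets of a convex body are dense in it -/
theorem exists_mem_of_ae {K : Set (E d)} (hKc : Convex ℝ K) (hKi : (interior K).Nonempty)
    {P : E d → Prop} (hP : ∀ᵐ x ∂(volume.restrict K), P x) {x : E d} (hx : x ∈ K) {ε : ℝ}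
    (hε : 0 < ε) : ∃ z ∈ K, P z ∧ dist x z < ε := by
  have hcl : x ∈ closure (interior K) := by
    rw [hKc.closure_interior_eq_closure_of_nonempty_interior hKi]
    exact subset_closure hx
  obtain ⟨q, hq, hqd⟩ := Metric.mem_closure_iff.mp hcl ε hε
  set U : Set (E d) := interior K ∩ ball x ε with hU
  have hUo : IsOpen U := isOpen_interior.inter isOpen_ball
  have hUne : U.Nonempty := ⟨q, hq, by rw [mem_ball, dist_comm]; exact hqd⟩
  have hpos : 0 < volume U := hUo.measure_pos volume hUne
  by_contra hcon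
  push Not at hcon
  have hsub : U ⊆ {z | ¬ P z} := by
    intro z hz hPz
    have h1 := hcon z (interior_subset hz.1) hPz
    have h2 : dist z x < ε := hz.2
    rw [dist_comm] at h2
    linarith
  have h0 : (volume.restrict K) {z | ¬ P z} = 0 := hP
  have h1 : volume U = (volume.restrict K) U := by
    rw [Measure.restrict_apply hUo.measurableSet, inter_eq_left.mpr
      (inter_subset_left.trans interior_subset)]
  have h2 : (volume.restrict K) U = 0 := measure_mono_null hsub h0
  rw [h1, h2] at hpos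
  exact lt_irrefl _ hpos

/-- Approximation of a convex potential from below by finitely many tangent planes with
distinct slopes. -/
theorem discretize {K : Set (E d)} (hK : IsCompact K) (hKc : Convex ℝ K)
    (hKi : (interior K).Nonempty) {L : ℝ≥0} {φ : E d → ℝ} (hφ : ConvexOn ℝ univ φ)
    (hφL : LipschitzWith L φ) {T : E d → E d}
    (hTg : ∀ᵐ x ∂(volume.restrict K), HasGradientAt φ (T x) x) {δ : ℝ} (hδ : 0 < δ) :
    ∃ (ι : Type) (_ : Fintype ι) (_ : Nonempty ι) (y : ι → E d) (a : ι → ℝ),
      Function.Injective y ∧ (∀ i, ‖y i‖ ≤ L) ∧ (∀ x, maxAff y a x ≤ φ x) ∧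
      (∀ x ∈ K, φ x ≤ maxAff y a x + δ) := by
  classical
  set ε : ℝ := δ / (2 * (L + 1)) with hε
  have hε0 : 0 < ε := by positivity
  set G : Set (E d) := {x | x ∈ K ∧ HasGradientAt φ (T x) x} with hG
  have hGd : ∀ x ∈ K, ∃ z ∈ G, dist x z < ε := by
    intro x hx
    obtain ⟨z, hz, hzP, hzd⟩ := exists_mem_of_ae hKc hKi hTg hx hε0
    exact ⟨z, ⟨hz, hzP⟩, hzd⟩
  have hcov : K ⊆ ⋃ z : G, ball (z : E d) ε := by
    intro x hx
    obtain ⟨z, hz, hzd⟩ := hGd x hx
    exact mem_iUnion.mpr ⟨⟨z, hz⟩, hzd⟩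
  obtain ⟨F, hF⟩ := hK.elim_finite_subcover (fun z : G => ball (z : E d) ε)
    (fun z => isOpen_ball) hcov
  have hKne : K.Nonempty := hKi.mono interior_subset
  obtain ⟨x0, hx0⟩ := hKne
  -- slopes
  set slopes : Finset (E d) := F.image (fun z : G => T (z : E d)) with hsl
  have hex : ∀ s : slopes, ∃ z : G, z ∈ F ∧ T (z : E d) = s := by
    intro s
    obtain ⟨z, hz, hzs⟩ := Finset.mem_image.mp s.2
    exact ⟨z, hz, hzs⟩
  choose q hqF hqT using hex
  have hne : Nonempty slopes := by
    obtain ⟨z, hz⟩ := mem_iUnion.mp (hF hx0)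
    obtain ⟨hzF, -⟩ := mem_iUnion.mp hz
    exact ⟨⟨T (z : E d), Finset.mem_image.mpr ⟨z, hzF, rfl⟩⟩⟩
  -- tangent planes
  have htan : ∀ z : G, ∀ x, φ (z : E d) + inner ℝ (T (z : E d)) (x - z) ≤ φ x := by
    intro z x
    have := convex_grad_le hφ z.2.2 (x - z)
    rwa [add_sub_cancel] at this
  refine ⟨slopes, inferInstance, hne, fun s => s,
    fun s => inner ℝ (q s : E d) (s : E d) - φ (q s), Subtype.val_injective, ?_, ?_, ?_⟩
  · intro s
    change ‖(s : E d)‖ ≤ L
    rw [← hqT s]
    exact grad_norm_le hφ hφL (q s).2.2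
  · intro x
    apply ciSup_le
    intro s
    have := htan (q s) x
    rw [hqT s, inner_sub_right, real_inner_comm x, real_inner_comm (q s : E d)] at this
    linarith
  · intro x hx
    obtain ⟨z, hz⟩ := mem_iUnion.mp (hF hx)
    obtain ⟨hzF, hzd⟩ := mem_iUnion.mp hz
    set s : slopes := ⟨T (z : E d), Finset.mem_image.mpr ⟨z, hzF, rfl⟩⟩ with hs
    have hsT : (s : E d) = T (z : E d) := rfl
    have h1 := le_maxAff (ι := slopes) (fun s => (s : E d))
      (fun s => inner ℝ (q s : E d) (s : E d) - φ (q s)) x s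
    have h2 := htan z (q s)
    have h3 : φ x ≤ φ z + L * dist x z := by
      have := hφL.dist_le_mul x z
      rw [Real.dist_eq] at this
      linarith [(le_abs_self _).trans this]
    have h4 : -(‖T (z : E d)‖ * ‖x - z‖) ≤ inner ℝ (T (z : E d)) (x - z) := by
      have := abs_real_inner_le_norm (T (z : E d)) (x - z)
      exact (abs_le.mp this).1
    have h5 := grad_norm_le hφ hφL z.2.2
    have h6 : dist x (z : E d) < ε := hzd
    rw [← dist_eq_norm] at h4
    have h7 : ‖T (z : E d)‖ * dist x z ≤ L * dist x z :=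
      mul_le_mul_of_nonneg_right h5 dist_nonneg
    have h8 : L * dist x (z : E d) ≤ L * ε := mul_le_mul_of_nonneg_left h6.le L.2
    have h9 : L * ε ≤ δ / 2 := by
      rw [hε, mul_div_assoc', div_le_div_iff₀ (by positivity) (by norm_num)]
      nlinarith [L.2]
    rw [inner_sub_right] at h2 h4
    rw [hsT] at h1
    rw [real_inner_comm (T (z : E d)) (q s : E d), real_inner_comm (T (z : E d)) x] at h1
    linarith

end Vale.Agent.P074
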