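import Vale.Agent.P074.Defs

/-!
# A four-atom family showing that no exponent above 1/3 is admissible
-/

open MeasureTheory Set
open scoped ENNReal InnerProductSpace

namespace Vale.Agent.P074

section general

variable {d : ℕ}

/-- Optimality from a finite dual potential. -/
theorem isOTMap_of_potential {n : ℕ} {ρ : Measure (E d)} [IsProbabilityMeasure ρ] {R : ℝ}
    (hR : ∀ᵐ x ∂ρ, ‖x‖ ≤ R) (p : Fin n → E d) (c : Fin n → ℝ) (k : E d → Fin n)
    (hp : Function.Injective p) (hk : Measurable k)
    (hopt : ∀ᵐ x ∂ρ, ∀ j, inner ℝ x (p j) - c j ≤ inner ℝ x (p (k x)) - c (k x)) :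
    IsOTMap ρ (ρ.map (fun x => p (k x))) (fun x => p (k x)) := by
  have hT : Measurable (fun x => p (k x)) := (measurable_from_top (f := p)).comp hk
  refine ⟨hT, rfl, ?_⟩
  intro S hS hSm
  -- the target potential
  set q : E d → ℝ := fun y => ∑ j, Set.indicator {p j} (fun _ => c j) y with hq
  have hqm : Measurable q := by
    refine Finset.measurable_sum _ fun j _ => ?_
    exact measurable_const.indicator (measurableSet_singleton _)
  have hqp : ∀ j, q (p j) = c j := by
    intro j
    simp only [hq]
    rw [Finset.sum_eq_single j]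
    · simp
    · intro b _ hb
      rw [Set.indicator_of_notMem]
      simp only [mem_singleton_iff]
      intro h
      exact hb (hp h).symm
    · simp
  have hrange : MeasurableSet (range p) := (Set.finite_range p).measurableSet
  have hSr : ∀ᵐ x ∂ρ, S x ∈ range p := by
    have h1 : ρ.map S (range p)ᶜ = 0 := by
      rw [hSm, Measure.map_apply hT hrange.compl]
      have : (fun x => p (k x)) ⁻¹' (range p)ᶜ = ∅ := by
        ext x; simp
      rw [this]; simp
    rw [Measure.map_apply hS hrange.compl] at h1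
    rw [ae_iff]
    exact h1
  -- bounds
  obtain ⟨B, hB⟩ : ∃ B, ∀ j, ‖p j‖ ≤ B := by
    refine ⟨∑ j, ‖p j‖, fun j => ?_⟩
    exact Finset.single_le_sum (f := fun j => ‖p j‖) (fun i _ => norm_nonneg _) (Finset.mem_univ j)
  obtain ⟨B', hB'⟩ : ∃ B', ∀ j, ‖c j‖ ≤ B' := by
    refine ⟨∑ j, ‖c j‖, fun j => ?_⟩
    exact Finset.single_le_sum (f := fun j => ‖c j‖) (fun i _ => norm_nonneg _) (Finset.mem_univ j)
  have hSB : ∀ᵐ x ∂ρ, ‖S x‖ ≤ B := by
    filter_upwards [hSr] with x hx
    obtain ⟨j, hj⟩ := hx
    rw [← hj]; exact hB j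
  -- integrability facts
  have int_of : ∀ (U : E d → E d), Measurable U → (∀ᵐ x ∂ρ, ‖U x‖ ≤ B) →
      Integrable (fun x => inner ℝ x (U x)) ρ ∧ Integrable (fun x => ‖U x‖ ^ 2) ρ ∧
      Integrable (fun x => ‖x‖ ^ 2) ρ := by
    intro U hU hUB
    refine ⟨?_, ?_, ?_⟩
    · apply Integrable.of_bound (C := |R| * |B|)
      · exact (measurable_id.inner hU).aestronglyMeasurable
      · filter_upwards [hR, hUB] with x hx hx2
        refine (norm_inner_le_norm x (U x)).trans ?_
        exact mul_le_mul (hx.trans (le_abs_self _)) (hx2.trans (le_abs_self _)) (norm_nonneg _)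
          (abs_nonneg _)
    · refine Integrable.of_bound (C := |B| ^ 2) (hU.norm.pow_const 2).aestronglyMeasurable ?_
      · filter_upwards [hUB] with x hx2
        rw [Real.norm_of_nonneg (by positivity)]
        exact pow_le_pow_left₀ (norm_nonneg _) (hx2.trans (le_abs_self _)) 2
    · refine Integrable.of_bound (C := |R| ^ 2)
        ((measurable_id (α := E d)).norm.pow_const 2).aestronglyMeasurable ?_
      · filter_upwards [hR] with x hx2
        rw [Real.norm_of_nonneg (by positivity)]
        exact pow_le_pow_left₀ (norm_nonneg _) (hx2.trans (le_abs_self _)) 2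
  have hTB : ∀ᵐ x ∂ρ, ‖(fun x => p (k x)) x‖ ≤ B := Filter.Eventually.of_forall fun x => hB _
  obtain ⟨iT1, iT2, ix⟩ := int_of _ hT hTB
  obtain ⟨iS1, iS2, -⟩ := int_of _ hS hSB
  -- expand
  have expand : ∀ (U : E d → E d), Integrable (fun x => inner ℝ x (U x)) ρ →
      Integrable (fun x => ‖U x‖ ^ 2) ρ →
      ∫ x, ‖x - U x‖ ^ 2 ∂ρ = ∫ x, ‖x‖ ^ 2 ∂ρ - 2 * ∫ x, inner ℝ x (U x) ∂ρ + ∫ x, ‖U x‖ ^ 2 ∂ρ := by
    intro U h1 h2
    have : ∀ x, ‖x - U x‖ ^ 2 = ‖x‖ ^ 2 - 2 * inner ℝ x (U x) + ‖U x‖ ^ 2 := fun x =>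
      norm_sub_sq_real x (U x)
    simp_rw [this]
    have e1 : Integrable (fun x => ‖x‖ ^ 2 - 2 * inner ℝ x (U x)) ρ := ix.sub (h1.const_mul 2)
    rw [integral_add e1 h2, integral_sub ix (h1.const_mul 2), integral_const_mul]
  rw [expand _ iT1 iT2, expand _ iS1 iS2]
  have hsq : ∫ x, ‖(fun x => p (k x)) x‖ ^ 2 ∂ρ = ∫ x, ‖S x‖ ^ 2 ∂ρ := by
    have h1 := integral_map (μ := ρ) hT.aemeasurable (f := fun y : E d => ‖y‖ ^ 2)
      (by exact (measurable_id.norm.pow_const 2).aestronglyMeasurable)
    have h2 := integral_map (μ := ρ) hS.aemeasurable (f := fun y : E d => ‖y‖ ^ 2)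
      (by exact (measurable_id.norm.pow_const 2).aestronglyMeasurable)
    rw [hSm, h1] at h2
    exact h2
  have hqq : ∫ x, q (p (k x)) ∂ρ = ∫ x, q (S x) ∂ρ := by
    have h1 := integral_map (μ := ρ) hT.aemeasurable (f := q) hqm.aestronglyMeasurable
    have h2 := integral_map (μ := ρ) hS.aemeasurable (f := q) hqm.aestronglyMeasurable
    rw [hSm, h1] at h2
    exact h2
  have iq1 : Integrable (fun x => q (p (k x))) ρ := by
    apply Integrable.of_bound (C := B') (hqm.comp hT).aestronglyMeasurable
    refine Filter.Eventually.of_forall fun x => ?_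
    simp only [Function.comp]
    rw [hqp]; exact hB' _
  have iq2 : Integrable (fun x => q (S x)) ρ := by
    apply Integrable.of_bound (C := B') (hqm.comp hS).aestronglyMeasurable
    filter_upwards [hSr] with x hx
    obtain ⟨j, hj⟩ := hx
    simp only [Function.comp]
    rw [← hj, hqp]; exact hB' _
  have key : ∫ x, (inner ℝ x (S x) - q (S x)) ∂ρ ≤ ∫ x, (inner ℝ x (p (k x)) - q (p (k x))) ∂ρ := by
    apply integral_mono_ae (iS1.sub iq2) (iT1.sub iq1)
    filter_upwards [hSr, hopt] with x hx hx2
    obtain ⟨j, hj⟩ := hx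
    simp only [Pi.sub_apply]
    rw [← hj, hqp, hqp]
    exact hx2 j
  rw [integral_sub iS1 iq2, integral_sub iT1 iq1] at key
  linarith

end general

section cube

variable {d : ℕ}

/-- closed boxes -/
def box (a b : Fin d → ℝ) : Set (E d) := {x | ∀ i, a i ≤ x i ∧ x i ≤ b i}

theorem volume_box (a b : Fin d → ℝ) : volume (box a b) = ∏ i, ENNReal.ofReal (b i - a i) := by
  have h := (PiLp.volume_preserving_ofLp (Fin d)).measure_preimage
    (s := Set.Icc a b) measurableSet_Icc.nullMeasurableSet
  rw [Real.volume_Icc_pi] at h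
  rw [← h]
  congr 1
  ext x
  simp only [box, mem_preimage, mem_Icc, Pi.le_def]
  constructor
  · intro hx; exact ⟨fun i => (hx i).1, fun i => (hx i).2⟩
  · intro hx; exact fun i => ⟨hx.1 i, hx.2 i⟩

theorem measurable_coord (i : Fin d) : Measurable (fun x : E d => x i) := by
  fun_prop

theorem measurableSet_box (a b : Fin d → ℝ) : MeasurableSet (box a b) := by
  have : box a b = ⋂ i, {x : E d | a i ≤ x i ∧ x i ≤ b i} := by
    ext x; simp [box]
  rw [this]
  refine MeasurableSet.iInter fun i => ?_
  exact (measurableSet_le measurable_const (measurable_coord i)).inter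
    (measurableSet_le (measurable_coord i) measurable_const)

/-- the unit cube centred at the origin -/
def cube (d : ℕ) : Set (E d) := box (fun _ => -(1/2)) (fun _ => 1/2)

theorem volume_cube : volume (cube d) = 1 := by
  rw [cube, volume_box]
  simp only [sub_neg_eq_add]
  norm_num

theorem unif_cube : unif (cube d) = volume.restrict (cube d) := by
  rw [unif, volume_cube]; simp

theorem cube_convex : Convex ℝ (cube d) := by
  intro x hx y hy a b ha hb hab i
  have h1 := hx i
  have h2 := hy i
  simp only [PiLp.add_apply, PiLp.smul_apply, smul_eq_mul] at *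
  constructor
  · nlinarith [h1.1, h2.1]
  · nlinarith [h1.2, h2.2]

theorem cube_norm {x : E d} (hx : x ∈ cube d) : ‖x‖ ≤ d := by
  rw [EuclideanSpace.norm_eq]
  have : ∑ i, ‖x i‖ ^ 2 ≤ ∑ i : Fin d, (1:ℝ) := by
    apply Finset.sum_le_sum
    intro i _
    have h := hx i
    rw [Real.norm_eq_abs, sq_abs]
    nlinarith [h.1, h.2]
  rw [Real.sqrt_le_left (by positivity)]
  refine this.trans ?_
  simp only [Finset.sum_const, Finset.card_univ, Fintype.card_fin, nsmul_eq_mul, mul_one]
  rcases Nat.eq_zero_or_pos d with h | h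
  · simp [h]
  · have : (1:ℝ) ≤ d := by exact_mod_cast h
    nlinarith

theorem cube_isCompact : IsCompact (cube d) := by
  refine Metric.isCompact_of_isClosed_isBounded ?_ ?_
  · have : cube d = ⋂ i, {x : E d | -(1/2) ≤ x i ∧ x i ≤ 1/2} := by
      ext x; simp [cube, box]
    rw [this]
    refine isClosed_iInter fun i => ?_
    have hc : Continuous (fun x : E d => x i) := by fun_prop
    exact (isClosed_le continuous_const hc).inter (isClosed_le hc continuous_const)
  · rw [Metric.isBounded_iff_subset_closedBall 0]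
    refine ⟨d, fun x hx => ?_⟩
    rw [mem_closedBall_zero_iff]
    exact cube_norm hx

theorem cube_interior : (interior (cube d)).Nonempty := by
  refine ⟨0, ?_⟩
  rw [mem_interior]
  refine ⟨Metric.ball 0 (1/2), ?_, Metric.isOpen_ball, Metric.mem_ball_self (by norm_num)⟩
  intro x hx i
  rw [mem_ball_zero_iff] at hx
  have h : ‖x i‖ ≤ ‖x‖ := PiLp.norm_apply_le x i
  rw [Real.norm_eq_abs] at h
  have := abs_le.mp (h.trans hx.le)
  exact this

/-- piecewise involutions preserve volume -/
theorem mp_piecewise {α : Type*} [MeasurableSpace α] {μ : Measure α} {σ : α → α}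
    (hσ : MeasurePreserving σ μ μ) {W : Set α} (hW : MeasurableSet W) (hσW : σ ⁻¹' W = W)
    [DecidablePred (· ∈ W)] :
    MeasurePreserving (fun x => if x ∈ W then σ x else x) μ μ := by
  have hm : Measurable (fun x => if x ∈ W then σ x else x) :=
    Measurable.ite hW hσ.measurable measurable_id
  refine ⟨hm, ?_⟩
  ext A hA
  rw [Measure.map_apply hm hA]
  have h1 : (fun x => if x ∈ W then σ x else x) ⁻¹' A = (σ ⁻¹' (W ∩ A)) ∪ (A \ W) := by
    ext x
    simp only [mem_preimage, mem_union, mem_inter_iff, mem_sdiff]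
    have hx : σ x ∈ W ↔ x ∈ W := by
      rw [← mem_preimage, hσW]
    by_cases h : x ∈ W
    · simp [h, hx]
    · simp [h, hx]
  rw [h1, measure_union _ (hA.diff hW), hσ.measure_preimage (hW.inter hA).nullMeasurableSet,
    inter_comm, measure_inter_add_sdiff A hW]
  rw [Set.disjoint_left]
  intro x hx hx2
  have : x ∈ σ ⁻¹' W := hx.1
  rw [hσW] at this
  exact hx2.2 this

/-- hyperplanes are null -/
theorem hyperplane_null (i j : Fin d) (hij : i ≠ j) (a b : ℝ) :
    volume {x : E d | x i = a + b * x j} = 0 := by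
  classical
  set L : E d →ₗ[ℝ] ℝ :=
    { toFun := fun x => x i - b * x j
      map_add' := by intro x y; simp only [PiLp.add_apply]; ring
      map_smul' := by intro c x; simp only [PiLp.smul_apply, smul_eq_mul, RingHom.id_apply]; ring } with hL
  have hne : LinearMap.ker L ≠ ⊤ := by
    intro h
    have : EuclideanSpace.single i (1:ℝ) ∈ LinearMap.ker L := by rw [h]; trivial
    rw [LinearMap.mem_ker] at this
    simp [hL, hij.symm] at this
  have h0 := Measure.addHaar_submodule (volume : Measure (E d)) (LinearMap.ker L) hne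
  have hp : {x : E d | x i = a + b * x j} =
      (fun x => (-(EuclideanSpace.single i a)) + x) ⁻¹' (LinearMap.ker L : Set (E d)) := by
    ext x
    simp only [mem_ofPred_eq, mem_preimage, SetLike.mem_coe, LinearMap.mem_ker, hL,
      LinearMap.coe_mk, AddHom.coe_mk, PiLp.add_apply, PiLp.neg_apply,
      PiLp.single_apply]
    simp only [if_true, hij.symm, if_false]
    constructor
    · intro h; rw [h]; ring
    · intro h; linarith
  rw [hp, measure_preimage_add]
  exact h0

end cube

section family

variable {d : ℕ}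

/-- point with first two coordinates `a`, `b` -/
noncomputable def pt (i j : Fin d) (a b : ℝ) : E d :=
  EuclideanSpace.single i a + EuclideanSpace.single j b

theorem inner_pt (i j : Fin d) (a b : ℝ) (x : E d) :
    inner ℝ x (pt i j a b) = a * x i + b * x j := by
  simp [pt, inner_add_right, EuclideanSpace.inner_single_right]

theorem pt_apply_left {i j : Fin d} (hij : i ≠ j) (a b : ℝ) : pt i j a b i = a := by
  simp [pt, hij]

theorem pt_apply_right {i j : Fin d} (hij : i ≠ j) (a b : ℝ) : pt i j a b j = b := by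
  simp [pt, hij.symm]

/-- the four atoms -/
noncomputable def atoms (i j : Fin d) (t : ℝ) : Fin 4 → E d :=
  ![pt i j (-(3/2)) 0, pt i j (-(1/2)) (-t), pt i j (1/2) t, pt i j (3/2) 0]

/-- the dual constants -/
def consts (m : ℝ) : Fin 4 → ℝ := ![m, 0, 0, m]

/-- the cell index -/
noncomputable def idx (i j : Fin d) (m t : ℝ) (x : E d) : Fin 4 :=
  if x i < -m + t * x j then 0 else if x i < -(2 * t) * x j then 1
  else if x i < m + t * x j then 2 else 3

theorem measurable_idx (i j : Fin d) (m t : ℝ) : Measurable (idx i j m t) := by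
  have hi := measurable_coord (d := d) i
  have hj := measurable_coord (d := d) j
  unfold idx
  refine Measurable.ite (measurableSet_lt hi ?_) measurable_const ?_
  · fun_prop
  refine Measurable.ite (measurableSet_lt hi ?_) measurable_const ?_
  · fun_prop
  refine Measurable.ite (measurableSet_lt hi ?_) measurable_const measurable_const
  fun_prop

theorem atoms_injective {i j : Fin d} (hij : i ≠ j) (t : ℝ) :
    Function.Injective (atoms i j t) := by
  have h : ∀ k, atoms i j t k i = ![-(3/2 : ℝ), -(1/2), 1/2, 3/2] k := by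
    intro k
    fin_cases k <;> simp [atoms, pt_apply_left hij]
  intro k l hkl
  have h2 := congrArg (fun z : E d => z i) hkl
  simp only [h] at h2
  fin_cases k <;> fin_cases l <;> first | rfl | (exfalso; norm_num at h2)

theorem idx_optimal {i j : Fin d} {m t : ℝ} (ht : 0 ≤ t) (hmt : 3 / 2 * t ≤ m)
    {x : E d} (hx : x ∈ cube d) (k : Fin 4) :
    inner ℝ x (atoms i j t k) - consts m k ≤
      inner ℝ x (atoms i j t (idx i j m t x)) - consts m (idx i j m t x) := by
  have hxj := hx j
  simp only at hxj
  obtain ⟨hj1, hj2⟩ := hxj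
  have h1 : -(t / 2) ≤ t * x j := by nlinarith
  have h2 : t * x j ≤ t / 2 := by nlinarith
  have hv : ∀ k, inner ℝ x (atoms i j t k) - consts m k =
      ![-(3/2) * x i - m, -(1/2) * x i - t * x j, 1/2 * x i + t * x j, 3/2 * x i - m] k := by
    intro k
    fin_cases k <;> simp [atoms, consts, inner_pt] <;> ring
  rw [hv k, hv (idx i j m t x)]
  unfold idx
  split_ifs with c1 c2 c3
  · fin_cases k <;> simp <;> nlinarith
  · fin_cases k <;> simp <;> nlinarith
  · fin_cases k <;> simp <;> nlinarith
  · fin_cases k <;> simp <;> nlinarith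

/-- point reflection -/
noncomputable def refl (i : Fin d) (α : ℝ) (x : E d) : E d := EuclideanSpace.single i (2 * α) - x

theorem refl_refl (i : Fin d) (α : ℝ) (x : E d) : refl i α (refl i α x) = x := by
  simp [refl]

theorem refl_apply_self (i : Fin d) (α : ℝ) (x : E d) : refl i α x i = 2 * α - x i := by
  simp [refl]

theorem refl_apply_ne {i j : Fin d} (hij : j ≠ i) (α : ℝ) (x : E d) : refl i α x j = - x j := by
  simp [refl, hij]

theorem refl_mp (i : Fin d) (α : ℝ) :
    MeasurePreserving (refl i α) (volume : Measure (E d)) volume := by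
  have h1 := Measure.measurePreserving_neg (volume : Measure (E d))
  have h2 := measurePreserving_add_left (volume : Measure (E d)) (EuclideanSpace.single i (2 * α))
  have h3 := h2.comp h1
  have : refl i α = (fun x => EuclideanSpace.single i (2 * α) + x) ∘ Neg.neg := by
    ext x; simp [refl, sub_eq_add_neg]
  rw [this]; exact h3

/-- wedge between the hyperplanes `x i = α` and `x i = α + β * x j` -/
def wedge (i j : Fin d) (α β : ℝ) : Set (E d) :=
  {x | x ∈ cube d ∧ ((α ≤ x i ∧ x i ≤ α + β * x j) ∨ (α + β * x j ≤ x i ∧ x i ≤ α))}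

theorem mul_coord_bound {x : E d} (hx : x ∈ cube d) (j : Fin d) (β : ℝ) :
    -(|β| / 2) ≤ β * x j ∧ β * x j ≤ |β| / 2 := by
  have h1 := hx j
  have h2 : |x j| ≤ 1 / 2 := abs_le.mpr ⟨by linarith [h1.1], h1.2⟩
  have h3 : |β * x j| ≤ |β| / 2 := by
    rw [abs_mul]
    calc |β| * |x j| ≤ |β| * (1 / 2) := mul_le_mul_of_nonneg_left h2 (abs_nonneg _)
      _ = |β| / 2 := by ring
  exact abs_le.mp h3

theorem wedge_bound {i j : Fin d} {α β : ℝ} {x : E d} (hx : x ∈ wedge i j α β) :
    α - |β| / 2 ≤ x i ∧ x i ≤ α + |β| / 2 := by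
  obtain ⟨hc, h⟩ := hx
  have hb := mul_coord_bound hc j β
  rcases h with h | h
  · constructor <;> linarith [h.1, h.2, hb.1, hb.2, abs_nonneg β]
  · constructor <;> linarith [h.1, h.2, hb.1, hb.2, abs_nonneg β]

theorem measurableSet_wedge (i j : Fin d) (α β : ℝ) : MeasurableSet (wedge i j α β) := by
  have hi := measurable_coord (d := d) i
  have hj := measurable_coord (d := d) j
  have hb : Measurable (fun x : E d => α + β * x j) := by fun_prop
  refine (measurableSet_box _ _).inter ?_
  exact ((measurableSet_le measurable_const hi).inter (measurableSet_le hi hb)).union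
    ((measurableSet_le hb hi).inter (measurableSet_le hi measurable_const))

theorem refl_mem_wedge {i j : Fin d} (hij : i ≠ j) {α β : ℝ} (h : |α| + |β| / 2 ≤ 1 / 2)
    {x : E d} (hx : x ∈ wedge i j α β) : refl i α x ∈ wedge i j α β := by
  have hb := wedge_bound hx
  have ha := abs_le.mp (le_refl |α|)
  obtain ⟨hc, h'⟩ := hx
  refine ⟨?_, ?_⟩
  · intro k
    by_cases hk : k = i
    · subst hk
      rw [refl_apply_self]
      constructor <;> linarith [hb.1, hb.2, ha.1, ha.2]
    · rw [refl_apply_ne hk]
      have := hc k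
      simp only at this
      simp only
      constructor <;> linarith [this.1, this.2]
  · rw [refl_apply_self, refl_apply_ne hij.symm]
    rcases h' with h' | h'
    · right; constructor <;> linarith [h'.1, h'.2]
    · left; constructor <;> linarith [h'.1, h'.2]

theorem refl_preimage_wedge {i j : Fin d} (hij : i ≠ j) {α β : ℝ} (h : |α| + |β| / 2 ≤ 1 / 2) :
    refl i α ⁻¹' wedge i j α β = wedge i j α β := by
  ext x
  rw [mem_preimage]
  constructor
  · intro hx
    have := refl_mem_wedge hij h hx
    rwa [refl_refl] at this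
  · exact refl_mem_wedge hij h

open Classical in
/-- reflection inside the wedge -/
noncomputable def flip (i j : Fin d) (α β : ℝ) (x : E d) : E d :=
  if x ∈ wedge i j α β then refl i α x else x

theorem flip_mp {i j : Fin d} (hij : i ≠ j) {α β : ℝ} (h : |α| + |β| / 2 ≤ 1 / 2) :
    MeasurePreserving (flip i j α β) (volume.restrict (cube d)) (volume.restrict (cube d)) := by
  classical
  have h1 : MeasurePreserving (flip i j α β) (volume : Measure (E d)) volume := by
    rw [show flip i j α β = (fun x => @ite _ (x ∈ wedge i j α β) (Classical.propDecidable _)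
      (refl i α x) x) from rfl]
    exact mp_piecewise (refl_mp (d := d) i α) (measurableSet_wedge i j α β)
      (refl_preimage_wedge hij h)
  have h2 : flip i j α β ⁻¹' (cube d) = cube d := by
    ext x
    rw [mem_preimage]
    by_cases hx : x ∈ wedge i j α β
    · have : flip i j α β x = refl i α x := by simp [flip, hx]
      rw [this]
      exact ⟨fun _ => hx.1, fun _ => (refl_mem_wedge hij h hx).1⟩
    · have : flip i j α β x = x := by simp [flip, hx]
      rw [this]
  have h3 := h1.restrict_preimage (s := cube d) (measurableSet_box _ _)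
  rwa [h2] at h3

/-- the rearrangement of the cube matching the two families of cells -/
noncomputable def rearr (i j : Fin d) (m t : ℝ) (x : E d) : E d :=
  flip i j m t (flip i j 0 (-(2 * t)) (flip i j (-m) t x))

theorem rearr_mp {i j : Fin d} (hij : i ≠ j) {m t : ℝ} (hm : 0 ≤ m) (ht : 0 ≤ t)
    (h1 : m + t / 2 ≤ 1 / 2) (h2 : t ≤ 1 / 2) :
    MeasurePreserving (rearr i j m t) (volume.restrict (cube d)) (volume.restrict (cube d)) := by
  have e1 := flip_mp (d := d) hij (α := -m) (β := t)
    (by rw [abs_neg, abs_of_nonneg hm, abs_of_nonneg ht]; exact h1)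
  have e2 := flip_mp (d := d) hij (α := 0) (β := -(2 * t))
    (by rw [abs_neg, abs_zero, abs_of_nonneg (by positivity)]; linarith)
  have e3 := flip_mp (d := d) hij (α := m) (β := t)
    (by rw [abs_of_nonneg hm, abs_of_nonneg ht]; exact h1)
  exact e3.comp (e2.comp e1)

theorem idx_rearr {i j : Fin d} (hij : i ≠ j) {m t : ℝ} (ht : 0 < t) (hmt : 3 / 2 * t < m)
    (h1 : m + t / 2 ≤ 1 / 2) {x : E d} (hx : x ∈ cube d)
    (n1 : x i ≠ -m + 0 * x j) (n2 : x i ≠ 0 + 0 * x j) (n3 : x i ≠ m + 0 * x j)
    (n4 : x i ≠ -m + t * x j) (n5 : x i ≠ 0 + (-(2 * t)) * x j) (n6 : x i ≠ m + t * x j) :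
    idx i j m t (rearr i j m t x) = idx i j m 0 x := by
  have hm : 0 < m := by linarith
  have b1 : |-m| + |t| / 2 ≤ 1 / 2 := by
    rw [abs_neg, abs_of_pos hm, abs_of_pos ht]; exact h1
  have b2 : |(0:ℝ)| + |-(2 * t)| / 2 ≤ 1 / 2 := by
    rw [abs_neg, abs_zero, abs_of_nonneg (by positivity)]; linarith
  have b3 : |m| + |t| / 2 ≤ 1 / 2 := by
    rw [abs_of_pos hm, abs_of_pos ht]; exact h1
  have at' : |t| = t := abs_of_pos ht
  have at2 : |-(2 * t)| = 2 * t := by rw [abs_neg, abs_of_nonneg (by positivity)]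
  have hb := mul_coord_bound hx j t
  rw [at'] at hb
  have dis12 : ∀ z : E d, z ∈ wedge i j (-m) t → z ∉ wedge i j 0 (-(2 * t)) := by
    intro z hz hz2
    have c1 := wedge_bound hz
    have c2 := wedge_bound hz2
    rw [at'] at c1; rw [at2] at c2
    linarith [c1.1, c1.2, c2.1, c2.2]
  have dis13 : ∀ z : E d, z ∈ wedge i j (-m) t → z ∉ wedge i j m t := by
    intro z hz hz2
    have c1 := wedge_bound hz
    have c2 := wedge_bound hz2
    rw [at'] at c1 c2
    linarith [c1.1, c1.2, c2.1, c2.2]
  have dis23 : ∀ z : E d, z ∈ wedge i j 0 (-(2 * t)) → z ∉ wedge i j m t := by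
    intro z hz hz2
    have c1 := wedge_bound hz
    have c2 := wedge_bound hz2
    rw [at2] at c1; rw [at'] at c2
    linarith [c1.1, c1.2, c2.1, c2.2]
  by_cases w1 : x ∈ wedge i j (-m) t
  · have r1 := refl_mem_wedge hij b1 w1
    have e : rearr i j m t x = refl i (-m) x := by
      unfold rearr flip
      rw [if_pos w1, if_neg (dis12 _ r1), if_neg (dis13 _ r1)]
    rw [e]
    unfold idx
    rw [refl_apply_self, refl_apply_ne hij.symm]
    obtain ⟨-, w1' | w1'⟩ := w1
    · have q1 : x i < -m + t * x j := lt_of_le_of_ne w1'.2 n4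
      have q2 : -m < x i := lt_of_le_of_ne w1'.1 (fun h => n1 (by rw [← h]; ring))
      rw [if_neg (by linarith), if_pos (by nlinarith), if_neg (by linarith), if_pos (by nlinarith)]
    · have q1 : -m + t * x j < x i := lt_of_le_of_ne w1'.1 (fun h => n4 h.symm)
      have q2 : x i < -m := lt_of_le_of_ne w1'.2 (fun h => n1 (by rw [h]; ring))
      rw [if_pos (by linarith), if_pos (by linarith)]
  by_cases w2 : x ∈ wedge i j 0 (-(2 * t))
  · have r1 := refl_mem_wedge hij b2 w2
    have e : rearr i j m t x = refl i 0 x := by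
      unfold rearr flip
      rw [if_neg w1, if_pos w2, if_neg (dis23 _ r1)]
    rw [e]
    unfold idx
    rw [refl_apply_self, refl_apply_ne hij.symm]
    obtain ⟨-, w2' | w2'⟩ := w2
    · have q1 : x i < 0 + -(2 * t) * x j := lt_of_le_of_ne w2'.2 n5
      have q2 : 0 < x i := lt_of_le_of_ne w2'.1 (fun h => n2 (by rw [← h]; ring))
      rw [if_neg (by nlinarith), if_neg (by nlinarith), if_pos (by nlinarith),
        if_neg (by nlinarith), if_neg (by nlinarith), if_pos (by nlinarith)]
    · have q1 : 0 + -(2 * t) * x j < x i := lt_of_le_of_ne w2'.1 (fun h => n5 h.symm)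
      have q2 : x i < 0 := lt_of_le_of_ne w2'.2 (fun h => n2 (by rw [h]; ring))
      rw [if_neg (by nlinarith), if_pos (by nlinarith), if_neg (by nlinarith),
        if_pos (by nlinarith)]
  by_cases w3 : x ∈ wedge i j m t
  · have e : rearr i j m t x = refl i m x := by
      unfold rearr flip
      rw [if_neg w1, if_neg w2, if_pos w3]
    rw [e]
    unfold idx
    rw [refl_apply_self, refl_apply_ne hij.symm]
    obtain ⟨-, w3' | w3'⟩ := w3
    · have q1 : x i < m + t * x j := lt_of_le_of_ne w3'.2 n6
      have q2 : m < x i := lt_of_le_of_ne w3'.1 (fun h => n3 (by rw [← h]; ring))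
      rw [if_neg (by nlinarith), if_neg (by nlinarith), if_neg (by nlinarith),
        if_neg (by nlinarith), if_neg (by nlinarith), if_neg (by nlinarith)]
    · have q1 : m + t * x j < x i := lt_of_le_of_ne w3'.1 (fun h => n6 h.symm)
      have q2 : x i < m := lt_of_le_of_ne w3'.2 (fun h => n3 (by rw [h]; ring))
      rw [if_neg (by nlinarith), if_neg (by nlinarith), if_pos (by nlinarith),
        if_neg (by nlinarith), if_neg (by nlinarith), if_pos (by nlinarith)]
  have e : rearr i j m t x = x := by
    unfold rearr flip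
    rw [if_neg w1, if_neg w2, if_neg w3]
  rw [e]
  have u1 : ¬ ((-m ≤ x i ∧ x i ≤ -m + t * x j) ∨ (-m + t * x j ≤ x i ∧ x i ≤ -m)) :=
    fun h => w1 ⟨hx, h⟩
  have u2 : ¬ ((0 ≤ x i ∧ x i ≤ 0 + -(2 * t) * x j) ∨ (0 + -(2 * t) * x j ≤ x i ∧ x i ≤ 0)) :=
    fun h => w2 ⟨hx, h⟩
  have u3 : ¬ ((m ≤ x i ∧ x i ≤ m + t * x j) ∨ (m + t * x j ≤ x i ∧ x i ≤ m)) :=
    fun h => w3 ⟨hx, h⟩
  unfold idx
  have g1 : (x i < -m + t * x j) ↔ (x i < -m + 0 * x j) := by
    constructor
    · intro h; by_contra h'; exact u1 (Or.inl ⟨by linarith, h.le⟩)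
    · intro h; by_contra h'; exact u1 (Or.inr ⟨by linarith, by linarith⟩)
  have g2 : (x i < -(2 * t) * x j) ↔ (x i < -(2 * 0) * x j) := by
    constructor
    · intro h; by_contra h'; exact u2 (Or.inl ⟨by linarith, by linarith⟩)
    · intro h; by_contra h'; exact u2 (Or.inr ⟨by linarith, by linarith⟩)
  have g3 : (x i < m + t * x j) ↔ (x i < m + 0 * x j) := by
    constructor
    · intro h; by_contra h'; exact u3 (Or.inl ⟨by linarith, h.le⟩)
    · intro h; by_contra h'; exact u3 (Or.inr ⟨by linarith, by linarith⟩)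
  simp only [g1, g2, g3]

instance : IsProbabilityMeasure (volume.restrict (cube d)) :=
  ⟨by rw [Measure.restrict_apply_univ, volume_cube]⟩

theorem norm_pt_le (i j : Fin d) (a b : ℝ) : ‖pt i j a b‖ ≤ |a| + |b| := by
  refine (norm_add_le _ _).trans ?_
  simp

theorem norm_atoms_le (i j : Fin d) {t : ℝ} (ht0 : 0 ≤ t) (ht : t ≤ 1 / 2) (k : Fin 4) :
    ‖atoms i j t k‖ ≤ 2 := by
  have h1 := norm_pt_le i j (-(3/2)) 0
  have h2 := norm_pt_le i j (-(1/2)) (-t)
  have h3 := norm_pt_le i j (1/2) t
  have h4 := norm_pt_le i j (3/2) 0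
  rw [abs_neg, abs_zero, abs_of_nonneg (by norm_num : (0:ℝ) ≤ 3/2)] at h1
  rw [abs_neg, abs_neg, abs_of_nonneg ht0, abs_of_nonneg (by norm_num : (0:ℝ) ≤ 1/2)] at h2
  rw [abs_of_nonneg ht0, abs_of_nonneg (by norm_num : (0:ℝ) ≤ 1/2)] at h3
  rw [abs_zero, abs_of_nonneg (by norm_num : (0:ℝ) ≤ 3/2)] at h4
  fin_cases k
  · exact h1.trans (by norm_num)
  · exact h2.trans (by linarith)
  · exact h3.trans (by linarith)
  · exact h4.trans (by norm_num)

/-- the transport map of the family -/
noncomputable def TT (i j : Fin d) (m t : ℝ) (x : E d) : E d := atoms i j t (idx i j m t x)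

theorem measurable_TT (i j : Fin d) (m t : ℝ) : Measurable (TT i j m t) :=
  (measurable_from_top (f := atoms i j t)).comp (measurable_idx i j m t)

theorem TT_isOTMap {i j : Fin d} (hij : i ≠ j) {m t : ℝ} (ht : 0 ≤ t) (hmt : 3 / 2 * t ≤ m) :
    IsOTMap (volume.restrict (cube d)) ((volume.restrict (cube d)).map (TT i j m t))
      (TT i j m t) := by
  refine isOTMap_of_potential (R := d) ?_ (atoms i j t) (consts m) (idx i j m t)
    (atoms_injective hij t) (measurable_idx i j m t) ?_
  · filter_upwards [ae_restrict_mem (measurableSet_box _ _)] with x hx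
    exact cube_norm hx
  · filter_upwards [ae_restrict_mem (measurableSet_box _ _)] with x hx
    exact fun k => idx_optimal ht hmt hx k

theorem atoms_sub_norm (i j : Fin d) {t : ℝ} (ht : 0 ≤ t) (k : Fin 4) :
    ‖atoms i j 0 k - atoms i j t k‖ ≤ t ∧ ((k = 0 ∨ k = 3) → ‖atoms i j 0 k - atoms i j t k‖ = 0) := by
  have e1 : pt i j (-(1/2)) (-0) - pt i j (-(1/2)) (-t) = EuclideanSpace.single j t := by
    ext k; simp only [pt]; simp; split_ifs <;> simp
  have e2 : pt i j (1/2) 0 - pt i j (1/2) t = - EuclideanSpace.single j t := by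
    ext k; simp [pt]
  fin_cases k
  · simp [atoms, ht]
  · refine ⟨?_, by simp⟩
    change ‖pt i j (-(1/2)) (-0) - pt i j (-(1/2)) (-t)‖ ≤ t
    rw [e1]; simp [abs_of_nonneg ht]
  · refine ⟨?_, by simp⟩
    change ‖pt i j (1/2) 0 - pt i j (1/2) t‖ ≤ t
    rw [e2]; simp [abs_of_nonneg ht]
  · simp [atoms, ht]

theorem volume_slab {i : Fin d} {m : ℝ} (hm : 0 ≤ m) :
    volume (box (fun k => if k = i then -m else -(1/2)) (fun k => if k = i then m else 1/2)
      : Set (E d)) = ENNReal.ofReal (2 * m) := by
  rw [volume_box]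
  have : ∀ k, ENNReal.ofReal ((if k = i then m else 1/2) - (if k = i then -m else -(1/2))) =
      if k = i then ENNReal.ofReal (2 * m) else 1 := by
    intro k
    split_ifs
    · congr 1; ring
    · norm_num
  simp_rw [this]
  rw [Finset.prod_ite_eq']
  simp

theorem W2_TT_le {i j : Fin d} (hij : i ≠ j) {m t : ℝ} (ht : 0 < t) (hmt : 3 / 2 * t < m)
    (h1 : m + t / 2 ≤ 1 / 2) :
    W2 ((volume.restrict (cube d)).map (TT i j m 0)) ((volume.restrict (cube d)).map (TT i j m t))
      ≤ Real.sqrt (2 * m * t ^ 2) := by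
  have hm : 0 < m := by linarith
  set ρ : Measure (E d) := volume.restrict (cube d) with hρ
  have hg := rearr_mp (d := d) hij hm.le ht.le h1 (by linarith)
  have hT := measurable_TT (d := d) i j m 0
  have hS := measurable_TT (d := d) i j m t
  have hSg : Measurable (fun x => TT i j m t (rearr i j m t x)) := hS.comp hg.measurable
  have hpair : Measurable (fun x => (TT i j m 0 x, TT i j m t (rearr i j m t x))) :=
    hT.prodMk hSg
  unfold W2
  apply Real.sqrt_le_sqrt
  have hc : IsCoupling (ρ.map (TT i j m 0)) (ρ.map (TT i j m t))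
      (ρ.map (fun x => (TT i j m 0 x, TT i j m t (rearr i j m t x)))) := by
    refine ⟨?_, ?_⟩
    · rw [Measure.map_map measurable_fst hpair]
      rfl
    · rw [Measure.map_map measurable_snd hpair]
      have : (Prod.snd ∘ fun x => (TT i j m 0 x, TT i j m t (rearr i j m t x))) =
        (TT i j m t) ∘ (rearr i j m t) := rfl
      rw [this, ← Measure.map_map hS hg.measurable, hg.map_eq]
  have hbdd : BddBelow {c : ℝ | ∃ π : Measure (E d × E d),
      IsCoupling (ρ.map (TT i j m 0)) (ρ.map (TT i j m t)) π ∧ c = ∫ p, ‖p.1 - p.2‖ ^ 2 ∂π} := by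
    refine ⟨0, ?_⟩
    rintro c ⟨π, -, rfl⟩
    exact integral_nonneg fun p => by positivity
  refine (csInf_le hbdd ⟨_, hc, rfl⟩).trans ?_
  · rw [integral_map hpair.aemeasurable (by
      exact ((measurable_fst.sub measurable_snd).norm.pow_const 2).aestronglyMeasurable)]
    simp only
    set B : Set (E d) := box (fun k => if k = i then -m else -(1/2))
      (fun k => if k = i then m else 1/2) with hB
    have hBm : MeasurableSet B := measurableSet_box _ _
    have hbound : ∀ᵐ x ∂ρ, ‖TT i j m 0 x - TT i j m t (rearr i j m t x)‖ ^ 2 ≤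
        B.indicator (fun _ => t ^ 2) x := by
      have null : ∀ a b : ℝ, ∀ᵐ x ∂ρ, x i ≠ a + b * x j := by
        intro a b
        have := hyperplane_null (d := d) i j hij a b
        have h2 : ∀ᵐ x ∂(volume : Measure (E d)), x i ≠ a + b * x j := by
          rw [ae_iff]; simpa using this
        exact ae_restrict_of_ae h2
      filter_upwards [ae_restrict_mem (measurableSet_box _ _), null (-m) 0, null 0 0, null m 0,
        null (-m) t, null 0 (-(2 * t)), null m t] with x hx n1 n2 n3 n4 n5 n6
      have e := idx_rearr hij ht hmt h1 hx n1 n2 n3 n4 n5 n6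
      unfold TT
      rw [e]
      have hs := atoms_sub_norm i j ht.le (idx i j m 0 x)
      by_cases hxB : x ∈ B
      · rw [indicator_of_mem hxB]
        exact pow_le_pow_left₀ (norm_nonneg _) hs.1 2
      · rw [indicator_of_notMem hxB]
        have : idx i j m 0 x = 0 ∨ idx i j m 0 x = 3 := by
          have hxi : x i < -m ∨ m < x i := by
            by_contra hcon
            push Not at hcon
            apply hxB
            intro k
            by_cases hk : k = i
            · subst hk; simp [hcon.1, hcon.2]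
            · have := hx k
              simpa [hk] using this
          rcases hxi with h | h
          · left; unfold idx; rw [if_pos (by linarith)]
          · right; unfold idx
            rw [if_neg (by linarith), if_neg (by linarith), if_neg (by linarith)]
        rw [hs.2 this]; norm_num
    calc ∫ x, ‖TT i j m 0 x - TT i j m t (rearr i j m t x)‖ ^ 2 ∂ρ
        ≤ ∫ x, B.indicator (fun _ => t ^ 2) x ∂ρ := by
          apply integral_mono_of_nonneg
          · exact Filter.Eventually.of_forall fun x => by positivity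
          · exact (integrable_const _).indicator hBm
          · exact hbound
      _ = (ρ B).toReal * t ^ 2 := by
          rw [integral_indicator_const _ hBm]; rfl
      _ ≤ 2 * m * t ^ 2 := by
          apply mul_le_mul_of_nonneg_right _ (by positivity)
          have : ρ B ≤ ENNReal.ofReal (2 * m) := by
            rw [← volume_slab (d := d) (i := i) hm.le]
            exact Measure.restrict_apply_le _ _
          exact ENNReal.toReal_le_of_le_ofReal (by positivity) this

theorem dist_TT_ge {i j : Fin d} (hij : i ≠ j) {m t : ℝ} (ht : 0 < t) (hmt : 3 / 2 * t < m)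
    (h1 : m + t / 2 ≤ 1 / 2) :
    t / 16 ≤ ∫ x, ‖TT i j m 0 x - TT i j m t x‖ ^ 2 ∂(volume.restrict (cube d)) := by
  have hm : 0 < m := by linarith
  set ρ : Measure (E d) := volume.restrict (cube d) with hρ
  have hT := measurable_TT (d := d) i j m 0
  have hS := measurable_TT (d := d) i j m t
  set B : Set (E d) := box (fun k => if k = i then -(t/2) else if k = j then 1/4 else -(1/2))
      (fun k => if k = i then -(t/4) else 1/2) with hB
  have hBm : MeasurableSet B := measurableSet_box _ _
  have hBc : B ⊆ cube d := by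
    intro x hx k
    have := hx k
    simp only at this
    split_ifs at this with c1 c2
    · constructor <;> linarith [this.1, this.2]
    · constructor <;> linarith [this.1, this.2]
    · exact this
  have hvB : ρ B = ENNReal.ofReal (t / 4) * ENNReal.ofReal (1 / 4) := by
    rw [hρ, Measure.restrict_apply hBm, inter_eq_left.mpr hBc, hB, volume_box]
    rw [Finset.prod_eq_mul i j hij]
    · simp only [if_true, hij.symm, if_false]
      congr 2 <;> ring
    · intro k _ hk
      simp only [hk.1, hk.2, if_false]; norm_num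
    · simp
    · simp
  have hint : Integrable (fun x => ‖TT i j m 0 x - TT i j m t x‖ ^ 2) ρ := by
    refine Integrable.of_bound (C := 16) ((hT.sub hS).norm.pow_const 2).aestronglyMeasurable ?_
    refine Filter.Eventually.of_forall fun x => ?_
    rw [Real.norm_of_nonneg (by positivity)]
    have a1 := norm_atoms_le i j (le_refl (0:ℝ)) (by norm_num) (idx i j m 0 x)
    have a2 := norm_atoms_le i j ht.le (by linarith) (idx i j m t x)
    have a3 : ‖TT i j m 0 x - TT i j m t x‖ ≤ 4 := (norm_sub_le _ _).trans (by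
      unfold TT; linarith)
    calc ‖TT i j m 0 x - TT i j m t x‖ ^ 2 ≤ 4 ^ 2 := pow_le_pow_left₀ (norm_nonneg _) a3 2
      _ = 16 := by norm_num
  have hpt : ∀ x, B.indicator (fun _ => (1:ℝ)) x ≤ ‖TT i j m 0 x - TT i j m t x‖ ^ 2 := by
    intro x
    by_cases hx : x ∈ B
    · rw [indicator_of_mem hx]
      have hxi := hx i
      have hxj := hx j
      simp only [if_true, hij.symm, if_false] at hxi hxj
      have k1 : idx i j m 0 x = 1 := by
        unfold idx
        rw [if_neg (by linarith [hxi.1]), if_pos (by linarith [hxi.2])]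
      have k2 : idx i j m t x = 2 := by
        unfold idx
        rw [if_neg (by nlinarith [hxi.1, hxj.2]), if_neg (by nlinarith [hxi.1, hxj.1]),
          if_pos (by nlinarith [hxi.2, hxj.1])]
      unfold TT
      rw [k1, k2]
      have h3 : |(atoms i j 0 1 - atoms i j t 2) i| ≤ ‖atoms i j 0 1 - atoms i j t 2‖ :=
        PiLp.norm_apply_le (atoms i j 0 1 - atoms i j t 2) i
      have h4 : (atoms i j 0 1 - atoms i j t 2) i = -1 := by
        change (pt i j (-(1/2)) (-0) - pt i j (1/2) t) i = -1
        rw [PiLp.sub_apply, pt_apply_left hij, pt_apply_left hij]; norm_num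
      rw [h4] at h3
      norm_num at h3
      nlinarith
    · rw [indicator_of_notMem hx]; positivity
  calc t / 16 = (ρ B).toReal * 1 := by
        rw [hvB, ENNReal.toReal_mul, ENNReal.toReal_ofReal (by positivity),
          ENNReal.toReal_ofReal (by positivity)]; ring
    _ = ∫ x, B.indicator (fun _ => (1:ℝ)) x ∂ρ := by
        rw [integral_indicator_const _ hBm]; rfl
    _ ≤ _ := integral_mono ((integrable_const _).indicator hBm) hint hpt

theorem le_third_of_admissible (hd : 2 ≤ d) {α : ℝ} (hα : Admissible d α) : α ≤ 1 / 3 := by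
  by_contra hcon
  push Not at hcon
  obtain ⟨h0, -, H⟩ := hα
  obtain ⟨C, hC⟩ := H (cube d) cube_isCompact cube_convex cube_interior
    (Metric.closedBall 0 2) (isCompact_closedBall _ _) ⟨0, Metric.mem_closedBall_self (by norm_num)⟩
  set i : Fin d := ⟨0, by omega⟩ with hi
  set j : Fin d := ⟨1, by omega⟩ with hj
  have hij : i ≠ j := by
    intro h; rw [hi, hj] at h; simp at h
  have main : ∀ m : ℝ, 0 < m → m ≤ 1 / 4 →
      Real.sqrt (m / 32) ≤ |C| * (m ^ (3 / 2 : ℝ)) ^ α := by
    intro m hm hm4
    have ht : 0 < m / 2 := by positivity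
    have hmt : 3 / 2 * (m / 2) < m := by linarith
    have h1 : m + m / 2 / 2 ≤ 1 / 2 := by linarith
    have hsupp : ∀ t : ℝ, 0 ≤ t → t ≤ 1 / 2 →
        (volume.restrict (cube d)).map (TT i j m t) (Metric.closedBall 0 2)ᶜ = 0 := by
      intro t ht0 ht1
      rw [Measure.map_apply (measurable_TT i j m t) Metric.isClosed_closedBall.measurableSet.compl]
      have : TT i j m t ⁻¹' (Metric.closedBall 0 2)ᶜ = ∅ := by
        ext x
        simp only [mem_preimage, mem_compl_iff, mem_closedBall_zero_iff, mem_empty_iff_false,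
          iff_false, not_not]
        exact norm_atoms_le i j ht0 ht1 _
      rw [this]; simp
    have hOT0 := TT_isOTMap (d := d) hij (m := m) (t := 0) le_rfl (by linarith)
    have hOT1 := TT_isOTMap (d := d) hij (m := m) (t := m / 2) ht.le hmt.le
    have hb := hC _ _ (Measure.isProbabilityMeasure_map (measurable_TT i j m 0).aemeasurable)
      (Measure.isProbabilityMeasure_map (measurable_TT i j m (m / 2)).aemeasurable)
      (hsupp 0 le_rfl (by norm_num)) (hsupp (m / 2) ht.le (by linarith))
      _ _ (by rw [unif_cube]; exact hOT0) (by rw [unif_cube]; exact hOT1)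
    rw [unif_cube] at hb
    have hw := W2_TT_le (d := d) hij ht hmt h1
    have hdist := dist_TT_ge (d := d) hij ht hmt h1
    have hw0 : 0 ≤ W2 ((volume.restrict (cube d)).map (TT i j m 0))
      ((volume.restrict (cube d)).map (TT i j m (m / 2))) := Real.sqrt_nonneg _
    have hw' : W2 ((volume.restrict (cube d)).map (TT i j m 0))
      ((volume.restrict (cube d)).map (TT i j m (m / 2))) ≤ m ^ (3 / 2 : ℝ) := by
      refine hw.trans ?_
      rw [Real.sqrt_le_left (by positivity)]
      have : (m ^ (3 / 2 : ℝ)) ^ 2 = m ^ 3 := by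
        rw [← Real.rpow_natCast (m ^ (3 / 2 : ℝ)) 2, ← Real.rpow_mul hm.le]
        norm_num
      rw [this]
      nlinarith [pow_pos hm 3]
    calc Real.sqrt (m / 32) ≤ Real.sqrt (∫ x, ‖TT i j m 0 x - TT i j m (m / 2) x‖ ^ 2
          ∂(volume.restrict (cube d))) := by
          apply Real.sqrt_le_sqrt
          refine le_trans (le_of_eq ?_) hdist
          ring
      _ ≤ C * (W2 ((volume.restrict (cube d)).map (TT i j m 0))
            ((volume.restrict (cube d)).map (TT i j m (m / 2)))) ^ α := hb
      _ ≤ |C| * (m ^ (3 / 2 : ℝ)) ^ α := by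
          apply mul_le_mul (le_abs_self C) (Real.rpow_le_rpow hw0 hw' h0.le)
            (Real.rpow_nonneg hw0 _) (abs_nonneg _)
  -- choose m small
  set β : ℝ := (3 * α - 1) / 2 with hβ
  have hβ0 : 0 < β := by rw [hβ]; linarith
  set A : ℝ := |C| * Real.sqrt 32 + 1 with hA
  have hA0 : 0 < A := by positivity
  set m : ℝ := min (1 / 4) ((1 / (2 * A)) ^ (1 / β)) with hm
  have hmpos : 0 < m := lt_min (by norm_num) (Real.rpow_pos_of_pos (by positivity) _)
  have h := main m hmpos (min_le_left _ _)
  have e1 : (m ^ (3 / 2 : ℝ)) ^ α = m ^ β * Real.sqrt m := by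
    rw [← Real.rpow_mul hmpos.le, Real.sqrt_eq_rpow, ← Real.rpow_add hmpos]
    congr 1; rw [hβ]; ring
  have e2 : Real.sqrt (m / 32) = Real.sqrt m / Real.sqrt 32 := Real.sqrt_div hmpos.le _
  have hmb : m ^ β ≤ 1 / (2 * A) := by
    calc m ^ β ≤ ((1 / (2 * A)) ^ (1 / β)) ^ β :=
          Real.rpow_le_rpow hmpos.le (min_le_right _ _) hβ0.le
      _ = 1 / (2 * A) := by
          rw [← Real.rpow_mul (by positivity)]
          rw [one_div_mul_cancel hβ0.ne', Real.rpow_one]
  rw [e1, e2] at h
  have hs : 0 < Real.sqrt m := Real.sqrt_pos.mpr hmpos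
  have hs32 : 0 < Real.sqrt 32 := Real.sqrt_pos.mpr (by norm_num)
  rw [div_le_iff₀ hs32] at h
  have h2 : Real.sqrt m ≤ Real.sqrt m * (m ^ β * (|C| * Real.sqrt 32)) := by
    calc Real.sqrt m ≤ |C| * (m ^ β * Real.sqrt m) * Real.sqrt 32 := h
      _ = _ := by ring
  have h3 : 1 ≤ m ^ β * (|C| * Real.sqrt 32) := by
    by_contra hlt
    push Not at hlt
    nlinarith
  have h4 : m ^ β * (|C| * Real.sqrt 32) ≤ 1 / (2 * A) * A := by
    apply mul_le_mul hmb _ (by positivity) (by positivity)
    rw [hA]; linarith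
  have h5 : 1 / (2 * A) * A = 1 / 2 := by field_simp
  linarith

end family

end Vale.Agent.P074
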