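import Vale.Agent.P074.Defs

/-!
# Lifting a coupling of push-forwards to a coupling of the sources
-/

open MeasureTheory Set Metric ProbabilityTheory
open scoped ENNReal InnerProductSpace NNReal

namespace Vale.Agent.P074

variable {d : ℕ}

theorem map_compProd_comap {ρ : Measure (E d)} [IsFiniteMeasure ρ] {T : E d → E d}
    (hT : Measurable T) (κ : Kernel (E d) (E d)) [IsMarkovKernel κ] :
    (ρ ⊗ₘ (κ.comap T hT)).map (fun p => (T p.1, p.2)) = (ρ.map T) ⊗ₘ κ := by
  have hm : Measurable (fun p : E d × E d => (T p.1, p.2)) :=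
    (hT.comp measurable_fst).prodMk measurable_snd
  ext s hs
  rw [Measure.map_apply hm hs, Measure.compProd_apply (hm hs), Measure.compProd_apply hs,
    lintegral_map (Kernel.measurable_kernel_prodMk_left hs) hT]
  rfl

/-- one-sided lift -/
theorem exists_lift_left {ρ : Measure (E d)} [IsProbabilityMeasure ρ] {T : E d → E d}
    (hT : Measurable T) {π : Measure (E d × E d)} (hπ : π.map Prod.fst = ρ.map T) :
    ∃ π' : Measure (E d × E d), π'.map Prod.fst = ρ ∧
      π'.map (fun p => (T p.1, p.2)) = π := by
  have hμ : IsProbabilityMeasure (ρ.map T) := Measure.isProbabilityMeasure_map hT.aemeasurable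
  have hπp : IsProbabilityMeasure π := by
    constructor
    have h1 : (π.map Prod.fst) univ = 1 := by rw [hπ]; exact measure_univ
    rwa [Measure.map_apply measurable_fst MeasurableSet.univ, preimage_univ] at h1
  refine ⟨ρ ⊗ₘ (π.condKernel.comap T hT), ?_, ?_⟩
  · exact Measure.fst_compProd ρ _
  · rw [map_compProd_comap hT]
    have : ρ.map T = π.fst := hπ.symm
    rw [this]
    exact π.disintegrate π.condKernel

/-- lift of a coupling of push-forwards -/
theorem exists_lift {ρ : Measure (E d)} [IsProbabilityMeasure ρ] {T S : E d → E d}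
    (hT : Measurable T) (hS : Measurable S) {π : Measure (E d × E d)}
    (hπ : IsCoupling (ρ.map T) (ρ.map S) π) :
    ∃ γ : Measure (E d × E d), γ.map Prod.fst = ρ ∧ γ.map Prod.snd = ρ ∧
      γ.map (fun p => (T p.1, S p.2)) = π := by
  obtain ⟨π₁, h1, h2⟩ := exists_lift_left hT hπ.1
  have hmT : Measurable (fun p : E d × E d => (T p.1, p.2)) :=
    (hT.comp measurable_fst).prodMk measurable_snd
  have hmS : Measurable (fun p : E d × E d => (S p.1, p.2)) :=
    (hS.comp measurable_fst).prodMk measurable_snd
  have h3 : (π₁.map Prod.swap).map Prod.fst = ρ.map S := by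
    rw [Measure.map_map measurable_fst measurable_swap]
    have e : (Prod.fst ∘ Prod.swap : E d × E d → E d) = Prod.snd ∘ (fun p => (T p.1, p.2)) := rfl
    rw [e, ← Measure.map_map measurable_snd hmT, h2, hπ.2]
  obtain ⟨π₂, h4, h5⟩ := exists_lift_left hS h3
  refine ⟨π₂.map Prod.swap, ?_, ?_, ?_⟩
  · rw [Measure.map_map measurable_fst measurable_swap]
    have e : (Prod.fst ∘ Prod.swap : E d × E d → E d) = Prod.snd ∘ (fun p => (S p.1, p.2)) := rfl
    rw [e, ← Measure.map_map measurable_snd hmS, h5, Measure.map_map measurable_snd measurable_swap]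
    exact h1
  · rw [Measure.map_map measurable_snd measurable_swap]
    exact h4
  · have hmTS : Measurable (fun p : E d × E d => (T p.1, S p.2)) :=
      (hT.comp measurable_fst).prodMk (hS.comp measurable_snd)
    rw [Measure.map_map hmTS measurable_swap]
    have e : ((fun p : E d × E d => (T p.1, S p.2)) ∘ Prod.swap) =
        (fun p => (T p.1, p.2)) ∘ Prod.swap ∘ (fun p => (S p.1, p.2)) := rfl
    rw [e, ← Measure.map_map hmT (measurable_swap.comp hmS),
      ← Measure.map_map measurable_swap hmS, h5, Measure.map_map measurable_swap measurable_swap]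
    rw [Prod.swap_swap_eq, Measure.map_id, h2]

end Vale.Agent.P074
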