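import Vale.Agent.P074.Discretize
import Vale.Agent.P074.Lift

/-!
# From finite stability to stability of potentials and of optimal maps
-/

open MeasureTheory Set Metric
open scoped ENNReal InnerProductSpace NNReal

namespace Vale.Agent.P074

variable {d : ℕ}

/-- Finite stability of potentials. -/
def FiniteStability (K : Set (E d)) : Prop :=
  ∃ C : ℝ, 0 ≤ C ∧ ∀ (ι κ : Type) [Fintype ι] [Fintype κ] [Nonempty ι] [Nonempty κ]
    (y : ι → E d) (z : κ → E d), Function.Injective y → Function.Injective z →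
    ∀ (a : ι → ℝ) (b : κ → ℝ) (π : ι → κ → ℝ), (∀ i j, 0 ≤ π i j) →
    (∀ i, ∑ j, π i j = (volume (cell K y a i)).toReal) →
    (∀ j, ∑ i, π i j = (volume (cell K z b j)).toReal) →
    ∃ c : ℝ, ∫ x in K, (maxAff y a x - maxAff z b x - c) ^ 2 ≤
      C * ∑ i, ∑ j, π i j * ‖y i - z j‖ ^ 2

section cells

variable {ι : Type} [Fintype ι] [Nonempty ι] {y : ι → E d} {a : ι → ℝ}

theorem measurable_gradient (f : E d → ℝ) : Measurable (gradient f) := by
  have h1 : Measurable (fun x => fderiv ℝ f x) := measurable_fderiv ℝ f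
  exact ((InnerProductSpace.toDual ℝ (E d)).symm.continuous.measurable).comp h1

/-- almost every point of `K` lies in exactly one cell, on which the gradient is constant -/
theorem ae_unique_cell (hy : Function.Injective y) (K : Set (E d)) (hKm : MeasurableSet K) :
    ∀ᵐ x ∂(volume.restrict K), ∃ i, (∀ j, x ∈ cell K y a j ↔ j = i) ∧
      gradient (maxAff y a) x = y i := by
  have h1 := hasGradientAt_maxAff (a := a) hy K
  filter_upwards [ae_restrict_mem hKm, ae_restrict_of_ae h1] with x hx hg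
  obtain ⟨i, hi⟩ := cells_cover hx y a
  refine ⟨i, fun j => ⟨fun hj => ?_, fun h => h ▸ hi⟩, (hg i hi).gradient⟩
  exact hy ((hg j hj).unique (hg i hi))

/-- indicator of a cell -/
noncomputable def chi (K : Set (E d)) (y : ι → E d) (a : ι → ℝ) (i : ι) (x : E d) : ℝ :=
  (cell K y a i).indicator (fun _ => (1:ℝ)) x

omit [Fintype ι] [Nonempty ι] in
theorem measurable_chi {K : Set (E d)} (hK : IsCompact K) (i : ι) :
    Measurable (chi K y a i) :=
  measurable_const.indicator (isCompact_cell hK y a i).measurableSet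

omit [Fintype ι] [Nonempty ι] in
theorem chi_nonneg (K : Set (E d)) (i : ι) (x : E d) : 0 ≤ chi K y a i x :=
  indicator_nonneg (fun _ _ => zero_le_one) x

omit [Fintype ι] [Nonempty ι] in
theorem chi_le_one (K : Set (E d)) (i : ι) (x : E d) : chi K y a i x ≤ 1 := by
  unfold chi
  by_cases h : x ∈ cell K y a i
  · rw [indicator_of_mem h]
  · rw [indicator_of_notMem h]; exact zero_le_one

open Classical in
theorem ae_chi (hy : Function.Injective y) (K : Set (E d)) (hKm : MeasurableSet K) :
    ∀ᵐ x ∂(volume.restrict K), ∃ i, (∀ j, chi K y a j x = if j = i then 1 else 0) ∧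
      gradient (maxAff y a) x = y i := by
  classical
  filter_upwards [ae_unique_cell (a := a) hy K hKm] with x hx
  obtain ⟨i, h1, h2⟩ := hx
  refine ⟨i, fun j => ?_, h2⟩
  unfold chi
  split_ifs with h
  · rw [indicator_of_mem ((h1 j).mpr h)]
  · rw [indicator_of_notMem (fun hj => h ((h1 j).mp hj))]

end cells

theorem ae_fst {γ : Measure (E d × E d)} {ρ : Measure (E d)} (h : γ.map Prod.fst = ρ)
    {P : E d → Prop} (hP : ∀ᵐ x ∂ρ, P x) : ∀ᵐ p ∂γ, P p.1 := by
  rw [← h] at hP
  exact ae_of_ae_map measurable_fst.aemeasurable hP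

theorem ae_snd {γ : Measure (E d × E d)} {ρ : Measure (E d)} (h : γ.map Prod.snd = ρ)
    {P : E d → Prop} (hP : ∀ᵐ x ∂ρ, P x) : ∀ᵐ p ∂γ, P p.2 := by
  rw [← h] at hP
  exact ae_of_ae_map measurable_snd.aemeasurable hP

/-- Finite stability applied to the discretized potentials. -/
theorem discrete_step {K : Set (E d)} (hK : IsCompact K) {C : ℝ} (hC0 : 0 ≤ C)
    (hC : ∀ (ι κ : Type) [Fintype ι] [Fintype κ] [Nonempty ι] [Nonempty κ]
      (y : ι → E d) (z : κ → E d), Function.Injective y → Function.Injective z →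
      ∀ (a : ι → ℝ) (b : κ → ℝ) (π : ι → κ → ℝ), (∀ i j, 0 ≤ π i j) →
      (∀ i, ∑ j, π i j = (volume (cell K y a i)).toReal) →
      (∀ j, ∑ i, π i j = (volume (cell K z b j)).toReal) →
      ∃ c : ℝ, ∫ x in K, (maxAff y a x - maxAff z b x - c) ^ 2 ≤
        C * ∑ i, ∑ j, π i j * ‖y i - z j‖ ^ 2)
    {γ : Measure (E d × E d)} (h1 : γ.map Prod.fst = volume.restrict K)
    (h2 : γ.map Prod.snd = volume.restrict K)
    {ι κ : Type} [Fintype ι] [Fintype κ] [Nonempty ι] [Nonempty κ]
    {y : ι → E d} {z : κ → E d} (hy : Function.Injective y) (hz : Function.Injective z)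
    (a : ι → ℝ) (b : κ → ℝ) {T S : E d → E d} (hT : Measurable T) (hS : Measurable S)
    {L : ℝ≥0} (hyL : ∀ i, ‖y i‖ ≤ L) (hzL : ∀ j, ‖z j‖ ≤ L)
    (hTL : ∀ᵐ x ∂(volume.restrict K), ‖T x‖ ≤ L) (hSL : ∀ᵐ x ∂(volume.restrict K), ‖S x‖ ≤ L) :
    ∃ c : ℝ, ∫ x in K, (maxAff y a x - maxAff z b x - c) ^ 2 ≤
      C * (2 * (∫ p, ‖T p.1 - S p.2‖ ^ 2 ∂γ) +
        4 * (∫ x in K, ‖gradient (maxAff y a) x - T x‖ ^ 2) +
        4 * (∫ x in K, ‖gradient (maxAff z b) x - S x‖ ^ 2)) := by
  classical
  have hKm := hK.measurableSet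
  have hfin : IsFiniteMeasure (volume.restrict K) := ⟨by
    rw [Measure.restrict_apply_univ]; exact hK.measure_lt_top⟩
  have hγfin : IsFiniteMeasure γ := by
    constructor
    have : (γ.map Prod.fst) univ < ∞ := by rw [h1]; exact measure_lt_top _ _
    rwa [Measure.map_apply measurable_fst MeasurableSet.univ, preimage_univ] at this
  have c1 := fun i => measurable_chi (y := y) (a := a) hK i
  have c2 := fun j => measurable_chi (y := z) (a := b) hK j
  have m1 : ∀ i j, Measurable (fun p : E d × E d => chi K y a i p.1 * chi K z b j p.2) :=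
    fun i j => ((c1 i).comp measurable_fst).mul ((c2 j).comp measurable_snd)
  have i1 : ∀ i j, Integrable (fun p : E d × E d => chi K y a i p.1 * chi K z b j p.2) γ := by
    intro i j
    refine Integrable.of_bound (C := 1) (m1 i j).aestronglyMeasurable (ae_of_all _ fun p => ?_)
    rw [Real.norm_of_nonneg (mul_nonneg (chi_nonneg _ _ _) (chi_nonneg _ _ _))]
    exact mul_le_one₀ (chi_le_one _ _ _) (chi_nonneg _ _ _) (chi_le_one _ _ _)
  have A1 := ae_fst h1 (ae_chi (a := a) hy K hKm)
  have A2 := ae_snd h2 (ae_chi (a := b) hz K hKm)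
  set π : ι → κ → ℝ := fun i j => ∫ p, chi K y a i p.1 * chi K z b j p.2 ∂γ with hπ
  have hπ0 : ∀ i j, 0 ≤ π i j := fun i j =>
    integral_nonneg fun p => mul_nonneg (chi_nonneg _ _ _) (chi_nonneg _ _ _)
  have hcell1 : ∀ i, ∫ p, chi K y a i p.1 ∂γ = (volume (cell K y a i)).toReal := by
    intro i
    have e := integral_map (μ := γ) measurable_fst.aemeasurable (f := chi K y a i)
      (c1 i).aestronglyMeasurable
    rw [← e, h1]
    unfold chi
    rw [integral_indicator_const _ (isCompact_cell hK y a i).measurableSet]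
    simp only [smul_eq_mul, mul_one]
    unfold Measure.real
    rw [Measure.restrict_apply (isCompact_cell hK y a i).measurableSet,
      inter_eq_left.mpr (fun x hx => hx.1)]
  have hcell2 : ∀ j, ∫ p, chi K z b j p.2 ∂γ = (volume (cell K z b j)).toReal := by
    intro j
    have e := integral_map (μ := γ) measurable_snd.aemeasurable (f := chi K z b j)
      (c2 j).aestronglyMeasurable
    rw [← e, h2]
    unfold chi
    rw [integral_indicator_const _ (isCompact_cell hK z b j).measurableSet]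
    simp only [smul_eq_mul, mul_one]
    unfold Measure.real
    rw [Measure.restrict_apply (isCompact_cell hK z b j).measurableSet,
      inter_eq_left.mpr (fun x hx => hx.1)]
  have hrow : ∀ i, ∑ j, π i j = (volume (cell K y a i)).toReal := by
    intro i
    rw [← hcell1 i, hπ, ← integral_finsetSum _ (fun j _ => i1 i j)]
    apply integral_congr_ae
    filter_upwards [A2] with p hp
    obtain ⟨j0, hj0, -⟩ := hp
    simp only [hj0]
    simp
  have hcol : ∀ j, ∑ i, π i j = (volume (cell K z b j)).toReal := by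
    intro j
    rw [← hcell2 j, hπ, ← integral_finsetSum _ (fun i _ => i1 i j)]
    apply integral_congr_ae
    filter_upwards [A1] with p hp
    obtain ⟨i0, hi0, -⟩ := hp
    simp only [hi0]
    simp
  obtain ⟨c, hc⟩ := hC ι κ y z hy hz a b π hπ0 hrow hcol
  refine ⟨c, hc.trans (mul_le_mul_of_nonneg_left ?_ hC0)⟩
  -- the cost
  have hcost : ∑ i, ∑ j, π i j * ‖y i - z j‖ ^ 2 =
      ∫ p, ∑ i, ∑ j, chi K y a i p.1 * chi K z b j p.2 * ‖y i - z j‖ ^ 2 ∂γ := by
    rw [integral_finsetSum _ (fun i _ => integrable_finsetSum _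
      (fun j _ => (i1 i j).mul_const _))]
    refine Finset.sum_congr rfl fun i _ => ?_
    rw [integral_finsetSum _ (fun j _ => (i1 i j).mul_const _)]
    refine Finset.sum_congr rfl fun j _ => ?_
    rw [integral_mul_const]
  rw [hcost]
  have hG1 := measurable_gradient (maxAff y a)
  have hG2 := measurable_gradient (maxAff z b)
  have bound_int : ∀ {U V : E d → E d}, Measurable U → Measurable V →
      (∀ᵐ x ∂(volume.restrict K), ‖U x‖ ≤ L) → (∀ᵐ x ∂(volume.restrict K), ‖V x‖ ≤ L) →
      Integrable (fun x => ‖U x - V x‖ ^ 2) (volume.restrict K) := by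
    intro U V hU hV hUL hVL
    refine Integrable.of_bound (C := (2 * L) ^ 2)
      ((hU.sub hV).norm.pow_const 2).aestronglyMeasurable ?_
    filter_upwards [hUL, hVL] with x h3 h4
    rw [Real.norm_of_nonneg (by positivity)]
    exact pow_le_pow_left₀ (norm_nonneg _) ((norm_sub_le _ _).trans (by linarith)) 2
  have hg1L : ∀ᵐ x ∂(volume.restrict K), ‖gradient (maxAff y a) x‖ ≤ L := by
    filter_upwards [ae_chi (a := a) hy K hKm] with x hx
    obtain ⟨i, -, hi⟩ := hx
    rw [hi]; exact hyL i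
  have hg2L : ∀ᵐ x ∂(volume.restrict K), ‖gradient (maxAff z b) x‖ ≤ L := by
    filter_upwards [ae_chi (a := b) hz K hKm] with x hx
    obtain ⟨i, -, hi⟩ := hx
    rw [hi]; exact hzL i
  have J1 := bound_int hG1 hT hg1L hTL
  have J2 := bound_int hG2 hS hg2L hSL
  have J1' : Integrable (fun p : E d × E d => ‖gradient (maxAff y a) p.1 - T p.1‖ ^ 2) γ := by
    rw [← h1] at J1
    exact J1.comp_measurable measurable_fst
  have J2' : Integrable (fun p : E d × E d => ‖gradient (maxAff z b) p.2 - S p.2‖ ^ 2) γ := by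
    rw [← h2] at J2
    exact J2.comp_measurable measurable_snd
  have J3 : Integrable (fun p : E d × E d => ‖T p.1 - S p.2‖ ^ 2) γ := by
    refine Integrable.of_bound (C := (2 * L) ^ 2)
      (((hT.comp measurable_fst).sub (hS.comp measurable_snd)).norm.pow_const 2).aestronglyMeasurable
      ?_
    filter_upwards [ae_fst h1 hTL, ae_snd h2 hSL] with p h3 h4
    rw [Real.norm_of_nonneg (by positivity)]
    exact pow_le_pow_left₀ (norm_nonneg _) ((norm_sub_le _ _).trans (by linarith)) 2
  have e1 : ∫ x in K, ‖gradient (maxAff y a) x - T x‖ ^ 2 =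
      ∫ p, ‖gradient (maxAff y a) p.1 - T p.1‖ ^ 2 ∂γ := by
    rw [← h1]
    exact integral_map measurable_fst.aemeasurable
      ((hG1.sub hT).norm.pow_const 2).aestronglyMeasurable
  have e2 : ∫ x in K, ‖gradient (maxAff z b) x - S x‖ ^ 2 =
      ∫ p, ‖gradient (maxAff z b) p.2 - S p.2‖ ^ 2 ∂γ := by
    rw [← h2]
    exact integral_map measurable_snd.aemeasurable
      ((hG2.sub hS).norm.pow_const 2).aestronglyMeasurable
  have J12 : Integrable (fun p : E d × E d => 2 * ‖T p.1 - S p.2‖ ^ 2 +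
      4 * ‖gradient (maxAff y a) p.1 - T p.1‖ ^ 2) γ := (J3.const_mul 2).add (J1'.const_mul 4)
  have J123 : Integrable (fun p : E d × E d => 2 * ‖T p.1 - S p.2‖ ^ 2 +
      4 * ‖gradient (maxAff y a) p.1 - T p.1‖ ^ 2 +
      4 * ‖gradient (maxAff z b) p.2 - S p.2‖ ^ 2) γ := J12.add (J2'.const_mul 4)
  rw [e1, e2, ← integral_const_mul, ← integral_const_mul, ← integral_const_mul,
    ← integral_add (J3.const_mul 2) (J1'.const_mul 4),
    ← integral_add J12 (J2'.const_mul 4)]
  refine integral_mono_ae ?_ J123 ?_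
  · exact integrable_finsetSum _ fun i _ => integrable_finsetSum _ fun j _ => (i1 i j).mul_const _
  · filter_upwards [A1, A2] with p hp1 hp2
    obtain ⟨i0, hi0, hi1⟩ := hp1
    obtain ⟨j0, hj0, hj1⟩ := hp2
    have e3 : ∑ i, ∑ j, chi K y a i p.1 * chi K z b j p.2 * ‖y i - z j‖ ^ 2 =
        ‖y i0 - z j0‖ ^ 2 := by
      rw [Finset.sum_eq_single i0, Finset.sum_eq_single j0]
      · rw [hi0, hj0]; simp
      · intro j _ hj; rw [hj0, if_neg hj]; simp
      · simp
      · intro i _ hi
        apply Finset.sum_eq_zero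
        intro j _
        rw [hi0, if_neg hi]; simp
      · simp
    rw [e3, hi1, hj1]
    have t1 : ‖y i0 - z j0‖ ≤ ‖T p.1 - S p.2‖ + (‖y i0 - T p.1‖ + ‖z j0 - S p.2‖) := by
      have : y i0 - z j0 = (T p.1 - S p.2) + ((y i0 - T p.1) - (z j0 - S p.2)) := by abel
      rw [this]
      exact (norm_add_le _ _).trans (add_le_add le_rfl (norm_sub_le _ _))
    have n1 := norm_nonneg (y i0 - z j0)
    have n2 := norm_nonneg (T p.1 - S p.2)
    have n3 := norm_nonneg (y i0 - T p.1)
    have n4 := norm_nonneg (z j0 - S p.2)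
    have t2 : ‖y i0 - z j0‖ ^ 2 ≤
        (‖T p.1 - S p.2‖ + (‖y i0 - T p.1‖ + ‖z j0 - S p.2‖)) ^ 2 := pow_le_pow_left₀ n1 t1 2
    nlinarith [sq_nonneg (‖T p.1 - S p.2‖ - (‖y i0 - T p.1‖ + ‖z j0 - S p.2‖)),
      sq_nonneg (‖y i0 - T p.1‖ - ‖z j0 - S p.2‖)]

theorem ae_hasGradientAt_gradient {K : Set (E d)} (hKm : MeasurableSet K) {ι : Type} [Fintype ι]
    [Nonempty ι] {y : ι → E d} (hy : Function.Injective y) (a : ι → ℝ) :
    ∀ᵐ x ∂(volume.restrict K), HasGradientAt (maxAff y a) (gradient (maxAff y a) x) x := by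
  have h1 := hasGradientAt_maxAff (a := a) hy K
  filter_upwards [ae_restrict_mem hKm, ae_restrict_of_ae h1] with x hx hg
  obtain ⟨i, hi⟩ := cells_cover hx y a
  have := hg i hi
  rwa [this.gradient]

/-- the mean minimizes the quadratic deviation -/
theorem mean_min {K : Set (E d)} (hK : IsCompact K) (hv : 0 < (volume K).toReal) {f : E d → ℝ}
    (hf : Continuous f) (c : ℝ) :
    ∫ x in K, (f x - (∫ z in K, f z) / (volume K).toReal) ^ 2 ≤ ∫ x in K, (f x - c) ^ 2 := by
  set v := (volume K).toReal with hvdef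
  set I := ∫ z in K, f z with hI
  set m := I / v with hm
  have i1 : IntegrableOn f K := hf.continuousOn.integrableOn_compact hK
  have i2 : IntegrableOn (fun x => (f x - m) ^ 2) K := by
    have : Continuous (fun x => (f x - m) ^ 2) := by fun_prop
    exact this.continuousOn.integrableOn_compact hK
  have hfinK : volume K ≠ ∞ := hK.measure_lt_top.ne
  have i3 : IntegrableOn (fun _ : E d => (m - c) ^ 2) K := integrableOn_const hfinK
  have i4 : IntegrableOn (fun x => 2 * (m - c) * (f x - m)) K := by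
    have : Continuous (fun x => 2 * (m - c) * (f x - m)) := by fun_prop
    exact this.continuousOn.integrableOn_compact hK
  have e : ∀ x, (f x - c) ^ 2 = (f x - m) ^ 2 + 2 * (m - c) * (f x - m) + (m - c) ^ 2 := by
    intro x; ring
  have e2 : ∫ x in K, (f x - c) ^ 2 =
      (∫ x in K, (f x - m) ^ 2) + (∫ x in K, 2 * (m - c) * (f x - m)) + ∫ _x in K, (m - c) ^ 2 := by
    simp_rw [e]
    have i24 : IntegrableOn (fun x => (f x - m) ^ 2 + 2 * (m - c) * (f x - m)) K := i2.add i4
    rw [integral_add i24 i3, integral_add i2 i4]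
  have e3 : ∫ x in K, 2 * (m - c) * (f x - m) = 0 := by
    rw [integral_const_mul, integral_sub i1 (integrableOn_const hfinK)]
    rw [setIntegral_const]
    have : Measure.real volume K = v := rfl
    rw [this, smul_eq_mul, hm, mul_div_cancel₀ _ hv.ne', ← hI, sub_self, mul_zero]
  have e4 : 0 ≤ ∫ _x in K, (m - c) ^ 2 := integral_nonneg fun _ => by positivity
  rw [e2, e3]
  linarith

/-- Stability of potentials in `L²` by the quadratic cost of couplings. -/
theorem potential_stability {K : Set (E d)} (hK : IsCompact K) (hKc : Convex ℝ K)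
    (hKi : (interior K).Nonempty) (hFS : FiniteStability K) :
    ∃ C : ℝ, 0 ≤ C ∧ ∀ (L : ℝ≥0) (φ ψ : E d → ℝ) (T S : E d → E d),
      ConvexOn ℝ univ φ → ConvexOn ℝ univ ψ → LipschitzWith L φ → LipschitzWith L ψ →
      Measurable T → Measurable S →
      (∀ᵐ x ∂(volume.restrict K), HasGradientAt φ (T x) x) →
      (∀ᵐ x ∂(volume.restrict K), HasGradientAt ψ (S x) x) →
      ∀ γ : Measure (E d × E d), γ.map Prod.fst = volume.restrict K →
        γ.map Prod.snd = volume.restrict K →
        ∃ c : ℝ, ∫ x in K, (φ x - ψ x - c) ^ 2 ≤ C * ∫ p, ‖T p.1 - S p.2‖ ^ 2 ∂γ := by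
  obtain ⟨C, hC0, hC⟩ := hFS
  refine ⟨4 * C, by positivity, ?_⟩
  intro L φ ψ T S hφ hψ hφL hψL hT hS hTg hSg γ h1 h2
  have hKm := hK.measurableSet
  have hfinK : volume K ≠ ∞ := hK.measure_lt_top.ne
  have hvpos : 0 < (volume K).toReal := by
    apply ENNReal.toReal_pos _ hfinK
    have h := isOpen_interior.measure_pos volume hKi
    exact (lt_of_lt_of_le h (measure_mono interior_subset)).ne'
  obtain ⟨G, hG0, hG⟩ := gn hK hKc hKi L
  have hφc := hφL.continuous
  have hψc := hψL.continuous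
  set v : ℝ := (volume K).toReal with hv
  set f : E d → ℝ := fun x => φ x - ψ x with hf
  have hfc : Continuous f := hφc.sub hψc
  set m : ℝ := (∫ z in K, f z) / v with hm
  set cost : ℝ := ∫ p, ‖T p.1 - S p.2‖ ^ 2 ∂γ with hcost
  refine ⟨m, ?_⟩
  have hTL : ∀ᵐ x ∂(volume.restrict K), ‖T x‖ ≤ L := by
    filter_upwards [hTg] with x hx using grad_norm_le hφ hφL hx
  have hSL : ∀ᵐ x ∂(volume.restrict K), ‖S x‖ ≤ L := by
    filter_upwards [hSg] with x hx using grad_norm_le hψ hψL hx
  -- bound for each δ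
  have hbound : ∀ δ : ℝ, 0 < δ → ∫ x in K, (f x - m) ^ 2 ≤
      2 * (C * (2 * cost + 4 * (G * (δ ^ 2 * v) ^ (1 / 3 : ℝ)) +
        4 * (G * (δ ^ 2 * v) ^ (1 / 3 : ℝ)))) + 2 * (δ ^ 2 * v) := by
    intro δ hδ
    obtain ⟨ι, _, _, y, a, hy, hyL, hy1, hy2⟩ := discretize hK hKc hKi hφ hφL hTg hδ
    obtain ⟨κ, _, _, z, b, hz, hzL, hz1, hz2⟩ := discretize hK hKc hKi hψ hψL hSg hδ
    obtain ⟨c, hc⟩ := discrete_step hK hC0 hC h1 h2 hy hz a b hT hS hyL hzL hTL hSL
    have hp1 : Continuous (maxAff y a) := (lipschitz_maxAff hyL a).continuous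
    have hp2 : Continuous (maxAff z b) := (lipschitz_maxAff hzL b).continuous
    have sq_le : ∀ (g h : E d → ℝ), Continuous g → Continuous h → (∀ x, g x ≤ h x) →
        (∀ x ∈ K, h x ≤ g x + δ) → ∫ x in K, (g x - h x) ^ 2 ≤ δ ^ 2 * v := by
      intro g h hg hh hgh1 hgh2
      have hc1 : Continuous (fun x => (g x - h x) ^ 2) := by fun_prop
      calc ∫ x in K, (g x - h x) ^ 2 ≤ ∫ _x in K, δ ^ 2 := by
            apply setIntegral_mono_on (hc1.continuousOn.integrableOn_compact hK)
              (integrableOn_const hfinK) hKm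
            intro x hx
            have a1 := hgh1 x
            have a2 := hgh2 x hx
            nlinarith
        _ = δ ^ 2 * v := by
            rw [setIntegral_const]
            have : Measure.real volume K = v := rfl
            rw [this, smul_eq_mul, mul_comm]
    have g1 : ∫ x in K, ‖gradient (maxAff y a) x - T x‖ ^ 2 ≤ G * (δ ^ 2 * v) ^ (1 / 3 : ℝ) := by
      refine (hG (maxAff y a) φ _ T (convexOn_maxAff y a) hφ (lipschitz_maxAff hyL a) hφL
        (measurable_gradient _) hT (ae_hasGradientAt_gradient hKm hy a) hTg).trans ?_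
      apply mul_le_mul_of_nonneg_left _ hG0
      exact Real.rpow_le_rpow (integral_nonneg fun x => by positivity)
        (sq_le _ _ hp1 hφc hy1 hy2) (by norm_num)
    have g2 : ∫ x in K, ‖gradient (maxAff z b) x - S x‖ ^ 2 ≤ G * (δ ^ 2 * v) ^ (1 / 3 : ℝ) := by
      refine (hG (maxAff z b) ψ _ S (convexOn_maxAff z b) hψ (lipschitz_maxAff hzL b) hψL
        (measurable_gradient _) hS (ae_hasGradientAt_gradient hKm hz b) hSg).trans ?_
      apply mul_le_mul_of_nonneg_left _ hG0
      exact Real.rpow_le_rpow (integral_nonneg fun x => by positivity)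
        (sq_le _ _ hp2 hψc hz1 hz2) (by norm_num)
    have s1 : ∫ x in K, (f x - m) ^ 2 ≤ ∫ x in K, (f x - c) ^ 2 := mean_min hK hvpos hfc c
    have s2 : ∫ x in K, (f x - c) ^ 2 ≤
        2 * (∫ x in K, (maxAff y a x - maxAff z b x - c) ^ 2) + 2 * (δ ^ 2 * v) := by
      have hc1 : Continuous (fun x => (f x - c) ^ 2) := by fun_prop
      have hc2 : Continuous (fun x => (maxAff y a x - maxAff z b x - c) ^ 2) := by fun_prop
      have i2 : IntegrableOn (fun x => 2 * (maxAff y a x - maxAff z b x - c) ^ 2) K :=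
        (hc2.continuousOn.integrableOn_compact hK).const_mul 2
      have i3 : IntegrableOn (fun _ : E d => 2 * δ ^ 2) K := integrableOn_const hfinK
      calc ∫ x in K, (f x - c) ^ 2
          ≤ ∫ x in K, (2 * (maxAff y a x - maxAff z b x - c) ^ 2 + 2 * δ ^ 2) := by
            apply setIntegral_mono_on (hc1.continuousOn.integrableOn_compact hK)
              (i2.add i3) hKm
            intro x hx
            have a1 := hy1 x
            have a2 := hy2 x hx
            have a3 := hz1 x
            have a4 := hz2 x hx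
            have a5 : |f x - (maxAff y a x - maxAff z b x)| ≤ δ := by
              rw [abs_le]; simp only [hf]; constructor <;> linarith
            have a6 : (f x - (maxAff y a x - maxAff z b x)) ^ 2 ≤ δ ^ 2 := by
              rw [← sq_abs]; exact pow_le_pow_left₀ (abs_nonneg _) a5 2
            have a7 : (f x - c) ^ 2 = 2 * (f x - (maxAff y a x - maxAff z b x)) ^ 2 +
                2 * (maxAff y a x - maxAff z b x - c) ^ 2 -
                ((f x - (maxAff y a x - maxAff z b x)) -
                  (maxAff y a x - maxAff z b x - c)) ^ 2 := by ring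
            have a8 := sq_nonneg ((f x - (maxAff y a x - maxAff z b x)) -
                  (maxAff y a x - maxAff z b x - c))
            change (f x - c) ^ 2 ≤ 2 * (maxAff y a x - maxAff z b x - c) ^ 2 + 2 * δ ^ 2
            linarith
        _ = _ := by
            rw [integral_add i2 i3, integral_const_mul, setIntegral_const]
            have : Measure.real volume K = v := rfl
            rw [this, smul_eq_mul]; ring
    have s3 : C * (2 * cost + 4 * (∫ x in K, ‖gradient (maxAff y a) x - T x‖ ^ 2) +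
        4 * (∫ x in K, ‖gradient (maxAff z b) x - S x‖ ^ 2)) ≤
        C * (2 * cost + 4 * (G * (δ ^ 2 * v) ^ (1 / 3 : ℝ)) +
        4 * (G * (δ ^ 2 * v) ^ (1 / 3 : ℝ))) := by
      apply mul_le_mul_of_nonneg_left _ hC0
      linarith
    linarith
  -- limit δ → 0
  have hcont : Continuous (fun δ : ℝ => 2 * (C * (2 * cost + 4 * (G * (δ ^ 2 * v) ^ (1 / 3 : ℝ)) +
        4 * (G * (δ ^ 2 * v) ^ (1 / 3 : ℝ)))) + 2 * (δ ^ 2 * v)) := by
    have h3 : Continuous (fun δ : ℝ => (δ ^ 2 * v) ^ (1 / 3 : ℝ)) := by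
      apply Continuous.rpow_const (by fun_prop)
      intro x; right; norm_num
    fun_prop
  have hlim := (hcont.tendsto 0).mono_left (nhdsWithin_le_nhds (s := Ioi (0:ℝ)))
  have h0 : 2 * (C * (2 * cost + 4 * (G * ((0:ℝ) ^ 2 * v) ^ (1 / 3 : ℝ)) +
        4 * (G * ((0:ℝ) ^ 2 * v) ^ (1 / 3 : ℝ)))) + 2 * ((0:ℝ) ^ 2 * v) = 4 * C * cost := by
    rw [zero_pow (by norm_num), zero_mul, Real.zero_rpow (by norm_num)]; ring
  rw [h0] at hlim
  refine ge_of_tendsto hlim ?_
  filter_upwards [self_mem_nhdsWithin] with δ hδ using hbound δ hδ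

end Vale.Agent.P074
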