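import Vale.Agent.P074.Path
import Vale.Agent.P074.Potential

/-!
# Stability of the potentials for finite targets
-/

open MeasureTheory Set
open scoped ENNReal InnerProductSpace

namespace Vale.Agent.P074

namespace Semi

variable {d : ℕ}

section bad

variable {ι κ : Type} [Fintype ι] [Fintype κ]

theorem bad_finite {y : ι → E d} {z : κ → E d} (hy : Function.Injective y)
    (hz : Function.Injective z) :
    {t : ℝ | ¬ Function.Injective
      (pth (fun p : ι × κ => y p.1) (fun p : ι × κ => z p.2) t)}.Finite := by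
  have hsub : {t : ℝ | ¬ Function.Injective
      (pth (fun p : ι × κ => y p.1) (fun p : ι × κ => z p.2) t)} ⊆
      ⋃ p : ι × κ, ⋃ q : ι × κ, {t : ℝ | p ≠ q ∧ pth (fun p : ι × κ => y p.1)
        (fun p : ι × κ => z p.2) t p = pth (fun p : ι × κ => y p.1)
        (fun p : ι × κ => z p.2) t q} := by
    intro t ht
    simp only [mem_ofPred_eq, Function.Injective] at ht
    push Not at ht
    obtain ⟨p, q, h1, h2⟩ := ht
    simp only [mem_iUnion]
    exact ⟨p, q, h2, h1⟩
  refine Set.Finite.subset ?_ hsub
  refine Set.finite_iUnion fun p => Set.finite_iUnion fun q => ?_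
  apply Set.Subsingleton.finite
  rintro t ⟨hpq, ht⟩ t' ⟨-, ht'⟩
  by_contra hne
  apply hpq
  simp only [pth] at ht ht'
  have e1 : (1 - t) • (y p.1 - y q.1) + t • (z p.2 - z q.2) = 0 := by
    have : (1 - t) • (y p.1 - y q.1) + t • (z p.2 - z q.2) =
      ((1 - t) • y p.1 + t • z p.2) - ((1 - t) • y q.1 + t • z q.2) := by module
    rw [this, ht, sub_self]
  have e2 : (1 - t') • (y p.1 - y q.1) + t' • (z p.2 - z q.2) = 0 := by
    have : (1 - t') • (y p.1 - y q.1) + t' • (z p.2 - z q.2) =
      ((1 - t') • y p.1 + t' • z p.2) - ((1 - t') • y q.1 + t' • z q.2) := by module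
    rw [this, ht', sub_self]
  have hne' : t' - t ≠ 0 := sub_ne_zero.mpr (Ne.symm hne)
  have e3 : (t' - t) • (y p.1 - y q.1) = 0 := by
    have : (t' - t) • (y p.1 - y q.1) = t' • ((1 - t) • (y p.1 - y q.1) + t • (z p.2 - z q.2)) -
      t • ((1 - t') • (y p.1 - y q.1) + t' • (z p.2 - z q.2)) := by module
    rw [this, e1, e2]; simp
  have e4 : (t' - t) • (z p.2 - z q.2) = 0 := by
    have : (t' - t) • (z p.2 - z q.2) =
      (1 - t) • ((1 - t') • (y p.1 - y q.1) + t' • (z p.2 - z q.2)) -
      (1 - t') • ((1 - t) • (y p.1 - y q.1) + t • (z p.2 - z q.2)) := by module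
    rw [this, e1, e2]; simp
  have e5 : y p.1 = y q.1 := sub_eq_zero.mp ((smul_eq_zero.mp e3).resolve_left hne')
  have e6 : z p.2 = z q.2 := sub_eq_zero.mp ((smul_eq_zero.mp e4).resolve_left hne')
  exact Prod.ext (hy e5) (hz e6)

end bad

section value

variable {ι P : Type} [Fintype ι] [Fintype P] [Nonempty ι] [Nonempty P]

/-- fractional partition of `K` subordinate to cells, indexed by a finer index type -/
noncomputable def frac (K : Set (E d)) (y : ι → E d) (a : ι → ℝ) (f : P → ι) (w : P → ℝ)
    (p : P) (x : E d) : ℝ :=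
  (cell K y a (f p)).indicator (fun _ => w p / (volume (cell K y a (f p))).toReal) x

variable {K : Set (E d)} {y : ι → E d} {a : ι → ℝ} {f : P → ι} {w : P → ℝ}

omit [Fintype ι] [Fintype P] [Nonempty ι] [Nonempty P] in
theorem frac_nonneg (hw : ∀ p, 0 ≤ w p) (p : P) (x : E d) : 0 ≤ frac K y a f w p x :=
  indicator_nonneg (fun _ _ => div_nonneg (hw p) ENNReal.toReal_nonneg) x

omit [Fintype ι] [Fintype P] [Nonempty ι] [Nonempty P] in
theorem frac_measurable (hK : IsCompact K) (p : P) : Measurable (frac K y a f w p) :=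
  measurable_const.indicator (measurableSet_cell hK.measurableSet _ _ _)

omit [Nonempty P] in
theorem frac_sum [DecidableEq ι] (hK : IsCompact K) (hy : Function.Injective y)
    (hmarg : ∀ i, ∑ p with f p = i, w p = (volume (cell K y a i)).toReal) :
    ∀ᵐ x ∂(volume.restrict K), ∑ p, frac K y a f w p x = 1 := by
  have hnull : ∀ᵐ x ∂(volume.restrict K), ∀ i, x ∈ cell K y a i →
      (volume (cell K y a i)).toReal ≠ 0 := by
    rw [ae_all_iff]; intro i
    by_cases h : (volume (cell K y a i)).toReal = 0
    · have h0 : volume (cell K y a i) = 0 := by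
        rw [ENNReal.toReal_eq_zero_iff] at h
        rcases h with h | h
        · exact h
        · exfalso
          have : volume (cell K y a i) ≤ volume K := measure_mono fun x hx => hx.1
          exact absurd h (ne_top_of_le_ne_top hK.measure_lt_top.ne this)
      have h1 : ∀ᵐ x ∂(volume : Measure (E d)), x ∉ cell K y a i := by
        rw [ae_iff]; simpa using h0
      filter_upwards [ae_restrict_of_ae h1] with x hx hx2
      exact absurd hx2 hx
    · exact Filter.Eventually.of_forall fun x _ => h
  filter_upwards [hnull, ae_restrict_mem hK.measurableSet,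
    ae_unique_cell (ν := volume.restrict K) Measure.restrict_le_self.absolutelyContinuous hy a]
    with x hx hxK hu
  obtain ⟨i, hi, hi2⟩ := hu
  have hiK : x ∈ cell K y a i := by rw [cell_eq]; exact ⟨hxK, hi⟩
  have h1 : ∀ p, frac K y a f w p x = if f p = i then w p / (volume (cell K y a i)).toReal else 0 := by
    intro p
    unfold frac
    split_ifs with h
    · rw [h, indicator_of_mem hiK]
    · rw [indicator_of_notMem]
      intro hc
      rw [cell_eq] at hc
      exact hi2 (f p) h hc.2
  simp_rw [h1]
  rw [← Finset.sum_filter, ← Finset.sum_div, hmarg i, div_self (hx i hiK)]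

omit [Fintype ι] [Nonempty ι] [Nonempty P] in
theorem frac_mass [DecidableEq ι] (hK : IsCompact K) (hw : ∀ p, 0 ≤ w p)
    (hmarg : ∀ i, ∑ p with f p = i, w p = (volume (cell K y a i)).toReal) (p : P) :
    ∫ x, frac K y a f w p x ∂(volume.restrict K) = w p := by
  unfold frac
  have hm := measurableSet_cell hK.measurableSet y a (f p)
  rw [integral_indicator_const _ hm, measureReal_restrict_apply hm,
    inter_eq_left.mpr (fun x hx => hx.1), smul_eq_mul, Measure.real]
  by_cases h : (volume (cell K y a (f p))).toReal = 0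
  · have h1 := hmarg (f p)
    rw [h] at h1
    have h2 := (Finset.sum_eq_zero_iff_of_nonneg (fun q _ => hw q)).mp h1 p
      (Finset.mem_filter.mpr ⟨Finset.mem_univ p, rfl⟩)
    rw [h2, h]; simp
  · field_simp

/-- the transport integral of the fractional partition -/
theorem frac_value [DecidableEq ι] {D : ℝ} (hK : IsCompact K) (hKD : K ⊆ Metric.closedBall 0 D)
    (hy : Function.Injective y) (hw : ∀ p, 0 ≤ w p)
    (hmarg : ∀ i, ∑ p with f p = i, w p = (volume (cell K y a i)).toReal) :
    ∑ p, ∫ x, frac K y a f w p x * inner ℝ x (y (f p)) ∂(volume.restrict K) =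
      Phi (volume.restrict K) (fun p => y (f p)) w (fun p => a (f p)) := by
  have hKf : IsFiniteMeasure (volume.restrict K) := ⟨by
    rw [Measure.restrict_apply_univ]; exact hK.measure_lt_top⟩
  have hD : ∀ᵐ x ∂(volume.restrict K), ‖x‖ ≤ D := by
    filter_upwards [ae_restrict_mem hK.measurableSet] with x hx
    exact mem_closedBall_zero_iff.mp (hKD hx)
  have h := gap_eq hD (fun p => y (f p)) (m := w) (fun p => a (f p))
    (u := frac K y a f w) (frac_measurable hK) (frac_nonneg hw) (frac_sum hK hy hmarg)
    (frac_mass hK hw hmarg)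
  have h2 : ∫ x, ∑ p, frac K y a f w p x * (maxAff (fun p => y (f p)) (fun p => a (f p)) x -
      (inner ℝ x (y (f p)) - a (f p))) ∂(volume.restrict K) = 0 := by
    have : ∀ x, ∑ p, frac K y a f w p x * (maxAff (fun p => y (f p)) (fun p => a (f p)) x -
      (inner ℝ x (y (f p)) - a (f p))) = 0 := by
      intro x
      refine Finset.sum_eq_zero fun p _ => ?_
      by_cases hx : x ∈ cell K y a (f p)
      · have h3 : maxAff (fun p => y (f p)) (fun p => a (f p)) x ≤
            inner ℝ x (y (f p)) - a (f p) := maxAff_le fun q => hx.2 (f q)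
        have h4 := le_maxAff (fun p => y (f p)) (fun p => a (f p)) x p
        rw [le_antisymm h3 h4, sub_self, mul_zero]
      · unfold frac
        rw [indicator_of_notMem hx, zero_mul]
    simp_rw [this]
    simp
  rw [h2] at h
  linarith

/-- almost every point has zero gap at a minimizer -/
theorem ae_mem_of_min [DecidableEq ι] {D : ℝ} (hK : IsCompact K)
    (hKD : K ⊆ Metric.closedBall 0 D)
    (hy : Function.Injective y) (hw : ∀ p, 0 ≤ w p)
    (hmarg : ∀ i, ∑ p with f p = i, w p = (volume (cell K y a i)).toReal) {ψ : P → ℝ}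
    (hmin : ∀ ψ', Phi (volume.restrict K) (fun p => y (f p)) w ψ ≤
      Phi (volume.restrict K) (fun p => y (f p)) w ψ') :
    ∀ᵐ x ∂(volume.restrict K), ∃ p, maxAff (fun p => y (f p)) ψ x - maxAff y a x =
      a (f p) - ψ p := by
  have hKf : IsFiniteMeasure (volume.restrict K) := ⟨by
    rw [Measure.restrict_apply_univ]; exact hK.measure_lt_top⟩
  have hD : ∀ᵐ x ∂(volume.restrict K), ‖x‖ ≤ D := by
    filter_upwards [ae_restrict_mem hK.measurableSet] with x hx
    exact mem_closedBall_zero_iff.mp (hKD hx)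
  have hsum := frac_sum (w := w) hK hy hmarg
  have h := gap_eq hD (fun p => y (f p)) (m := w) ψ
    (u := frac K y a f w) (frac_measurable hK) (frac_nonneg hw) hsum (frac_mass hK hw hmarg)
  rw [frac_value hK hKD hy hw hmarg] at h
  have hnn : ∀ x, 0 ≤ ∑ p, frac K y a f w p x * (maxAff (fun p => y (f p)) ψ x -
      (inner ℝ x (y (f p)) - ψ p)) := fun x =>
    gap_nonneg (ν := volume.restrict K) (fun p => y (f p)) ψ (frac_nonneg hw) x
  have hint : Integrable (fun x => ∑ p, frac K y a f w p x * (maxAff (fun p => y (f p)) ψ x -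
      (inner ℝ x (y (f p)) - ψ p))) (volume.restrict K) := by
    refine integrable_finsetSum _ fun p _ => ?_
    refine integral_mul_bound hD ?_ (frac_measurable hK p) ?_
    · exact (continuous_maxAff _ _).sub (by fun_prop)
    · filter_upwards [hsum] with x hx
      rw [abs_of_nonneg (frac_nonneg hw p x), ← hx]
      exact Finset.single_le_sum (f := fun p => frac K y a f w p x)
        (fun q _ => frac_nonneg hw q x) (Finset.mem_univ p)
  have h0 : ∫ x, ∑ p, frac K y a f w p x * (maxAff (fun p => y (f p)) ψ x -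
      (inner ℝ x (y (f p)) - ψ p)) ∂(volume.restrict K) = 0 := by
    apply le_antisymm _ (integral_nonneg hnn)
    rw [← h]
    have := hmin (fun p => a (f p))
    linarith
  rw [integral_eq_zero_iff_of_nonneg hnn hint] at h0
  filter_upwards [h0, hsum] with x hx0 hx1
  simp only [Pi.zero_apply] at hx0
  have hex : ∃ p, frac K y a f w p x ≠ 0 := by
    by_contra hcon
    push Not at hcon
    simp_rw [hcon] at hx1
    simp at hx1
  obtain ⟨p, hp⟩ := hex
  refine ⟨p, ?_⟩
  have hterm := (Finset.sum_eq_zero_iff_of_nonneg (fun q _ => mul_nonneg (frac_nonneg hw q x)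
    (by have := le_maxAff (fun p => y (f p)) ψ x q; linarith))).mp hx0 p (Finset.mem_univ p)
  have h1 : maxAff (fun p => y (f p)) ψ x - (inner ℝ x (y (f p)) - ψ p) = 0 :=
    (mul_eq_zero.mp hterm).resolve_left hp
  have hcell : x ∈ cell K y a (f p) := by
    by_contra hc
    apply hp
    unfold frac
    rw [indicator_of_notMem hc]
  have h2 := eq_of_mem_cell hcell
  linarith

/-- uniqueness of the potential on a convex body -/
theorem potential_unique [DecidableEq ι] {D : ℝ} (hK : IsCompact K) (hKc : Convex ℝ K)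
    (hKi : (interior K).Nonempty) (hKD : K ⊆ Metric.closedBall 0 D)
    (hy : Function.Injective y) (hw : ∀ p, 0 ≤ w p)
    (hmarg : ∀ i, ∑ p with f p = i, w p = (volume (cell K y a i)).toReal) {ψ : P → ℝ}
    (hmin : ∀ ψ', Phi (volume.restrict K) (fun p => y (f p)) w ψ ≤
      Phi (volume.restrict K) (fun p => y (f p)) w ψ') :
    ∃ c, ∀ x ∈ K, maxAff (fun p => y (f p)) ψ x = maxAff y a x + c := by
  set Df : E d → ℝ := fun x => maxAff (fun p => y (f p)) ψ x - maxAff y a x with hDf
  have hDc : Continuous Df := (continuous_maxAff _ _).sub (continuous_maxAff _ _)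
  set S : Set ℝ := range (fun p => a (f p) - ψ p) with hS
  have hSfin : S.Finite := finite_range _
  have hae := ae_mem_of_min hK hKD hy hw hmarg hmin
  have hall : ∀ x ∈ K, Df x ∈ S := by
    have hclosed : IsClosed (Df ⁻¹' S) := hSfin.isClosed.preimage hDc
    have hint : interior K ⊆ Df ⁻¹' S := by
      by_contra hcon
      rw [Set.not_subset] at hcon
      obtain ⟨x, hx1, hx2⟩ := hcon
      have hopen : IsOpen (interior K ∩ (Df ⁻¹' S)ᶜ) := isOpen_interior.inter hclosed.isOpen_compl
      have hpos : 0 < volume (interior K ∩ (Df ⁻¹' S)ᶜ) :=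
        hopen.measure_pos volume ⟨x, hx1, hx2⟩
      have hzero : volume (interior K ∩ (Df ⁻¹' S)ᶜ) = 0 := by
        rw [ae_iff, Measure.restrict_apply' hK.measurableSet] at hae
        refine measure_mono_null ?_ hae
        rintro z ⟨hz1, hz2⟩
        refine ⟨?_, interior_subset hz1⟩
        simp only [mem_ofPred_eq]
        rintro ⟨p, hp⟩
        exact hz2 ⟨p, hp.symm⟩
      exact hpos.ne' hzero
    have hcl : closure (interior K) ⊆ Df ⁻¹' S := closure_minimal hint hclosed
    intro x hx
    have : x ∈ closure (interior K) := by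
      rw [hKc.closure_interior_eq_closure_of_nonempty_interior hKi]
      exact subset_closure hx
    exact hcl this
  have hpre : IsPreconnected (Df '' K) :=
    hKc.isPreconnected.image _ hDc.continuousOn
  have hsub : Df '' K ⊆ S := by
    rintro _ ⟨x, hx, rfl⟩; exact hall x hx
  have hss : (Df '' K).Subsingleton := by
    intro u hu v hv
    by_contra huv
    rcases lt_or_gt_of_ne huv with h | h
    · have : Icc u v ⊆ Df '' K := hpre.Icc_subset hu hv
      exact (Icc_infinite h) (hSfin.subset (this.trans hsub))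
    · have : Icc v u ⊆ Df '' K := hpre.Icc_subset hv hu
      exact (Icc_infinite h) (hSfin.subset (this.trans hsub))
  obtain ⟨x₀, hx₀⟩ : K.Nonempty := hKi.mono interior_subset
  refine ⟨Df x₀, fun x hx => ?_⟩
  have h1 : Df x = Df x₀ := hss ⟨x, hx, rfl⟩ ⟨x₀, hx₀, rfl⟩
  rw [← h1]
  simp only [hDf]
  ring

end value

section perturb

variable {P : Type} [Fintype P] [Nonempty P] {K : Set (E d)} {w : P → ℝ}

theorem dens_zero (K : Set (E d)) : dens K (fun _ => 0) = volume.restrict K := by
  unfold dens
  simp only [add_zero, ENNReal.ofReal_one]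
  exact withDensity_one

theorem Phi_dens {D : ℝ} (hK : IsCompact K) (hKD : K ⊆ Metric.closedBall 0 D) {h : E d → ℝ}
    (hh : Measurable h) {M : ℝ} (hM : ∀ x ∈ K, |h x| ≤ M) {s : ℝ}
    (hs : ∀ x ∈ K, |s * h x| ≤ 1 / 2) (y : P → E d) (w ψ : P → ℝ) :
    Phi (dens K (fun x => s * h x)) y w ψ = Phi (volume.restrict K) y w ψ +
      s * ∫ x in K, h x * maxAff y ψ x := by
  have hKf : IsFiniteMeasure (volume.restrict K) := ⟨by
    rw [Measure.restrict_apply_univ]; exact hK.measure_lt_top⟩
  have hD : ∀ᵐ x ∂(volume.restrict K), ‖x‖ ≤ D := by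
    filter_upwards [ae_restrict_mem hK.measurableSet] with x hx
    exact mem_closedBall_zero_iff.mp (hKD hx)
  unfold Phi
  rw [integral_dens hK (hh.const_mul s) hs]
  have i1 := integrable_maxAff hD y ψ
  have i2 : Integrable (fun x => h x * maxAff y ψ x) (volume.restrict K) := by
    refine i1.bdd_mul (c := M) hh.aestronglyMeasurable ?_
    filter_upwards [ae_restrict_mem hK.measurableSet] with x hx
    rw [Real.norm_eq_abs]; exact hM x hx
  have e : ∫ x in K, (1 + s * h x) • maxAff y ψ x = (∫ x in K, maxAff y ψ x) +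
      s * ∫ x in K, h x * maxAff y ψ x := by
    rw [← integral_const_mul, ← integral_add i1 (i2.const_mul s)]
    congr 1
    ext x
    rw [smul_eq_mul]; ring
  rw [e]; ring

/-- The core inequality: for a perturbation `h` of mean zero the pairing with the difference
of the potentials is bounded by `‖h‖` times the transport cost. -/
theorem pairing_bound {ι κ : Type} [Fintype ι] [Fintype κ] [Nonempty ι] [Nonempty κ]
    {D C : ℝ} (hkey : KeyProp d D C) (hD0 : 0 ≤ D) {K : Set (E d)}
    (hK : IsCompact K) (hKc : Convex ℝ K) (hKi : (interior K).Nonempty)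
    (hKD : K ⊆ Metric.closedBall 0 D)
    {y : ι → E d} {z : κ → E d} (hy : Function.Injective y) (hz : Function.Injective z)
    {a : ι → ℝ} {b : κ → ℝ} {π : ι × κ → ℝ} (hπ : ∀ p, 0 ≤ π p)
    (h1 : ∀ i, ∑ j, π (i, j) = (volume (cell K y a i)).toReal)
    (h2 : ∀ j, ∑ i, π (i, j) = (volume (cell K z b j)).toReal)
    {h : E d → ℝ} (hh : Measurable h) {M : ℝ} (hM : ∀ x ∈ K, |h x| ≤ M)
    (hmean : ∫ x in K, h x = 0) :
    (∫ x in K, h x * maxAff z b x) - (∫ x in K, h x * maxAff y a x) ≤
      C * Real.sqrt (∫ x in K, h x ^ 2) *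
        Real.sqrt (∑ p : ι × κ, π p * ‖z p.2 - y p.1‖ ^ 2) := by
  classical
  have hKf : IsFiniteMeasure (volume.restrict K) := ⟨by
    rw [Measure.restrict_apply_univ]; exact hK.measure_lt_top⟩
  have hD : ∀ᵐ x ∂(volume.restrict K), ‖x‖ ≤ D := by
    filter_upwards [ae_restrict_mem hK.measurableSet] with x hx
    exact mem_closedBall_zero_iff.mp (hKD hx)
  have hMae : ∀ᵐ x ∂(volume.restrict K), |h x| ≤ M := by
    filter_upwards [ae_restrict_mem hK.measurableSet] with x hx
    exact hM x hx
  have m1 : ∀ i, ∑ p : ι × κ with p.1 = i, π p = (volume (cell K y a i)).toReal := by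
    intro i
    rw [← h1 i, Finset.sum_filter, Fintype.sum_prod_type]
    rw [Finset.sum_eq_single i]
    · simp
    · intro i' _ hi'
      refine Finset.sum_eq_zero fun j _ => ?_
      simp [hi']
    · intro hc; exact absurd (Finset.mem_univ i) hc
  have m2 : ∀ j, ∑ p : ι × κ with p.2 = j, π p = (volume (cell K z b j)).toReal := by
    intro j
    rw [← h2 j, Finset.sum_filter, Fintype.sum_prod_type_right]
    rw [Finset.sum_eq_single j]
    · simp
    · intro j' _ hj'
      refine Finset.sum_eq_zero fun i _ => ?_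
      simp [hj']
    · intro hc; exact absurd (Finset.mem_univ j) hc
  have hsum : ∑ p, π p = (volume K).toReal := by
    have e1 : ∑ p, π p = ∑ i, (volume (cell K y a i)).toReal := by
      rw [Fintype.sum_prod_type]; exact Finset.sum_congr rfl fun i _ => h1 i
    have e2 := sum_mass_cells (ν := volume.restrict K)
      Measure.restrict_le_self.absolutelyContinuous hy a
    rw [e1]
    have e3 : (volume.restrict K).real univ = (volume K).toReal := by
      simp [Measure.real]
    rw [← e3, ← e2]
    refine Finset.sum_congr rfl fun i _ => ?_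
    rw [measureReal_restrict_apply (measurableSet_cell_univ y a i), inter_comm, ← cell_eq]
    rfl
  have hbad := bad_finite hy hz
  set Y : ι × κ → E d := fun p => y p.1 with hY
  set Z : ι × κ → E d := fun p => z p.2 with hZ
  set ε : ℝ := Real.sqrt (∑ p : ι × κ, π p * ‖Z p - Y p‖ ^ 2) with hε
  set nh : ℝ := Real.sqrt (∫ x in K, h x ^ 2) with hnh
  obtain ⟨R, hR0, hR⟩ := exists_bound Z
  -- the functionals
  set J : (ι × κ → ℝ) → ℝ := fun ψ => Phi (volume.restrict K) Z π ψ with hJ
  set G : (ι × κ → ℝ) → ℝ := fun ψ => ∫ x in K, h x * maxAff Z ψ x with hG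
  have hJc : Continuous J := continuous_Phi hD Z π
  have hGc : Continuous G := continuous_integral_maxAff hD Z hh hMae
  -- step size
  have hM1 : 0 < 2 * (|M| + 1) := by positivity
  set s : ℕ → ℝ := fun n => 1 / (2 * (|M| + 1)) * (1 / ((n : ℝ) + 1)) with hs
  have hspos : ∀ n, 0 < s n := fun n => by simp only [hs]; positivity
  have hsle : ∀ n, ∀ x ∈ K, |s n * h x| ≤ 1 / 2 := by
    intro n x hx
    rw [abs_mul, abs_of_pos (hspos n)]
    have e1 : s n ≤ 1 / (2 * (|M| + 1)) := by
      simp only [hs]
      have : 1 / ((n : ℝ) + 1) ≤ 1 := by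
        rw [div_le_one (by positivity)]
        have : (0:ℝ) ≤ n := Nat.cast_nonneg n
        linarith
      calc 1 / (2 * (|M| + 1)) * (1 / ((n : ℝ) + 1)) ≤ 1 / (2 * (|M| + 1)) * 1 :=
            mul_le_mul_of_nonneg_left this (by positivity)
        _ = _ := mul_one _
    have e2 : |h x| ≤ |M| + 1 := (hM x hx).trans (by linarith [le_abs_self M])
    calc s n * |h x| ≤ 1 / (2 * (|M| + 1)) * (|M| + 1) :=
          mul_le_mul e1 e2 (abs_nonneg _) (by positivity)
      _ = 1 / 2 := by field_simp
  have hslim : Filter.Tendsto s Filter.atTop (nhds 0) := by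
    have := (tendsto_one_div_add_atTop_nhds_zero_nat (𝕜 := ℝ)).const_mul (1 / (2 * (|M| + 1)))
    rw [mul_zero] at this
    exact this
  have hB0 : ∀ x ∈ K, |(fun _ : E d => (0:ℝ)) x| ≤ 1 / 2 := fun x _ => by norm_num
  -- minimizers of the perturbed functionals
  have hex : ∀ n, ∃ ψ : ι × κ → ℝ, (∀ p, ψ p ∈ Icc 0 (2 * D * R)) ∧
      (∀ ψ', J ψ + s n * G ψ ≤ J ψ' + s n * G ψ') ∧
      G ψ - (∫ x in K, h x * maxAff y a x) ≤ C * nh * ε := by
    intro n
    have hHm : Measurable (fun x => s n * h x) := hh.const_mul _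
    have f1 : IsFiniteMeasure (dens K (fun x => s n * h x)) := dens_finite hK hHm (hsle n)
    have D1 : ∀ᵐ x ∂(dens K (fun x => s n * h x)), ‖x‖ ≤ D := dens_ae_norm hK _ hKD
    have hmean' : ∫ x in K, s n * h x = 0 := by rw [integral_const_mul, hmean, mul_zero]
    have mm1 : (dens K (fun x => s n * h x)).real univ = (volume K).toReal := by
      rw [real_dens hK hHm (hsle n) MeasurableSet.univ, inter_univ,
        integral_add (integrable_const _) (integrableOn_bdd hK hHm (hsle n)), hmean']
      simp [Measure.real]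
    have ss1 : ∑ p, π p = (dens K (fun x => s n * h x)).real univ := by rw [mm1, hsum]
    have ss0 : ∑ p, π p = (volume.restrict K).real univ := by rw [hsum]; simp [Measure.real]
    obtain ⟨ψ, hψb, hψmin⟩ := exists_min D1 hD0 hR hπ ss1
    have hPhi : ∀ ψ', Phi (dens K (fun x => s n * h x)) Z π ψ' = J ψ' + s n * G ψ' := fun ψ' =>
      Phi_dens hK hKD hh hM (hsle n) Z π ψ'
    refine ⟨ψ, hψb, fun ψ' => ?_, ?_⟩
    · rw [← hPhi ψ, ← hPhi ψ']; exact hψmin ψ'
    · have hpath := path_bound hkey hD0 hK hKc hKD hbad hπ hsum hHm (hsle n) hmean'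
      rw [dens_zero] at hpath
      -- lower bound at time 1
      have l1 : Aval (dens K (fun x => s n * h x)) Z π = J ψ + s n * G ψ := by
        rw [Aval_eq hψmin, hPhi]
      have l2 : Aval (volume.restrict K) Z π ≤ J ψ := Aval_le hD hD0 Z hπ ss0 ψ
      -- upper bound at time 0
      have u1 : Aval (dens K (fun x => s n * h x)) Y π ≤
          Phi (volume.restrict K) Y π (fun p => a p.1) +
            s n * ∫ x in K, h x * maxAff Y (fun p => a p.1) x := by
        rw [← Phi_dens hK hKD hh hM (hsle n) Y π]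
        exact Aval_le D1 hD0 Y hπ ss1 _
      have hmaxeq : ∀ x, maxAff Y (fun p => a p.1) x = maxAff y a x := by
        intro x
        apply le_antisymm
        · exact maxAff_le fun p => le_maxAff y a x p.1
        · exact maxAff_le fun i => le_maxAff Y (fun p => a p.1) x (i, Classical.arbitrary κ)
      have u2 : Phi (volume.restrict K) Y π (fun p => a p.1) ≤ Aval (volume.restrict K) Y π := by
        obtain ⟨ψ0, e0, -⟩ := exists_Aval hD hD0 Y hπ ss0
        rw [e0, ← frac_value (f := Prod.fst) hK hKD hy hπ m1]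
        exact weak_duality hD Y ψ0 (frac_measurable hK) (frac_nonneg hπ) (frac_sum hK hy m1)
          (frac_mass hK hπ m1)
      simp_rw [hmaxeq] at u1
      have hsq : Real.sqrt (∫ x in K, (s n * h x) ^ 2) = s n * nh := by
        have : ∫ x in K, (s n * h x) ^ 2 = (s n) ^ 2 * ∫ x in K, h x ^ 2 := by
          rw [← integral_const_mul]; congr 1; ext x; ring
        rw [this, Real.sqrt_mul (by positivity), Real.sqrt_sq (hspos n).le]
      rw [hsq] at hpath
      have hfin : s n * (G ψ - ∫ x in K, h x * maxAff y a x) ≤ s n * (C * nh * ε) := by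
        have : C * (s n * nh) * ε = s n * (C * nh * ε) := by ring
        rw [← this]
        refine le_trans ?_ hpath
        rw [l1]
        linarith
      exact le_of_mul_le_mul_left hfin (hspos n)
  choose ψ hψb hψmin hψG using hex
  have hc : IsCompact (Set.pi univ fun _ : ι × κ => Icc (0:ℝ) (2 * D * R)) :=
    isCompact_univ_pi fun _ => isCompact_Icc
  obtain ⟨ψs, -, φ, hφ, hlim⟩ := hc.tendsto_subseq (x := ψ) (fun n p _ => hψb n p)
  have hJlim := (hJc.tendsto ψs).comp hlim
  have hGlim := (hGc.tendsto ψs).comp hlim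
  have hslim' := hslim.comp hφ.tendsto_atTop
  have hmin : ∀ ψ', J ψs ≤ J ψ' := by
    intro ψ'
    have t1 : Filter.Tendsto (fun n => J (ψ (φ n)) + s (φ n) * G (ψ (φ n))) Filter.atTop
        (nhds (J ψs + 0 * G ψs)) := hJlim.add (hslim'.mul hGlim)
    have t2 : Filter.Tendsto (fun n => J ψ' + s (φ n) * G ψ') Filter.atTop
        (nhds (J ψ' + 0 * G ψ')) := (hslim'.mul_const _).const_add _
    have := le_of_tendsto_of_tendsto' t1 t2 (fun n => hψmin (φ n) ψ')
    simpa using this
  have hGs : G ψs - (∫ x in K, h x * maxAff y a x) ≤ C * nh * ε :=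
    le_of_tendsto' (hGlim.sub_const _) (fun n => hψG (φ n))
  obtain ⟨c, hc⟩ := potential_unique (f := Prod.snd) hK hKc hKi hKD hz hπ m2 hmin
  have hGeq : G ψs = ∫ x in K, h x * maxAff z b x := by
    have e1 : G ψs = ∫ x in K, (h x * maxAff z b x + c * h x) := by
      apply setIntegral_congr_fun hK.measurableSet
      intro x hx
      simp only
      rw [hc x hx]; ring
    have i1 : Integrable (fun x => h x * maxAff z b x) (volume.restrict K) := by
      refine (integrable_maxAff hD z b).bdd_mul (c := M) hh.aestronglyMeasurable ?_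
      simpa [Real.norm_eq_abs] using hMae
    have i2 : Integrable h (volume.restrict K) := integrableOn_bdd hK hh hM
    rw [e1, integral_add i1 (i2.const_mul c), integral_const_mul, hmean, mul_zero, add_zero]
  rw [← hGeq]
  exact hGs

end perturb

end Semi

open Semi in
/-- Finite stability follows from the key estimate. -/
theorem finiteStability_of_key {d : ℕ} {D C : ℝ} (hkey : KeyProp d D C) (hD0 : 0 ≤ D)
    {K : Set (E d)} (hK : IsCompact K) (hKc : Convex ℝ K) (hKi : (interior K).Nonempty)
    (hKD : K ⊆ Metric.closedBall 0 D) : FiniteStability K := by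
  refine ⟨C ^ 2, sq_nonneg C, ?_⟩
  intro ι κ _ _ _ _ y z hy hz a b π hπ h1 h2
  have hKf : IsFiniteMeasure (volume.restrict K) := ⟨by
    rw [Measure.restrict_apply_univ]; exact hK.measure_lt_top⟩
  have hD : ∀ᵐ x ∂(volume.restrict K), ‖x‖ ≤ D := by
    filter_upwards [ae_restrict_mem hK.measurableSet] with x hx
    exact mem_closedBall_zero_iff.mp (hKD hx)
  have hvol0 : 0 < (volume K).toReal := by
    apply ENNReal.toReal_pos
    · exact (lt_of_lt_of_le (isOpen_interior.measure_pos volume hKi)
        (measure_mono interior_subset)).ne'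
    · exact hK.measure_lt_top.ne
  set f : E d → ℝ := fun x => maxAff z b x - maxAff y a x with hf
  have hfc : Continuous f := (continuous_maxAff z b).sub (continuous_maxAff y a)
  set mf : ℝ := (∫ x in K, f x) / (volume K).toReal with hmf
  set h : E d → ℝ := fun x => f x - mf with hh
  have hhc : Continuous h := hfc.sub continuous_const
  obtain ⟨M, hM⟩ := hK.exists_bound_of_continuousOn hhc.continuousOn
  have hM' : ∀ x ∈ K, |h x| ≤ M := fun x hx => by
    have := hM x hx
    rwa [Real.norm_eq_abs] at this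
  have ic : ∀ g : E d → ℝ, Continuous g → Integrable g (volume.restrict K) := fun g hg =>
    integrable_of_cont hD hg
  have hmean : ∫ x in K, h x = 0 := by
    rw [hh, integral_sub (ic f hfc) (integrable_const _), integral_const, smul_eq_mul]
    have : (volume.restrict K).real univ = (volume K).toReal := by simp [Measure.real]
    rw [this, hmf]
    field_simp
    ring
  have hpair := pairing_bound (π := fun p => π p.1 p.2) hkey hD0 hK hKc hKi hKD hy hz
    (fun p => hπ p.1 p.2) h1 h2 hhc.measurable hM' hmean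
  -- the left side is the integral of the square
  have hcomp : (∫ x in K, h x * maxAff z b x) - (∫ x in K, h x * maxAff y a x) =
      ∫ x in K, h x ^ 2 := by
    have j1 : Integrable (fun x => h x * maxAff z b x) (volume.restrict K) :=
      ic _ (hhc.mul (continuous_maxAff z b))
    have j2 : Integrable (fun x => h x * maxAff y a x) (volume.restrict K) :=
      ic _ (hhc.mul (continuous_maxAff y a))
    rw [← integral_sub j1 j2]
    have e1 : (fun x => h x * maxAff z b x - h x * maxAff y a x) =
        fun x => h x ^ 2 + mf * h x := by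
      ext x; simp only [hh, hf]; ring
    have j3 : Integrable (fun x => h x ^ 2) (volume.restrict K) := ic _ (hhc.pow 2)
    rw [e1, integral_add j3 ((ic _ hhc).const_mul mf), integral_const_mul, hmean,
      mul_zero, add_zero]
  rw [hcomp] at hpair
  set Q : ℝ := ∫ x in K, h x ^ 2 with hQ
  have hQ0 : 0 ≤ Q := integral_nonneg fun x => sq_nonneg _
  set S : ℝ := ∑ p : ι × κ, π p.1 p.2 * ‖z p.2 - y p.1‖ ^ 2 with hS
  have hS0 : 0 ≤ S := Finset.sum_nonneg fun p _ => mul_nonneg (hπ _ _) (by positivity)
  have hQS : Q ≤ C ^ 2 * S := by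
    rcases hQ0.eq_or_lt with h0 | hpos
    · rw [← h0]; positivity
    · have hsq : 0 < Real.sqrt Q := Real.sqrt_pos.mpr hpos
      have e1 : Real.sqrt Q * Real.sqrt Q = Q := Real.mul_self_sqrt hQ0
      have e2 : Real.sqrt Q ≤ C * Real.sqrt S := by
        have : Real.sqrt Q * Real.sqrt Q ≤ Real.sqrt Q * (C * Real.sqrt S) := by
          rw [e1]; refine hpair.trans (le_of_eq ?_); ring
        exact le_of_mul_le_mul_left this hsq
      have e3 : Real.sqrt Q ^ 2 ≤ (C * Real.sqrt S) ^ 2 := pow_le_pow_left₀ hsq.le e2 2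
      rw [Real.sq_sqrt hQ0, mul_pow, Real.sq_sqrt hS0] at e3
      exact e3
  refine ⟨-mf, ?_⟩
  have e4 : ∫ x in K, (maxAff y a x - maxAff z b x - -mf) ^ 2 = Q := by
    rw [hQ]; congr 1; ext x; simp only [hh, hf]; ring
  rw [e4]
  refine hQS.trans (le_of_eq ?_)
  rw [hS, Fintype.sum_prod_type]
  congr 1
  refine Finset.sum_congr rfl fun i _ => Finset.sum_congr rfl fun j _ => ?_
  rw [norm_sub_rev]

end Vale.Agent.P074
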