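import Mathlib

/-!
# The algebra behind the key estimate
-/

namespace Vale.Agent.P074.Key

theorem alg {ι : Type*} [Fintype ι] {m0 m1 g0 g1 gM η q n β0 β1 ζ : ι → ℝ} {D P : ℝ}
    (hD : 0 < D)
    (hm0 : ∀ i, 0 ≤ m0 i) (hm1 : ∀ i, 0 ≤ m1 i)
    (hg0n : ∀ i, 0 ≤ g0 i) (hg1n : ∀ i, 0 ≤ g1 i) (hgM : ∀ i, 0 ≤ gM i)
    (hq : ∀ i, 0 ≤ q i) (hn : ∀ i, 0 ≤ n i)
    (hmass : ∀ i, m0 i = m1 i + η i)
    (hη : ∀ i, |η i| ≤ m1 i / 2)
    (hη2 : ∀ i, η i ^ 2 ≤ m1 i * q i)
    (hg0 : ∀ i, g0 i ≤ m0 i) (hg0' : ∀ i, m0 i ≤ 101 / 100 * g0 i)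
    (hg1 : ∀ i, g1 i ≤ m1 i) (hg1' : ∀ i, m1 i ≤ 101 / 100 * g1 i)
    (hsumM : ∑ i, gM i = ∑ i, g0 i) (hsum1 : ∑ i, g1 i = ∑ i, g0 i)
    (hP : ∑ i, q i = P)
    (I1 : ∀ i, 0 < g0 i → 0 < g1 i →
      g0 i + g0 i * (7 * (m1 i / g1 i - m0 i / g0 i) ^ 2) +
        1 / 2 * (g0 i - g0 i ^ 2 / g1 i) ≤ gM i)
    (I2 : ∀ i (s : ℝ), 0 < g0 i → 0 < g1 i →
      g0 i + (s * β1 i - s * (g1 i / g0 i * β0 i) -
        512 * D ^ 2 * s ^ 2 * (g1 i ^ 2 / g0 i * n i ^ 2)) +
        1 / 2 * (g0 i - g0 i ^ 2 / g1 i) ≤ gM i)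
    (hβ0 : ∀ i, |β0 i| ≤ D * n i * m0 i) (hβ1 : ∀ i, |β1 i| ≤ D * n i * m1 i)
    (hζ : ∀ i, ζ i ^ 2 ≤ (D * n i) ^ 2 * (m1 i * q i)) :
    |∑ i, (β1 i + ζ i - β0 i)| ≤ 130 * D * Real.sqrt P * Real.sqrt (∑ i, m0 i * n i ^ 2) := by
  classical
  have hm1le : ∀ i, m1 i ≤ 2 * m0 i := fun i => by
    have := (abs_le.mp (hη i)).1
    have := hmass i
    linarith
  have hm0le : ∀ i, m0 i ≤ 3 / 2 * m1 i := fun i => by
    have := (abs_le.mp (hη i)).2
    have := hmass i
    linarith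
  -- dichotomy
  have hdich : ∀ i, (m0 i = 0 ∧ m1 i = 0 ∧ g0 i = 0 ∧ g1 i = 0 ∧ β0 i = 0 ∧ β1 i = 0) ∨
      (0 < m0 i ∧ 0 < m1 i ∧ 0 < g0 i ∧ 0 < g1 i) := by
    intro i
    rcases (hm0 i).eq_or_lt with h | h
    · left
      have h1 : m1 i = 0 := le_antisymm (by have := hm1le i; linarith) (hm1 i)
      have h2 : g0 i = 0 := le_antisymm (by have := hg0 i; linarith) (hg0n i)
      have h3 : g1 i = 0 := le_antisymm (by have := hg1 i; linarith) (hg1n i)
      have h4 : β0 i = 0 := by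
        have := hβ0 i
        rw [← h, mul_zero] at this
        exact abs_nonpos_iff.mp this
      have h5 : β1 i = 0 := by
        have := hβ1 i
        rw [h1, mul_zero] at this
        exact abs_nonpos_iff.mp this
      exact ⟨h.symm, h1, h2, h3, h4, h5⟩
    · right
      have h1 : 0 < m1 i := by have := hm0le i; linarith
      refine ⟨h, h1, ?_, ?_⟩
      · have := hg0' i; linarith
      · have := hg1' i; linarith
  set r : ι → ℝ := fun i => (g0 i - g1 i) ^ 2 / g1 i with hr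
  have hr0 : ∀ i, 0 ≤ r i := fun i => div_nonneg (sq_nonneg _) (hg1n i)
  have hrel : ∀ i, 1 / 2 * (g0 i - g0 i ^ 2 / g1 i) = - (1 / 2 * (r i + (g0 i - g1 i))) := by
    intro i
    rcases hdich i with ⟨_, _, h0, h1, _, _⟩ | ⟨_, _, h0, h1⟩
    · simp [hr, h0, h1]
    · simp only [hr]
      field_simp
      ring
  set x : ι → ℝ := fun i => g0 i * (m1 i / g1 i - m0 i / g0 i) ^ 2 with hx
  have hx0 : ∀ i, 0 ≤ x i := fun i => mul_nonneg (hg0n i) (sq_nonneg _)
  -- step 1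
  have s1 : ∀ i, g0 i + 7 * x i - 1 / 2 * (r i + (g0 i - g1 i)) ≤ gM i := by
    intro i
    rcases hdich i with ⟨_, _, h0, h1, _, _⟩ | ⟨_, _, h0, h1⟩
    · have e1 : r i = 0 := by simp [hr, h0, h1]
      have e2 : x i = 0 := by simp [hx, h0]
      rw [e1, e2, h0, h1]
      have := hgM i
      linarith
    · have h2 := I1 i h0 h1
      rw [hrel i] at h2
      simp only [hx]
      linarith
  have S1 : 7 * ∑ i, x i ≤ 1 / 2 * ∑ i, r i := by
    have h := Finset.sum_le_sum fun i (_ : i ∈ Finset.univ) => s1 i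
    rw [Finset.sum_sub_distrib, Finset.sum_add_distrib, ← Finset.mul_sum, ← Finset.mul_sum,
      Finset.sum_add_distrib, Finset.sum_sub_distrib, hsumM, hsum1] at h
    linarith
  -- relation between r and x
  have s2 : ∀ i, r i ≤ 3 * x i + 2 * q i := by
    intro i
    rcases hdich i with ⟨_, _, h0, h1, _, _⟩ | ⟨p0, p1, h0, h1⟩
    · have e1 : r i = 0 := by simp [hr, h0, h1]
      rw [e1]
      have := hx0 i
      have := hq i
      linarith
    · set Δ : ℝ := m1 i / g1 i - m0 i / g0 i with hΔ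
      have e1 : m1 i * (g0 i - g1 i) = g1 i * (g0 i * Δ + η i) := by
        have hm := hmass i
        have : g0 i * g1 i * Δ = m1 i * g0 i - m0 i * g1 i := by
          rw [hΔ]; field_simp
        rw [hm] at this
        linear_combination -this
      have e2 : m1 i ^ 2 * r i = g1 i * (g0 i * Δ + η i) ^ 2 := by
        simp only [hr]
        have : m1 i ^ 2 * ((g0 i - g1 i) ^ 2 / g1 i) = (m1 i * (g0 i - g1 i)) ^ 2 / g1 i := by ring
        rw [this, e1]
        field_simp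
      have e3 : (g0 i * Δ + η i) ^ 2 ≤ 2 * (g0 i * Δ) ^ 2 + 2 * η i ^ 2 := by
        nlinarith [sq_nonneg (g0 i * Δ - η i)]
      have e4 : m1 i ^ 2 * r i ≤ m1 i * (2 * (g0 i * Δ) ^ 2 + 2 * η i ^ 2) := by
        rw [e2]
        exact mul_le_mul (hg1 i) e3 (sq_nonneg _) p1.le
      have e5 : m1 i * r i ≤ 2 * (g0 i * Δ) ^ 2 + 2 * η i ^ 2 := by
        have : m1 i * (m1 i * r i) ≤ m1 i * (2 * (g0 i * Δ) ^ 2 + 2 * η i ^ 2) := by
          refine le_trans (le_of_eq ?_) e4; ring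
        exact le_of_mul_le_mul_left this p1
      have e6 : g0 i * x i ≤ 3 / 2 * m1 i * x i :=
        mul_le_mul_of_nonneg_right ((hg0 i).trans (hm0le i)) (hx0 i)
      have e7 : (g0 i * Δ) ^ 2 = g0 i * x i := by simp only [hx]; ring
      have e8 : m1 i * r i ≤ m1 i * (3 * x i + 2 * q i) := by
        have := hη2 i
        rw [e7] at e5
        linarith
      exact le_of_mul_le_mul_left e8 p1
  set R : ℝ := ∑ i, r i with hR
  have hR0 : 0 ≤ R := Finset.sum_nonneg fun i _ => hr0 i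
  have hP0 : 0 ≤ P := hP ▸ Finset.sum_nonneg fun i _ => hq i
  have S2 : R ≤ 3 * P := by
    have h := Finset.sum_le_sum fun i (_ : i ∈ Finset.univ) => s2 i
    rw [Finset.sum_add_distrib, ← Finset.mul_sum, ← Finset.mul_sum, hP] at h
    change R ≤ _ at h
    linarith
  set N : ℝ := ∑ i, m0 i * n i ^ 2 with hN
  have hN0 : 0 ≤ N := Finset.sum_nonneg fun i _ => mul_nonneg (hm0 i) (sq_nonneg _)
  -- step 2
  set S : ℝ := ∑ i, (β1 i - g1 i / g0 i * β0 i) with hS
  have s3 : ∀ i, ∀ s : ℝ, g0 i + s * (β1 i - g1 i / g0 i * β0 i) -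
      512 * D ^ 2 * s ^ 2 * (5 * (m0 i * n i ^ 2)) - 1 / 2 * (r i + (g0 i - g1 i)) ≤ gM i := by
    intro i s
    rcases hdich i with ⟨m0', _, h0, h1, b0, b1⟩ | ⟨p0, p1, h0, h1⟩
    · have e1 : r i = 0 := by simp [hr, h0, h1]
      rw [e1, h0, h1, b0, b1, m0']
      have := hgM i
      simpa using this
    · have h2 := I2 i s h0 h1
      rw [hrel i] at h2
      have e1 : g1 i ^ 2 / g0 i ≤ 5 * m0 i := by
        rw [div_le_iff₀ h0]
        have a1 : g1 i ≤ 2 * m0 i := (hg1 i).trans (hm1le i)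
        have a2 : g1 i ^ 2 ≤ (2 * m0 i) * (2 * m0 i) := by
          rw [sq]; exact mul_le_mul a1 a1 h1.le (by linarith)
        have a3 := mul_le_mul_of_nonneg_left (hg0' i) p0.le
        nlinarith
      have e2 : g1 i ^ 2 / g0 i * n i ^ 2 ≤ 5 * (m0 i * n i ^ 2) := by
        have := mul_le_mul_of_nonneg_right e1 (sq_nonneg (n i))
        linarith
      have e3 := mul_le_mul_of_nonneg_left e2 (show (0:ℝ) ≤ 512 * D ^ 2 * s ^ 2 by positivity)
      linarith
  have S3 : ∀ s : ℝ, s * S ≤ 3 / 2 * P + 2560 * D ^ 2 * N * s ^ 2 := by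
    intro s
    have h := Finset.sum_le_sum fun i (_ : i ∈ Finset.univ) => s3 i s
    have hz : ∑ i, (g0 i - g1 i) = 0 := by rw [Finset.sum_sub_distrib, hsum1, sub_self]
    have h' : (∑ i, g0 i) + s * S - 512 * D ^ 2 * s ^ 2 * (5 * N) - 1 / 2 * (R + 0) ≤
        ∑ i, g0 i := by
      rw [← hz, hS, hN, hR, ← Finset.sum_add_distrib]
      refine le_trans (le_of_eq ?_) (h.trans (le_of_eq hsumM))
      rw [Finset.mul_sum, Finset.mul_sum, Finset.mul_sum, Finset.mul_sum, ← Finset.sum_add_distrib,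
        ← Finset.sum_sub_distrib, ← Finset.sum_sub_distrib]
    linarith
  have S4 : S ^ 2 ≤ 15360 * D ^ 2 * P * N := by
    have h := discrim_le_zero (a := 2560 * D ^ 2 * N) (b := -S) (c := 3 / 2 * P) (fun s => by
      have := S3 s
      nlinarith)
    unfold discrim at h
    nlinarith
  set A : ℝ := Real.sqrt P with hA
  set B : ℝ := Real.sqrt N with hB
  have hA0 : 0 ≤ A := Real.sqrt_nonneg _
  have hB0 : 0 ≤ B := Real.sqrt_nonneg _
  have hA2 : A ^ 2 = P := Real.sq_sqrt hP0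
  have hB2 : B ^ 2 = N := Real.sq_sqrt hN0
  have T1 : |S| ≤ 124 * D * A * B := by
    refine abs_le_of_sq_le_sq (S4.trans ?_) (by positivity)
    have : (124 * D * A * B) ^ 2 = 15376 * (D ^ 2 * P * N) := by
      rw [← hA2, ← hB2]; ring
    rw [this]
    have : 0 ≤ D ^ 2 * P * N := by positivity
    linarith
  -- second term
  have hN1 : ∑ i, m1 i * n i ^ 2 ≤ 2 * N := by
    rw [hN, Finset.mul_sum]
    refine Finset.sum_le_sum fun i _ => ?_
    have := mul_le_mul_of_nonneg_right (hm1le i) (sq_nonneg (n i))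
    linarith
  have T2 : |∑ i, (g1 i / g0 i * β0 i - β0 i)| ≤ 3 * D * A * B := by
    have h1 : |∑ i, (g1 i / g0 i * β0 i - β0 i)| ≤
        101 / 100 * D * ∑ i, |g0 i - g1 i| * n i := by
      refine (Finset.abs_sum_le_sum_abs _ _).trans ?_
      rw [Finset.mul_sum]
      refine Finset.sum_le_sum fun i _ => ?_
      rcases hdich i with ⟨m0', _, h0, h1, b0, b1⟩ | ⟨p0, p1, h0, h1⟩
      · rw [b0, h0, h1]; simp
      · have e1 : g1 i / g0 i * β0 i - β0 i = (g1 i - g0 i) / g0 i * β0 i := by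
          field_simp
        rw [e1, abs_mul, abs_div, abs_of_pos h0, abs_sub_comm]
        have e2 : |g0 i - g1 i| / g0 i * |β0 i| ≤ |g0 i - g1 i| / g0 i * (D * n i * m0 i) :=
          mul_le_mul_of_nonneg_left (hβ0 i) (by positivity)
        refine e2.trans ?_
        have e3 : |g0 i - g1 i| / g0 i * (D * n i * m0 i) =
            (D * |g0 i - g1 i| * n i) * (m0 i / g0 i) := by ring
        rw [e3]
        have e4 : m0 i / g0 i ≤ 101 / 100 := by
          rw [div_le_iff₀ h0]; exact hg0' i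
        have e5 : 0 ≤ D * |g0 i - g1 i| * n i :=
          mul_nonneg (mul_nonneg hD.le (abs_nonneg _)) (hn i)
        have := mul_le_mul_of_nonneg_left e4 e5
        linarith
    have h2 : (∑ i, |g0 i - g1 i| * n i) ^ 2 ≤ R * ∑ i, m1 i * n i ^ 2 := by
      apply Finset.sum_sq_le_sum_mul_sum_of_sq_le_mul
      · intro i _; exact hr0 i
      · intro i _; exact mul_nonneg (hm1 i) (sq_nonneg _)
      · intro i _
        rcases hdich i with ⟨m0', m1', h0, h1, b0, b1⟩ | ⟨p0, p1, h0, h1⟩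
        · rw [h0, h1, m1']; simp
        · have e1 : (|g0 i - g1 i| * n i) ^ 2 = r i * (g1 i * n i ^ 2) := by
            rw [mul_pow, sq_abs]
            simp only [hr]
            field_simp
          rw [e1]
          apply mul_le_mul_of_nonneg_left _ (hr0 i)
          exact mul_le_mul_of_nonneg_right (hg1 i) (sq_nonneg _)
    have h3 : (∑ i, |g0 i - g1 i| * n i) ^ 2 ≤ 6 * (P * N) := by
      refine h2.trans ?_
      have a1 : R * ∑ i, m1 i * n i ^ 2 ≤ (3 * P) * (2 * N) :=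
        mul_le_mul S2 hN1 (Finset.sum_nonneg fun i _ => mul_nonneg (hm1 i) (sq_nonneg _))
          (by positivity)
      linarith
    have h4 : ∑ i, |g0 i - g1 i| * n i ≤ 5 / 2 * A * B := by
      refine le_trans (le_abs_self _) (abs_le_of_sq_le_sq (h3.trans ?_) (by positivity))
      have : (5 / 2 * A * B) ^ 2 = 25 / 4 * (P * N) := by rw [← hA2, ← hB2]; ring
      rw [this]
      have : 0 ≤ P * N := by positivity
      linarith
    refine h1.trans ?_
    have h5 := mul_le_mul_of_nonneg_left h4 (show (0:ℝ) ≤ 101 / 100 * D by positivity)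
    have h6 : 0 ≤ D * A * B := by positivity
    nlinarith
  -- third term
  have T3 : |∑ i, ζ i| ≤ 2 * D * A * B := by
    have h1 : (∑ i, ζ i) ^ 2 ≤ (∑ i, q i) * ∑ i, D ^ 2 * (m1 i * n i ^ 2) := by
      apply Finset.sum_sq_le_sum_mul_sum_of_sq_le_mul
      · intro i _; exact hq i
      · intro i _; exact mul_nonneg (sq_nonneg _) (mul_nonneg (hm1 i) (sq_nonneg _))
      · intro i _
        refine (hζ i).trans (le_of_eq ?_)
        ring
    rw [hP, ← Finset.mul_sum] at h1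
    refine abs_le_of_sq_le_sq (h1.trans ?_) (by positivity)
    have : (2 * D * A * B) ^ 2 = 4 * (P * (D ^ 2 * N)) := by rw [← hA2, ← hB2]; ring
    rw [this]
    have h2 : P * (D ^ 2 * ∑ i, m1 i * n i ^ 2) ≤ P * (D ^ 2 * (2 * N)) :=
      mul_le_mul_of_nonneg_left (mul_le_mul_of_nonneg_left hN1 (sq_nonneg _)) hP0
    have h3 : 0 ≤ P * (D ^ 2 * N) := by positivity
    linarith
  have hsplit : ∑ i, (β1 i + ζ i - β0 i) = S + ∑ i, (g1 i / g0 i * β0 i - β0 i) + ∑ i, ζ i := by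
    rw [hS, ← Finset.sum_add_distrib, ← Finset.sum_add_distrib]
    refine Finset.sum_congr rfl fun i _ => ?_
    ring
  rw [hsplit]
  have h6 : 0 ≤ D * A * B := by positivity
  calc |S + ∑ i, (g1 i / g0 i * β0 i - β0 i) + ∑ i, ζ i|
      ≤ |S + ∑ i, (g1 i / g0 i * β0 i - β0 i)| + |∑ i, ζ i| := abs_add_le _ _
    _ ≤ |S| + |∑ i, (g1 i / g0 i * β0 i - β0 i)| + |∑ i, ζ i| := by
        gcongr; exact abs_add_le _ _
    _ ≤ 124 * D * A * B + 3 * D * A * B + 2 * D * A * B := by linarith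
    _ ≤ 130 * D * A * B := by nlinarith

end Vale.Agent.P074.Key
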