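import Vale.Agent.P074.Potential
import Vale.Agent.P074.Example

/-!
# The exponent 1/3 is admissible
-/

open MeasureTheory Set Metric
open scoped ENNReal InnerProductSpace NNReal

namespace Vale.Agent.P074

variable {d : ℕ}

/-- Optimal maps from a uniform convex source are gradients of convex functions. -/
def BrenierProp (d : ℕ) : Prop :=
  ∀ (K : Set (E d)), IsCompact K → Convex ℝ K → (interior K).Nonempty →
    ∀ (μ : Measure (E d)) (R : ℝ), 0 ≤ R → μ (closedBall 0 R)ᶜ = 0 → IsProbabilityMeasure μ →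
    ∀ T : E d → E d, IsOTMap (unif K) μ T →
      ∃ φ : E d → ℝ, ConvexOn ℝ univ φ ∧ LipschitzWith (Real.toNNReal R) φ ∧
        ∀ᵐ x ∂(volume.restrict K), HasGradientAt φ (T x) x

theorem le_rpow_sInf {s : Set ℝ} (hs : s.Nonempty) (hs0 : ∀ c ∈ s, 0 ≤ c) {J A : ℝ}
    (hJ : 0 ≤ J) (hA : 0 ≤ A) (h : ∀ c ∈ s, J ≤ A * c ^ (1 / 3 : ℝ)) :
    J ≤ A * (sInf s) ^ (1 / 3 : ℝ) := by
  rcases hA.eq_or_lt with hA0 | hApos
  · obtain ⟨c, hc⟩ := hs
    have := h c hc
    rw [← hA0] at this ⊢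
    simpa using this
  · have h1 : ∀ c ∈ s, (J / A) ^ 3 ≤ c := by
      intro c hc
      have h2 : J / A ≤ c ^ (1 / 3 : ℝ) := by
        rw [div_le_iff₀ hApos, mul_comm]; exact h c hc
      have h3 : (J / A) ^ 3 ≤ (c ^ (1 / 3 : ℝ)) ^ 3 := pow_le_pow_left₀ (by positivity) h2 3
      rwa [← Real.rpow_natCast (c ^ (1 / 3 : ℝ)) 3, ← Real.rpow_mul (hs0 c hc),
        show (1 / 3 : ℝ) * (3 : ℕ) = 1 by norm_num, Real.rpow_one] at h3
    have h2 : (J / A) ^ 3 ≤ sInf s := le_csInf hs h1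
    have h3 : J / A ≤ (sInf s) ^ (1 / 3 : ℝ) := by
      have h4 := Real.rpow_le_rpow (by positivity) h2 (by norm_num : (0:ℝ) ≤ 1 / 3)
      rwa [← Real.rpow_natCast, ← Real.rpow_mul (by positivity),
        show ((3 : ℕ) : ℝ) * (1 / 3) = 1 by norm_num, Real.rpow_one] at h4
    rw [div_le_iff₀ hApos] at h3
    linarith

theorem isProbabilityMeasure_unif {K : Set (E d)} (hK : IsCompact K)
    (hKi : (interior K).Nonempty) : IsProbabilityMeasure (unif K) := by
  have h0 : volume K ≠ 0 :=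
    (lt_of_lt_of_le (isOpen_interior.measure_pos volume hKi) (measure_mono interior_subset)).ne'
  constructor
  rw [unif, Measure.smul_apply, Measure.restrict_apply_univ, smul_eq_mul]
  exact ENNReal.inv_mul_cancel h0 hK.measure_lt_top.ne

theorem smul_unif {K : Set (E d)} (hK : IsCompact K) (hKi : (interior K).Nonempty) :
    (volume K) • unif K = volume.restrict K := by
  have h0 : volume K ≠ 0 :=
    (lt_of_lt_of_le (isOpen_interior.measure_pos volume hKi) (measure_mono interior_subset)).ne'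
  rw [unif, smul_smul, ENNReal.mul_inv_cancel h0 hK.measure_lt_top.ne, one_smul]

theorem admissible_third
    (hFS : ∀ K : Set (E d), IsCompact K → Convex ℝ K → (interior K).Nonempty → FiniteStability K)
    (hBr : BrenierProp d) : Admissible d (1 / 3) := by
  refine ⟨by norm_num, by norm_num, ?_⟩
  intro K hK hKc hKi Y hY hYne
  obtain ⟨R, hR0, hYR⟩ : ∃ R : ℝ, 0 ≤ R ∧ Y ⊆ closedBall 0 R := by
    obtain ⟨R, hR⟩ := hY.isBounded.subset_closedBall 0
    exact ⟨max R 0, le_max_right _ _, hR.trans (closedBall_subset_closedBall (le_max_left _ _))⟩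
  set L : ℝ≥0 := Real.toNNReal R with hL
  obtain ⟨G, hG0, hG⟩ := gn hK hKc hKi L
  obtain ⟨C, hC0, hC⟩ := potential_stability hK hKc hKi (hFS K hK hKc hKi)
  have hfinK : volume K ≠ ∞ := hK.measure_lt_top.ne
  have hvol0 : volume K ≠ 0 :=
    (lt_of_lt_of_le (isOpen_interior.measure_pos volume hKi) (measure_mono interior_subset)).ne'
  set v : ℝ := (volume K).toReal with hv
  have hvpos : 0 < v := ENNReal.toReal_pos hvol0 hfinK
  have hρ := isProbabilityMeasure_unif hK hKi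
  set A : ℝ := v⁻¹ * (G * (C * v) ^ (1 / 3 : ℝ)) with hA
  have hA0 : 0 ≤ A := by positivity
  refine ⟨Real.sqrt A, ?_⟩
  intro μ ν hμ hν hμY hνY T S hT hS
  obtain ⟨φ, hφ, hφL, hTg⟩ := hBr K hK hKc hKi μ R hR0
    (measure_mono_null (compl_subset_compl.mpr hYR) hμY) hμ T hT
  obtain ⟨ψ, hψ, hψL, hSg⟩ := hBr K hK hKc hKi ν R hR0
    (measure_mono_null (compl_subset_compl.mpr hYR) hνY) hν S hS
  have hTm := hT.1
  have hSm := hS.1
  set J : ℝ := ∫ x, ‖T x - S x‖ ^ 2 ∂(unif K) with hJ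
  have hJ0 : 0 ≤ J := integral_nonneg fun x => by positivity
  have hJeq : J = v⁻¹ * ∫ x in K, ‖T x - S x‖ ^ 2 := by
    rw [hJ, unif, integral_smul_measure, ENNReal.toReal_inv, smul_eq_mul]
  set s : Set ℝ := {c : ℝ | ∃ π : Measure (E d × E d), IsCoupling μ ν π ∧
    c = ∫ p, ‖p.1 - p.2‖ ^ 2 ∂π} with hs
  have hsne : s.Nonempty := by
    refine ⟨_, μ.prod ν, ⟨?_, ?_⟩, rfl⟩
    · rw [Measure.map_fst_prod]; simp
    · rw [Measure.map_snd_prod]; simp
  have hs0 : ∀ c ∈ s, 0 ≤ c := by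
    rintro c ⟨π, -, rfl⟩
    exact integral_nonneg fun p => by positivity
  have hmain : ∀ c ∈ s, J ≤ A * c ^ (1 / 3 : ℝ) := by
    rintro c ⟨π, hπ, rfl⟩
    have hπ' : IsCoupling ((unif K).map T) ((unif K).map S) π := by
      rw [hT.2.1, hS.2.1]; exact hπ
    obtain ⟨γ, g1, g2, g3⟩ := exists_lift hTm hSm hπ'
    set γ' : Measure (E d × E d) := (volume K) • γ with hγ'
    have g1' : γ'.map Prod.fst = volume.restrict K := by
      rw [hγ', Measure.map_smul, g1, smul_unif hK hKi]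
    have g2' : γ'.map Prod.snd = volume.restrict K := by
      rw [hγ', Measure.map_smul, g2, smul_unif hK hKi]
    obtain ⟨c, hc⟩ := hC L φ ψ T S hφ hψ hφL hψL hTm hSm hTg hSg γ' g1' g2'
    have hcost : ∫ p, ‖T p.1 - S p.2‖ ^ 2 ∂γ' = v * ∫ p, ‖p.1 - p.2‖ ^ 2 ∂π := by
      have hmTS : Measurable (fun p : E d × E d => (T p.1, S p.2)) :=
        (hTm.comp measurable_fst).prodMk (hSm.comp measurable_snd)
      have e := integral_map (μ := γ) hmTS.aemeasurable (f := fun p : E d × E d => ‖p.1 - p.2‖ ^ 2)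
        (((measurable_fst.sub measurable_snd).norm.pow_const 2).aestronglyMeasurable)
      rw [hγ', integral_smul_measure, smul_eq_mul, ← g3, e]
    rw [hcost] at hc
    set cπ : ℝ := ∫ p, ‖p.1 - p.2‖ ^ 2 ∂π with hcπ
    have hcπ0 : 0 ≤ cπ := integral_nonneg fun p => by positivity
    have hψc : ConvexOn ℝ univ (fun x => ψ x + c) := hψ.add_const c
    have hψcL : LipschitzWith L (fun x => ψ x + c) := by
      apply LipschitzWith.of_dist_le_mul
      intro x x'
      have := hψL.dist_le_mul x x'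
      rwa [Real.dist_eq, add_sub_add_right_eq_sub, ← Real.dist_eq]
    have hSg' : ∀ᵐ x ∂(volume.restrict K), HasGradientAt (fun x => ψ x + c) (S x) x := by
      filter_upwards [hSg] with x hx
      exact (hx.hasFDerivAt.add_const c)
    have hg := hG φ (fun x => ψ x + c) T S hφ hψc hφL hψcL hTm hSm hTg hSg'
    have e1 : ∫ x in K, (φ x - (ψ x + c)) ^ 2 = ∫ x in K, (φ x - ψ x - c) ^ 2 := by
      congr 1; ext x; ring
    rw [e1] at hg
    have h3 : (∫ x in K, (φ x - ψ x - c) ^ 2) ^ (1 / 3 : ℝ) ≤ (C * (v * cπ)) ^ (1 / 3 : ℝ) :=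
      Real.rpow_le_rpow (integral_nonneg fun x => by positivity) hc (by norm_num)
    rw [hJeq, hA]
    calc v⁻¹ * ∫ x in K, ‖T x - S x‖ ^ 2 ≤ v⁻¹ * (G * (C * (v * cπ)) ^ (1 / 3 : ℝ)) := by
          apply mul_le_mul_of_nonneg_left _ (by positivity)
          exact hg.trans (mul_le_mul_of_nonneg_left h3 hG0)
      _ = v⁻¹ * (G * (C * v) ^ (1 / 3 : ℝ)) * cπ ^ (1 / 3 : ℝ) := by
          rw [← mul_assoc C v cπ, Real.mul_rpow (by positivity) hcπ0]; ring
  have hfinal := le_rpow_sInf hsne hs0 hJ0 hA0 hmain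
  have hsInf0 : 0 ≤ sInf s := Real.sInf_nonneg hs0
  calc Real.sqrt J ≤ Real.sqrt (A * (sInf s) ^ (1 / 3 : ℝ)) := Real.sqrt_le_sqrt hfinal
    _ = Real.sqrt A * Real.sqrt ((sInf s) ^ (1 / 3 : ℝ)) := Real.sqrt_mul hA0 _
    _ = Real.sqrt A * (W2 μ ν) ^ (1 / 3 : ℝ) := by
        congr 1
        rw [W2, Real.sqrt_eq_rpow, Real.sqrt_eq_rpow, ← Real.rpow_mul hsInf0,
          ← Real.rpow_mul hsInf0]
        congr 1; ring

/-- The optimal exponent is exactly `1/3` and it is attained. -/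
theorem isGreatest_third (hd : 2 ≤ d)
    (hFS : ∀ K : Set (E d), IsCompact K → Convex ℝ K → (interior K).Nonempty → FiniteStability K)
    (hBr : BrenierProp d) : IsGreatest {α : ℝ | Admissible d α} (1 / 3) :=
  ⟨admissible_third hFS hBr, fun _ hα => le_third_of_admissible hd hα⟩

end Vale.Agent.P074
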