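import Mathlib

/-!
# A telescoping lemma
-/

open Set Finset

namespace Vale.Agent.P074.Semi

theorem exists_avoid (bad : Set ℝ) (hbad : bad.Finite) (N : ℕ) (hN : 0 < N) :
    ∃ θ ∈ Ioo (0:ℝ) 1, ∀ k : ℕ, k < N → ((k : ℝ) + θ) / N ∉ bad := by
  have hfin : (⋃ k ∈ Finset.range N, (fun τ : ℝ => N * τ - k) '' bad).Finite := by
    refine Set.Finite.biUnion (Finset.finite_toSet _) fun k _ => hbad.image _
  have hinf : (Ioo (0:ℝ) 1).Infinite := Ioo_infinite (by norm_num)
  obtain ⟨θ, hθ, hθ2⟩ := (hinf.sdiff hfin).nonempty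
  refine ⟨θ, hθ, fun k hk hbadk => hθ2 ?_⟩
  simp only [mem_iUnion]
  refine ⟨k, Finset.mem_range.mpr hk, _, hbadk, ?_⟩
  have : (N : ℝ) ≠ 0 := by exact_mod_cast hN.ne'
  simp only
  field_simp
  ring

theorem telescope {F β : ℝ → ℝ} {bad : Set ℝ} (hbad : bad.Finite) {L M B : ℝ} (hL : 0 ≤ L)
    (hF : ∀ t ∈ Icc (0:ℝ) 1, ∀ t' ∈ Icc (0:ℝ) 1, |F t' - F t| ≤ L * |t' - t|)
    (hβ : ∀ t ∈ Icc (0:ℝ) 1, |β t| ≤ M)
    (h : ∀ t ∈ Icc (0:ℝ) 1, t ∉ bad → ∀ t' ∈ Icc (0:ℝ) 1, t' ∉ bad → t < t' →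
      F t' - F t ≤ (t' - t) * (B + β t' - β t)) :
    F 1 - F 0 ≤ B := by
  have key : ∀ n : ℕ, F 1 - F 0 ≤ B + (2 * M + 2 * L + |B|) * (1 / ((n : ℝ) + 1)) := by
    intro n
    set N : ℕ := n + 1 with hN
    have hNR : (N : ℝ) = (n : ℝ) + 1 := by rw [hN]; push_cast; ring
    have hN0 : (0:ℝ) < N := by rw [hNR]; positivity
    obtain ⟨θ, hθ, hgood⟩ := exists_avoid bad hbad N (Nat.succ_pos n)
    set t : ℕ → ℝ := fun k => ((k : ℝ) + θ) / N with ht
    have htmem : ∀ k, k < N → t k ∈ Icc (0:ℝ) 1 := by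
      intro k hk
      have hk' : (k : ℝ) + 1 ≤ N := by exact_mod_cast hk
      refine ⟨by simp only [ht]; have := hθ.1; positivity, ?_⟩
      simp only [ht]
      rw [div_le_one hN0]
      linarith [hθ.2]
    have hstep : ∀ k, k < n → F (t (k + 1)) - F (t k) ≤
        (1 / (N : ℝ)) * (B + β (t (k + 1)) - β (t k)) := by
      intro k hk
      have e : t (k + 1) - t k = 1 / (N : ℝ) := by
        simp only [ht]; push_cast; ring
      have hlt : t k < t (k + 1) := by
        have : 0 < t (k + 1) - t k := by rw [e]; positivity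
        linarith
      have := h (t k) (htmem k (by omega)) (hgood k (by omega)) (t (k + 1))
        (htmem (k + 1) (by omega)) (hgood (k + 1) (by omega)) hlt
      rwa [e] at this
    have hsum : ∀ k, k ≤ n → F (t k) - F (t 0) ≤
        (1 / (N : ℝ)) * (k * B + β (t k) - β (t 0)) := by
      intro k
      induction k with
      | zero => intro _; simp
      | succ k ih =>
        intro hk
        have h1 := ih (by omega)
        have h2 := hstep k (by omega)
        push_cast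
        have e : (1 / (N : ℝ)) * (((k : ℝ) + 1) * B + β (t (k + 1)) - β (t 0)) =
          (1 / (N : ℝ)) * (k * B + β (t k) - β (t 0)) +
          (1 / (N : ℝ)) * (B + β (t (k + 1)) - β (t k)) := by ring
        rw [e]; linarith
    have hn := hsum n le_rfl
    have h0 := hF 0 ⟨le_rfl, zero_le_one⟩ (t 0) (htmem 0 (by omega))
    have h1 := hF (t n) (htmem n (by omega)) 1 ⟨zero_le_one, le_rfl⟩
    have hb0 := abs_le.mp (hβ (t 0) (htmem 0 (by omega)))
    have hb1 := abs_le.mp (hβ (t n) (htmem n (by omega)))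
    have e0 : |t 0 - 0| ≤ 1 / (N : ℝ) := by
      simp only [ht, Nat.cast_zero, zero_add, sub_zero]
      rw [abs_of_nonneg (by have := hθ.1; positivity)]
      exact div_le_div_of_nonneg_right hθ.2.le hN0.le
    have e1 : |1 - t n| ≤ 1 / (N : ℝ) := by
      have : 1 - t n = (1 - θ) / N := by
        simp only [ht]
        rw [hNR]
        field_simp
        ring
      rw [this, abs_of_nonneg (div_nonneg (by linarith [hθ.2]) hN0.le)]
      exact div_le_div_of_nonneg_right (by linarith [hθ.1]) hN0.le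
    have h0' := (abs_le.mp h0).2
    have h1' := (abs_le.mp h1).2
    have h0'' : L * |t 0 - 0| ≤ L * (1 / (N : ℝ)) := mul_le_mul_of_nonneg_left e0 hL
    have h1'' : L * |1 - t n| ≤ L * (1 / (N : ℝ)) := mul_le_mul_of_nonneg_left e1 hL
    have hN1 : 0 ≤ 1 / (N : ℝ) := by positivity
    have hM : (1 / (N : ℝ)) * (n * B + β (t n) - β (t 0)) ≤
        B + |B| * (1 / (N:ℝ)) + 2 * M * (1 / (N : ℝ)) := by
      have e2 : (1 / (N : ℝ)) * (n * B) = B - B * (1 / (N:ℝ)) := by
        rw [hNR]; field_simp; ring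
      have e3 : (1 / (N : ℝ)) * (n * B + β (t n) - β (t 0)) = (1 / (N : ℝ)) * (n * B) +
        (1 / (N : ℝ)) * (β (t n) - β (t 0)) := by ring
      rw [e3, e2]
      have e4 : (1 / (N : ℝ)) * (β (t n) - β (t 0)) ≤ (1 / (N : ℝ)) * (2 * M) :=
        mul_le_mul_of_nonneg_left (by linarith [hb0.1, hb1.2]) hN1
      have e5 : - (B * (1 / (N:ℝ))) ≤ |B| * (1 / (N:ℝ)) := by
        rw [← neg_mul]
        exact mul_le_mul_of_nonneg_right (neg_le_abs B) hN1
      linarith
    rw [← hNR]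
    have : (2 * M + 2 * L + |B|) * (1 / (N : ℝ)) = |B| * (1 / (N:ℝ)) + 2 * M * (1 / (N : ℝ)) +
      2 * (L * (1 / (N : ℝ))) := by ring
    rw [this]
    linarith
  have hlim : Filter.Tendsto (fun n : ℕ => B + (2 * M + 2 * L + |B|) * (1 / ((n : ℝ) + 1)))
      Filter.atTop (nhds (B + (2 * M + 2 * L + |B|) * 0)) :=
    (tendsto_one_div_add_atTop_nhds_zero_nat.const_mul _).const_add _
  rw [mul_zero, add_zero] at hlim
  exact ge_of_tendsto' hlim key

end Vale.Agent.P074.Semi
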