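import Vale.Agent.P074.Semi
import Vale.Agent.P074.Telescope

/-!
# The path argument
-/

open MeasureTheory Set
open scoped ENNReal InnerProductSpace

namespace Vale.Agent.P074

/-- the key estimate on cells of prescribed masses -/
def KeyProp (d : ℕ) (D C : ℝ) : Prop :=
  ∀ (K : Set (E d)), IsCompact K → Convex ℝ K → K ⊆ Metric.closedBall 0 D →
  ∀ (ι : Type) [Fintype ι] (y : ι → E d), Function.Injective y →
  ∀ (a b : ι → ℝ) (H : E d → ℝ), Measurable H → (∀ x ∈ K, |H x| ≤ 1 / 2) →
  (∀ i, (volume (cell K y a i)).toReal = ∫ x in cell K y b i, (1 + H x)) →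
  ∀ v : ι → E d,
    |∑ i, inner ℝ (v i) ((∫ x in cell K y b i, (1 + H x) • x) - ∫ x in cell K y a i, x)| ≤
      C * Real.sqrt (∫ x in K, H x ^ 2) *
        Real.sqrt (∑ i, (volume (cell K y a i)).toReal * ‖v i‖ ^ 2)

namespace Semi

variable {d : ℕ}

/-- `(1+H) 1_K dx` -/
noncomputable def dens (K : Set (E d)) (H : E d → ℝ) : Measure (E d) :=
  (volume.restrict K).withDensity (fun x => ENNReal.ofReal (1 + H x))

section dens

variable {K : Set (E d)} {H : E d → ℝ}

theorem dens_ac (K : Set (E d)) (H : E d → ℝ) : dens K H ≪ volume :=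
  (withDensity_absolutelyContinuous _ _).trans Measure.restrict_le_self.absolutelyContinuous

theorem dens_ac_restrict (K : Set (E d)) (H : E d → ℝ) : dens K H ≪ volume.restrict K :=
  withDensity_absolutelyContinuous _ _

theorem integrableOn_bdd (hK : IsCompact K) (hH : Measurable H) {B : ℝ}
    (hB : ∀ x ∈ K, |H x| ≤ B) : Integrable H (volume.restrict K) := by
  have : IsFiniteMeasure (volume.restrict K) := ⟨by
    rw [Measure.restrict_apply_univ]; exact hK.measure_lt_top⟩
  refine Integrable.of_bound (C := B) hH.aestronglyMeasurable ?_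
  filter_upwards [ae_restrict_mem hK.measurableSet] with x hx
  exact hB x hx

theorem dens_finite (hK : IsCompact K) (hH : Measurable H) (hB : ∀ x ∈ K, |H x| ≤ 1 / 2) :
    IsFiniteMeasure (dens K H) := by
  have : IsFiniteMeasure (volume.restrict K) := ⟨by
    rw [Measure.restrict_apply_univ]; exact hK.measure_lt_top⟩
  refine isFiniteMeasure_withDensity_ofReal ?_
  exact ((integrable_const (1:ℝ)).add (integrableOn_bdd hK hH hB)).2

theorem dens_ae_mem (hK : IsCompact K) (H : E d → ℝ) : ∀ᵐ x ∂(dens K H), x ∈ K :=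
  (dens_ac_restrict K H).ae_le (ae_restrict_mem hK.measurableSet)

theorem dens_ae_norm (hK : IsCompact K) (H : E d → ℝ) {D : ℝ}
    (hD : K ⊆ Metric.closedBall 0 D) : ∀ᵐ x ∂(dens K H), ‖x‖ ≤ D := by
  filter_upwards [dens_ae_mem hK H] with x hx
  exact mem_closedBall_zero_iff.mp (hD hx)

theorem integral_dens {F : Type*} [NormedAddCommGroup F] [NormedSpace ℝ F] (hK : IsCompact K)
    (hH : Measurable H) (hB : ∀ x ∈ K, |H x| ≤ 1 / 2) (f : E d → F) :
    ∫ x, f x ∂(dens K H) = ∫ x in K, (1 + H x) • f x := by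
  unfold dens
  rw [integral_withDensity_eq_integral_toReal_smul₀]
  · apply integral_congr_ae
    filter_upwards [ae_restrict_mem hK.measurableSet] with x hx
    rw [ENNReal.toReal_ofReal]
    have := (abs_le.mp (hB x hx)).1
    linarith
  · exact (measurable_const.add hH).ennreal_ofReal.aemeasurable
  · exact Filter.Eventually.of_forall fun x => ENNReal.ofReal_lt_top

theorem setIntegral_dens {F : Type*} [NormedAddCommGroup F] [NormedSpace ℝ F] (hK : IsCompact K)
    (hH : Measurable H) (hB : ∀ x ∈ K, |H x| ≤ 1 / 2) (f : E d → F) {S : Set (E d)}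
    (hS : MeasurableSet S) :
    ∫ x in S, f x ∂(dens K H) = ∫ x in K ∩ S, (1 + H x) • f x := by
  rw [← integral_indicator hS, integral_dens hK hH hB, ← setIntegral_indicator hS]
  congr 1
  ext x
  by_cases hx : x ∈ S
  · rw [indicator_of_mem hx, indicator_of_mem hx]
  · rw [indicator_of_notMem hx, indicator_of_notMem hx, smul_zero]

theorem real_dens (hK : IsCompact K)
    (hH : Measurable H) (hB : ∀ x ∈ K, |H x| ≤ 1 / 2) {S : Set (E d)}
    (hS : MeasurableSet S) :
    (dens K H).real S = ∫ x in K ∩ S, (1 + H x) := by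
  have h := setIntegral_dens hK hH hB (fun _ => (1:ℝ)) hS
  simp only [smul_eq_mul, mul_one] at h
  rw [← h]
  simp

end dens

section path

variable {P : Type} [Fintype P] [Nonempty P] {Y Z : P → E d} {w : P → ℝ}

/-- minimal value of the dual functional -/
noncomputable def Aval {ι : Type*} [Fintype ι] (ν : Measure (E d)) (y : ι → E d) (m : ι → ℝ) : ℝ :=
  ⨅ ψ : ι → ℝ, Phi ν y m ψ

theorem Aval_eq {ι : Type*} [Fintype ι] {ν : Measure (E d)} {y : ι → E d} {m ψ : ι → ℝ}
    (h : ∀ ψ', Phi ν y m ψ ≤ Phi ν y m ψ') : Aval ν y m = Phi ν y m ψ :=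
  le_antisymm (ciInf_le ⟨Phi ν y m ψ, by rintro _ ⟨ψ', rfl⟩; exact h ψ'⟩ ψ) (le_ciInf h)

theorem exists_Aval {ν : Measure (E d)} [IsFiniteMeasure ν] {D : ℝ} (hD : ∀ᵐ x ∂ν, ‖x‖ ≤ D)
    (hD0 : 0 ≤ D) (y : P → E d) (hm : ∀ i, 0 ≤ w i) (hsum : ∑ i, w i = ν.real univ) :
    ∃ ψ : P → ℝ, Aval ν y w = Phi ν y w ψ ∧ ∀ ψ', Phi ν y w ψ ≤ Phi ν y w ψ' := by
  obtain ⟨R, -, hR⟩ := exists_bound y
  obtain ⟨ψ, -, hψ⟩ := exists_min hD hD0 hR hm hsum
  exact ⟨ψ, Aval_eq hψ, hψ⟩

theorem Aval_le {ν : Measure (E d)} [IsFiniteMeasure ν] {D : ℝ} (hD : ∀ᵐ x ∂ν, ‖x‖ ≤ D)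
    (hD0 : 0 ≤ D) (y : P → E d) (hm : ∀ i, 0 ≤ w i) (hsum : ∑ i, w i = ν.real univ) (ψ : P → ℝ) :
    Aval ν y w ≤ Phi ν y w ψ := by
  obtain ⟨ψ', h1, h2⟩ := exists_Aval hD hD0 y hm hsum
  rw [h1]; exact h2 ψ

/-- the straight path of sites -/
noncomputable def pth (Y Z : P → E d) (t : ℝ) (p : P) : E d := (1 - t) • Y p + t • Z p

omit [Fintype P] [Nonempty P] in
theorem pth_sub (Y Z : P → E d) (t t' : ℝ) (p : P) :
    pth Y Z t' p - pth Y Z t p = (t' - t) • (Z p - Y p) := by
  unfold pth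
  module

omit [Fintype P] [Nonempty P] in
theorem pth_zero (Y Z : P → E d) : pth Y Z 0 = Y := by
  ext1 p; simp [pth]

omit [Fintype P] [Nonempty P] in
theorem pth_one (Y Z : P → E d) : pth Y Z 1 = Z := by
  ext1 p; simp [pth]

/-- the first moment functional of the cells -/
noncomputable def beta (ν : Measure (E d)) (y : P → E d) (ψ : P → ℝ) (v : P → E d) : ℝ :=
  ∑ i, ∫ x in cell univ y ψ i, inner ℝ x (v i) ∂ν

theorem grad_ineq {ν : Measure (E d)} [IsFiniteMeasure ν] {D : ℝ} (hD : ∀ᵐ x ∂ν, ‖x‖ ≤ D)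
    (hν : ν ≪ volume) {y : P → E d} (hy : Function.Injective y) {ψ : P → ℝ}
    (hmass : ∀ i, ν.real (cell univ y ψ i) = w i) (y' : P → E d) (ψ' : P → ℝ) :
    Phi ν y w ψ + beta ν y ψ (fun i => y' i - y i) ≤ Phi ν y' w ψ' := by
  refine le_trans (le_of_eq ?_) (cells_lower_bound hD hν hy hmass y' ψ')
  rw [value_of_mass hD hν hy hmass, beta, ← Finset.sum_add_distrib]
  refine Finset.sum_congr rfl fun i _ => ?_
  have hI : ∀ u : E d, Integrable (fun x => inner ℝ x u) (ν.restrict (cell univ y ψ i)) :=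
    fun u => (integrable_of_cont hD (f := fun x => (inner ℝ x u : ℝ)) (by fun_prop)).restrict
  rw [← integral_add (hI _) (hI _)]
  congr 1
  ext x
  rw [← inner_add_right, add_sub_cancel]

omit [Nonempty P] in
theorem beta_smul (ν : Measure (E d)) (y : P → E d) (ψ : P → ℝ) (v : P → E d) (c : ℝ) :
    beta ν y ψ (fun i => c • v i) = c * beta ν y ψ v := by
  unfold beta
  rw [Finset.mul_sum]
  refine Finset.sum_congr rfl fun i _ => ?_
  rw [← integral_const_mul]
  congr 1
  ext x
  rw [inner_smul_right]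

omit [Nonempty P] in
theorem beta_abs_le {ν : Measure (E d)} [IsFiniteMeasure ν] {D : ℝ} (hD : ∀ᵐ x ∂ν, ‖x‖ ≤ D)
    (hD0 : 0 ≤ D) (y : P → E d) (ψ : P → ℝ) {v : P → E d} :
    |beta ν y ψ v| ≤ ∑ i, D * ‖v i‖ * ν.real univ := by
  unfold beta
  refine (Finset.abs_sum_le_sum_abs _ _).trans (Finset.sum_le_sum fun i _ => ?_)
  have h1 : ∀ᵐ x ∂(ν.restrict (cell univ y ψ i)), ‖(inner ℝ x (v i) : ℝ)‖ ≤ D * ‖v i‖ := by
    filter_upwards [ae_restrict_of_ae hD] with x hx
    exact (norm_inner_le_norm _ _).trans (mul_le_mul_of_nonneg_right hx (norm_nonneg _))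
  have h2 := norm_integral_le_of_norm_le_const h1
  rw [Real.norm_eq_abs] at h2
  refine h2.trans (mul_le_mul_of_nonneg_left ?_ (by positivity))
  rw [measureReal_restrict_apply MeasurableSet.univ]
  exact measureReal_mono (inter_subset_left) (measure_ne_top _ _)

theorem Aval_lipschitz {ν : Measure (E d)} [IsFiniteMeasure ν] {D : ℝ} (hD : ∀ᵐ x ∂ν, ‖x‖ ≤ D)
    (hD0 : 0 ≤ D) (hm : ∀ i, 0 ≤ w i) (hsum : ∑ i, w i = ν.real univ) {V : ℝ}
    (hV : ∀ p, ‖Z p - Y p‖ ≤ V) (t t' : ℝ) :
    Aval ν (pth Y Z t') w ≤ Aval ν (pth Y Z t) w + D * V * ν.real univ * |t' - t| := by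
  obtain ⟨ψ, h1, -⟩ := exists_Aval hD hD0 (pth Y Z t) hm hsum
  rw [h1]
  refine (Aval_le hD hD0 _ hm hsum ψ).trans ?_
  unfold Phi
  have h2 : ∫ x, maxAff (pth Y Z t') ψ x ∂ν ≤
      ∫ x, (maxAff (pth Y Z t) ψ x + D * V * |t' - t|) ∂ν := by
    apply integral_mono_ae (integrable_maxAff hD _ _)
      ((integrable_maxAff hD _ _).add (integrable_const _))
    filter_upwards [hD] with x hx
    refine maxAff_le_add fun i => ?_
    have h3 : inner ℝ x (pth Y Z t' i) - inner ℝ x (pth Y Z t i) =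
        (t' - t) * inner ℝ x (Z i - Y i) := by
      rw [← inner_sub_right, pth_sub, inner_smul_right]
    have h4 : (t' - t) * inner ℝ x (Z i - Y i) ≤ D * V * |t' - t| := by
      have h5 : |inner ℝ x (Z i - Y i)| ≤ D * V := (abs_real_inner_le_norm _ _).trans
        (mul_le_mul hx (hV i) (norm_nonneg _) hD0)
      calc (t' - t) * inner ℝ x (Z i - Y i) ≤ |(t' - t) * inner ℝ x (Z i - Y i)| := le_abs_self _
        _ = |inner ℝ x (Z i - Y i)| * |t' - t| := by rw [abs_mul, mul_comm]
        _ ≤ D * V * |t' - t| := mul_le_mul_of_nonneg_right h5 (abs_nonneg _)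
    linarith
  rw [integral_add (integrable_maxAff hD _ _) (integrable_const _), integral_const,
    smul_eq_mul] at h2
  linarith

/-- The path argument. -/
theorem path_bound {D C : ℝ} (hkey : KeyProp d D C) (hD0 : 0 ≤ D) {K : Set (E d)}
    (hK : IsCompact K) (hKc : Convex ℝ K) (hKD : K ⊆ Metric.closedBall 0 D)
    (hbad : {t : ℝ | ¬ Function.Injective (pth Y Z t)}.Finite)
    (hw : ∀ p, 0 ≤ w p) (hsum : ∑ p, w p = (volume K).toReal)
    {H : E d → ℝ} (hH : Measurable H) (hB : ∀ x ∈ K, |H x| ≤ 1 / 2)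
    (hmean : ∫ x in K, H x = 0) :
    (Aval (dens K H) Z w - Aval (dens K (fun _ => 0)) Z w) -
      (Aval (dens K H) Y w - Aval (dens K (fun _ => 0)) Y w) ≤
      C * Real.sqrt (∫ x in K, H x ^ 2) * Real.sqrt (∑ p, w p * ‖Z p - Y p‖ ^ 2) := by
  have hKf : IsFiniteMeasure (volume.restrict K) := ⟨by
    rw [Measure.restrict_apply_univ]; exact hK.measure_lt_top⟩
  set ν : Measure (E d) := dens K H with hν
  set ν0 : Measure (E d) := dens K (fun _ => 0) with hν0
  have hB0 : ∀ x ∈ K, |(fun _ : E d => (0:ℝ)) x| ≤ 1 / 2 := fun x _ => by norm_num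
  have f1 : IsFiniteMeasure ν := dens_finite hK hH hB
  have f0 : IsFiniteMeasure ν0 := dens_finite hK measurable_const hB0
  have D1 : ∀ᵐ x ∂ν, ‖x‖ ≤ D := dens_ae_norm hK H hKD
  have D0 : ∀ᵐ x ∂ν0, ‖x‖ ≤ D := dens_ae_norm hK _ hKD
  have a1 : ν ≪ volume := dens_ac K H
  have a0 : ν0 ≪ volume := dens_ac K _
  have m1 : ν.real univ = (volume K).toReal := by
    rw [hν, real_dens hK hH hB MeasurableSet.univ, inter_univ,
      integral_add (integrable_const _) (integrableOn_bdd hK hH hB), hmean]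
    simp [Measure.real]
  have m0 : ν0.real univ = (volume K).toReal := by
    rw [hν0, real_dens hK measurable_const hB0 MeasurableSet.univ, inter_univ]
    simp [Measure.real]
  have s1 : ∑ p, w p = ν.real univ := by rw [m1, hsum]
  have s0 : ∑ p, w p = ν0.real univ := by rw [m0, hsum]
  -- minimizers
  choose ψ1 hψ1 hmin1 using fun t : ℝ => exists_Aval D1 hD0 (pth Y Z t) hw s1
  choose ψ0 hψ0 hmin0 using fun t : ℝ => exists_Aval D0 hD0 (pth Y Z t) hw s0
  obtain ⟨V, hV0, hV⟩ := exists_bound (fun p => Z p - Y p)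
  set v : P → E d := fun p => Z p - Y p with hv
  -- the functions
  set F : ℝ → ℝ := fun t => Aval ν (pth Y Z t) w - Aval ν0 (pth Y Z t) w with hF
  set β : ℝ → ℝ := fun t => beta ν0 (pth Y Z t) (ψ0 t) v with hβ
  set B : ℝ := C * Real.sqrt (∫ x in K, H x ^ 2) * Real.sqrt (∑ p, w p * ‖Z p - Y p‖ ^ 2) with hBdef
  have hkeyt : ∀ t, Function.Injective (pth Y Z t) →
      |beta ν (pth Y Z t) (ψ1 t) v - β t| ≤ B := by
    intro t ht
    have hm0 : ∀ i, ν0.real (cell univ (pth Y Z t) (ψ0 t) i) = w i :=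
      mass_of_min D0 a0 ht s0 (hmin0 t)
    have hm1 : ∀ i, ν.real (cell univ (pth Y Z t) (ψ1 t) i) = w i :=
      mass_of_min D1 a1 ht s1 (hmin1 t)
    have hvol : ∀ i, (volume (cell K (pth Y Z t) (ψ0 t) i)).toReal = w i := by
      intro i
      rw [← hm0 i, hν0, real_dens hK measurable_const hB0 (measurableSet_cell_univ _ _ _),
        ← cell_eq]
      simp [Measure.real]
    have hvol1 : ∀ i, ∫ x in cell K (pth Y Z t) (ψ1 t) i, (1 + H x) = w i := by
      intro i
      rw [← hm1 i, hν, real_dens hK hH hB (measurableSet_cell_univ _ _ _), ← cell_eq]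
    have hk := hkey K hK hKc hKD P (pth Y Z t) ht (ψ0 t) (ψ1 t) H hH hB
      (fun i => by rw [hvol i, hvol1 i]) v
    simp_rw [hvol] at hk
    refine le_trans (le_of_eq ?_) hk
    congr 1
    rw [hβ]
    simp only [beta]
    rw [← Finset.sum_sub_distrib]
    refine Finset.sum_congr rfl fun i _ => ?_
    have i1 : Integrable (fun x : E d => (1 + H x) • x) (volume.restrict (cell K (pth Y Z t) (ψ1 t) i)) := by
      have h1 : Integrable (fun x : E d => (1 + H x) • x) (volume.restrict K) := by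
        have h2 : Integrable (fun x : E d => x) (volume.restrict K) := by
          refine Integrable.of_bound (C := D) measurable_id.aestronglyMeasurable ?_
          filter_upwards [ae_restrict_mem hK.measurableSet] with x hx
          exact mem_closedBall_zero_iff.mp (hKD hx)
        refine h2.bdd_smul (3 / 2) (measurable_const.add hH).aestronglyMeasurable ?_
        filter_upwards [ae_restrict_mem hK.measurableSet] with x hx
        have := abs_le.mp (hB x hx)
        rw [Real.norm_eq_abs, abs_le]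
        simp only [Pi.add_apply]
        constructor <;> linarith [this.1, this.2]
      refine h1.mono_measure (Measure.restrict_mono ?_ le_rfl)
      intro x hx; exact hx.1
    have i0 : Integrable (fun x : E d => x) (volume.restrict (cell K (pth Y Z t) (ψ0 t) i)) := by
      have h2 : Integrable (fun x : E d => x) (volume.restrict K) := by
        refine Integrable.of_bound (C := D) measurable_id.aestronglyMeasurable ?_
        filter_upwards [ae_restrict_mem hK.measurableSet] with x hx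
        exact mem_closedBall_zero_iff.mp (hKD hx)
      refine h2.mono_measure (Measure.restrict_mono ?_ le_rfl)
      intro x hx; exact hx.1
    rw [inner_sub_right, ← integral_inner i1, ← integral_inner i0]
    congr 1
    · rw [hν, setIntegral_dens hK hH hB _ (measurableSet_cell_univ _ _ _), ← cell_eq]
      congr 1
      ext x
      rw [inner_smul_right, real_inner_comm, smul_eq_mul]
    · rw [hν0, setIntegral_dens hK measurable_const hB0 _ (measurableSet_cell_univ _ _ _),
        ← cell_eq]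
      congr 1
      ext x
      rw [add_zero, one_smul, real_inner_comm]
  have hL : 0 ≤ 2 * (D * V * (volume K).toReal) := by positivity
  have htel := telescope (F := F) (β := β) hbad (L := 2 * (D * V * (volume K).toReal))
    (M := ∑ i, D * ‖v i‖ * ν0.real univ) (B := B) hL ?_ ?_ ?_
  · have e1 : F 1 = Aval ν Z w - Aval ν0 Z w := by simp only [hF, pth_one]
    have e0 : F 0 = Aval ν Y w - Aval ν0 Y w := by simp only [hF, pth_zero]
    rw [e1, e0] at htel
    exact htel
  · intro t _ t' _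
    have b1 := Aval_lipschitz D1 hD0 hw s1 hV t t'
    have b2 := Aval_lipschitz D1 hD0 hw s1 hV t' t
    have b3 := Aval_lipschitz D0 hD0 hw s0 hV t t'
    have b4 := Aval_lipschitz D0 hD0 hw s0 hV t' t
    rw [m1] at b1 b2
    rw [m0] at b3 b4
    rw [abs_sub_comm t t'] at b2 b4
    rw [abs_le]
    simp only [hF]
    constructor <;> nlinarith
  · intro t _
    exact beta_abs_le D0 hD0 _ _
  · intro t _ ht t' _ ht' htt'
    simp only [mem_ofPred_eq, not_not] at ht ht'
    have hm0 : ∀ i, ν0.real (cell univ (pth Y Z t) (ψ0 t) i) = w i :=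
      mass_of_min D0 a0 ht s0 (hmin0 t)
    have hm1 : ∀ i, ν.real (cell univ (pth Y Z t') (ψ1 t') i) = w i :=
      mass_of_min D1 a1 ht' s1 (hmin1 t')
    have g0 := grad_ineq D0 a0 ht hm0 (pth Y Z t') (ψ0 t')
    have g1 := grad_ineq D1 a1 ht' hm1 (pth Y Z t) (ψ1 t)
    have r0 : (fun i => pth Y Z t' i - pth Y Z t i) = fun i => (t' - t) • v i := by
      ext1 i; rw [pth_sub]
    have r1 : (fun i => pth Y Z t i - pth Y Z t' i) = fun i => (t - t') • v i := by
      ext1 i; rw [pth_sub]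
    rw [r0, beta_smul, ← hψ0 t, ← hψ0 t'] at g0
    rw [r1, beta_smul, ← hψ1 t, ← hψ1 t'] at g1
    have hk := (abs_le.mp (hkeyt t' ht')).2
    have hpos : 0 < t' - t := sub_pos.mpr htt'
    have hk2 : (t' - t) * (beta ν (pth Y Z t') (ψ1 t') v - β t') ≤ (t' - t) * B :=
      mul_le_mul_of_nonneg_left hk hpos.le
    have g0' : (t' - t) * β t ≤ Aval ν0 (pth Y Z t') w - Aval ν0 (pth Y Z t) w := by
      simp only [hβ]; linarith
    have g1' : Aval ν (pth Y Z t') w - Aval ν (pth Y Z t) w ≤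
        (t' - t) * beta ν (pth Y Z t') (ψ1 t') v := by linarith
    simp only [hF]
    have e : (t' - t) * (B + β t' - β t) = (t' - t) * B + (t' - t) * β t' - (t' - t) * β t := by
      ring
    rw [e]
    rw [mul_sub] at hk2
    linarith

end path

end Semi

end Vale.Agent.P074
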