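import Vale.Agent.P074.Cells

/-!
# Semi-discrete optimal transport: existence of minimizers of the dual functional
-/

open MeasureTheory Set
open scoped ENNReal InnerProductSpace

namespace Vale.Agent.P074.Semi

section basic

variable {d : ℕ} {ι : Type*} [Finite ι] {y y' : ι → E d} {a a' : ι → ℝ}

theorem le_maxAff (y : ι → E d) (a : ι → ℝ) (x : E d) (i : ι) :
    inner ℝ x (y i) - a i ≤ maxAff y a x :=
  le_ciSup (Set.finite_range (fun i => inner ℝ x (y i) - a i)).bddAbove i

omit [Finite ι] in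
theorem maxAff_le [Nonempty ι] {x : E d} {B : ℝ} (h : ∀ i, inner ℝ x (y i) - a i ≤ B) :
    maxAff y a x ≤ B :=
  ciSup_le h

theorem maxAff_le_add [Nonempty ι] {x x' : E d} {B : ℝ}
    (h : ∀ i, inner ℝ x (y i) - a i ≤ inner ℝ x' (y' i) - a' i + B) :
    maxAff y a x ≤ maxAff y' a' x' + B :=
  maxAff_le fun i => (h i).trans (by have := le_maxAff y' a' x' i; linarith)

theorem exists_eq [Nonempty ι] (y : ι → E d) (a : ι → ℝ) (x : E d) :
    ∃ i, maxAff y a x = inner ℝ x (y i) - a i := by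
  obtain ⟨i, hi⟩ := exists_eq_ciSup_of_finite (f := fun i => inner ℝ x (y i) - a i)
  exact ⟨i, hi.symm⟩

theorem eq_of_mem_cell [Nonempty ι] {K : Set (E d)} {x : E d} {i : ι} (hx : x ∈ cell K y a i) :
    maxAff y a x = inner ℝ x (y i) - a i :=
  le_antisymm (maxAff_le hx.2) (le_maxAff y a x i)

theorem mem_cell_of_eq {K : Set (E d)} {x : E d} (hxK : x ∈ K) {i : ι}
    (hx : maxAff y a x = inner ℝ x (y i) - a i) : x ∈ cell K y a i :=
  ⟨hxK, fun j => (le_maxAff y a x j).trans hx.le⟩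

theorem abs_maxAff_le [Nonempty ι] {x : E d} {B : ℝ} (h : ∀ i, |inner ℝ x (y i) - a i| ≤ B) :
    |maxAff y a x| ≤ B := by
  obtain ⟨i, hi⟩ := exists_eq y a x
  rw [hi]; exact h i

theorem abs_maxAff_sub_le [Nonempty ι] {x x' : E d} {B : ℝ}
    (h : ∀ i, |(inner ℝ x (y i) - a i) - (inner ℝ x' (y' i) - a' i)| ≤ B) :
    |maxAff y a x - maxAff y' a' x'| ≤ B := by
  rw [abs_sub_le_iff]
  constructor
  · have : maxAff y a x ≤ maxAff y' a' x' + B :=
      maxAff_le_add fun i => by have := (abs_le.mp (h i)).2; linarith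
    linarith
  · have : maxAff y' a' x' ≤ maxAff y a x + B :=
      maxAff_le_add fun i => by have := (abs_le.mp (h i)).1; linarith
    linarith

theorem exists_bound (y : ι → E d) : ∃ R : ℝ, 0 ≤ R ∧ ∀ i, ‖y i‖ ≤ R := by
  have := Fintype.ofFinite ι
  exact ⟨∑ i, ‖y i‖, Finset.sum_nonneg fun i _ => norm_nonneg _, fun i =>
    Finset.single_le_sum (f := fun i => ‖y i‖) (fun j _ => norm_nonneg _) (Finset.mem_univ i)⟩

theorem exists_abs_bound (a : ι → ℝ) : ∃ R : ℝ, 0 ≤ R ∧ ∀ i, |a i| ≤ R := by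
  have := Fintype.ofFinite ι
  exact ⟨∑ i, |a i|, Finset.sum_nonneg fun i _ => abs_nonneg _, fun i =>
    Finset.single_le_sum (f := fun i => |a i|) (fun j _ => abs_nonneg _) (Finset.mem_univ i)⟩

theorem continuous_maxAff [Nonempty ι] (y : ι → E d) (a : ι → ℝ) : Continuous (maxAff y a) := by
  obtain ⟨R, hR0, hR⟩ := exists_bound y
  have hL : LipschitzWith (Real.toNNReal R) (maxAff y a) := by
    refine LipschitzWith.of_dist_le_mul fun x x' => ?_
    rw [Real.dist_eq, Real.coe_toNNReal R hR0, dist_eq_norm]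
    refine abs_maxAff_sub_le fun i => ?_
    have : (inner ℝ x (y i) - a i) - (inner ℝ x' (y i) - a i) = inner ℝ (x - x') (y i) := by
      rw [inner_sub_left]; ring
    rw [this, mul_comm]
    refine (abs_real_inner_le_norm _ _).trans ?_
    exact mul_le_mul_of_nonneg_left (hR i) (norm_nonneg _)
  exact hL.continuous

theorem measurable_maxAff [Nonempty ι] (y : ι → E d) (a : ι → ℝ) : Measurable (maxAff y a) :=
  (continuous_maxAff y a).measurable

omit [Finite ι] in
theorem isClosed_cell_univ (y : ι → E d) (a : ι → ℝ) (i : ι) : IsClosed (cell univ y a i) := by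
  have : cell univ y a i = ⋂ j, {x : E d | inner ℝ x (y j) - a j ≤ inner ℝ x (y i) - a i} := by
    ext x; simp [cell]
  rw [this]
  exact isClosed_iInter fun j => isClosed_le (by fun_prop) (by fun_prop)

omit [Finite ι] in
theorem measurableSet_cell_univ (y : ι → E d) (a : ι → ℝ) (i : ι) :
    MeasurableSet (cell univ y a i) := (isClosed_cell_univ y a i).measurableSet

omit [Finite ι] in
theorem cell_eq (K : Set (E d)) (y : ι → E d) (a : ι → ℝ) (i : ι) :
    cell K y a i = K ∩ cell univ y a i := by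
  ext x; simp [cell]

omit [Finite ι] in
theorem measurableSet_cell {K : Set (E d)} (hK : MeasurableSet K) (y : ι → E d) (a : ι → ℝ)
    (i : ι) : MeasurableSet (cell K y a i) := by
  rw [cell_eq]; exact hK.inter (measurableSet_cell_univ y a i)

end basic

/-- hyperplanes are null -/
theorem hyperplane_null {d : ℕ} {w : E d} (hw : w ≠ 0) (c : ℝ) :
    volume {x : E d | inner ℝ x w = c} = 0 := by
  set L : E d →ₗ[ℝ] ℝ :=
    { toFun := fun x => inner ℝ x w
      map_add' := by intro x y; exact inner_add_left _ _ _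
      map_smul' := by intro c x; simp [inner_smul_left] } with hL
  have hww : (inner ℝ w w : ℝ) ≠ 0 := by
    rw [real_inner_self_eq_norm_sq]
    positivity
  have hne : LinearMap.ker L ≠ ⊤ := by
    intro h
    have : w ∈ LinearMap.ker L := by rw [h]; trivial
    rw [LinearMap.mem_ker] at this
    exact hww this
  have h0 := Measure.addHaar_submodule (volume : Measure (E d)) (LinearMap.ker L) hne
  have hp : {x : E d | inner ℝ x w = c} =
      (fun x => (-((c / inner ℝ w w) • w)) + x) ⁻¹' (LinearMap.ker L : Set (E d)) := by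
    ext x
    simp only [mem_ofPred_eq, mem_preimage, SetLike.mem_coe, LinearMap.mem_ker, hL,
      LinearMap.coe_mk, AddHom.coe_mk, inner_add_left, inner_neg_left, real_inner_smul_left]
    rw [div_mul_cancel₀ _ hww]
    constructor
    · intro h; rw [h]; ring
    · intro h; linarith
  rw [hp, measure_preimage_add]
  exact h0

section ties

variable {d : ℕ} {ι : Type*} [Finite ι] {y : ι → E d} {ν : Measure (E d)}

theorem ae_no_tie (hν : ν ≪ volume) (hy : Function.Injective y) (a : ι → ℝ) :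
    ∀ᵐ x ∂ν, ∀ i j, i ≠ j → inner ℝ x (y i) - a i ≠ inner ℝ x (y j) - a j := by
  rw [ae_all_iff]; intro i
  rw [ae_all_iff]; intro j
  by_cases hij : i = j
  · exact Filter.Eventually.of_forall fun x h => absurd hij h
  have hne : y i - y j ≠ 0 := sub_ne_zero.mpr fun h => hij (hy h)
  have h0 : ν {x : E d | inner ℝ x (y i - y j) = a i - a j} = 0 := hν (hyperplane_null hne _)
  have h1 : ∀ᵐ x ∂ν, inner ℝ x (y i - y j) ≠ a i - a j := by
    rw [ae_iff]; simpa using h0
  filter_upwards [h1] with x hx _ h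
  apply hx
  rw [inner_sub_right]; linarith

/-- a.e. point lies in exactly one cell -/
theorem ae_unique_cell [Nonempty ι] (hν : ν ≪ volume) (hy : Function.Injective y) (a : ι → ℝ) :
    ∀ᵐ x ∂ν, ∃ i, x ∈ cell univ y a i ∧ ∀ j, j ≠ i → x ∉ cell univ y a j := by
  filter_upwards [ae_no_tie hν hy a] with x hx
  obtain ⟨i, hi⟩ := exists_eq y a x
  refine ⟨i, mem_cell_of_eq (mem_univ x) hi, fun j hji hj => ?_⟩
  have h2 := eq_of_mem_cell hj
  exact hx j i hji (by rw [← h2, ← hi])

end ties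

section functional

variable {d : ℕ} {ι : Type*} [Fintype ι] {y : ι → E d} {ν : Measure (E d)}

/-- the dual functional of semi-discrete optimal transport -/
noncomputable def Phi (ν : Measure (E d)) (y : ι → E d) (m ψ : ι → ℝ) : ℝ :=
  ∫ x, maxAff y ψ x ∂ν + ∑ i, m i * ψ i

theorem integrable_of_cont [IsFiniteMeasure ν] {D : ℝ} (hD : ∀ᵐ x ∂ν, ‖x‖ ≤ D)
    {F : Type*} [NormedAddCommGroup F] [SecondCountableTopologyEither (E d) F]
    {f : E d → F} (hf : Continuous f) : Integrable f ν := by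
  obtain ⟨B, hB⟩ := (isCompact_closedBall (0 : E d) D).exists_bound_of_continuousOn
    hf.continuousOn
  refine Integrable.of_bound (C := B) hf.aestronglyMeasurable ?_
  filter_upwards [hD] with x hx
  exact hB x (mem_closedBall_zero_iff.mpr hx)

variable [Nonempty ι]

theorem integrable_maxAff [IsFiniteMeasure ν] {D : ℝ} (hD : ∀ᵐ x ∂ν, ‖x‖ ≤ D)
    (y : ι → E d) (ψ : ι → ℝ) : Integrable (maxAff y ψ) ν :=
  integrable_of_cont hD (continuous_maxAff y ψ)

theorem integral_mul_bound [IsFiniteMeasure ν] {D : ℝ} (hD : ∀ᵐ x ∂ν, ‖x‖ ≤ D)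
    {f u : E d → ℝ} (hf : Continuous f) (hu : Measurable u) (hu1 : ∀ᵐ x ∂ν, |u x| ≤ 1) :
    Integrable (fun x => u x * f x) ν := by
  refine (integrable_of_cont hD hf).bdd_mul (c := 1) hu.aestronglyMeasurable ?_
  filter_upwards [hu1] with x hx
  rw [Real.norm_eq_abs]; exact hx

/-- The duality gap. -/
theorem gap_eq [IsFiniteMeasure ν] {D : ℝ} (hD : ∀ᵐ x ∂ν, ‖x‖ ≤ D) (y : ι → E d)
    {m : ι → ℝ} (ψ : ι → ℝ) {u : ι → E d → ℝ} (hum : ∀ i, Measurable (u i))
    (hu0 : ∀ i x, 0 ≤ u i x) (hu1 : ∀ᵐ x ∂ν, ∑ i, u i x = 1)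
    (hmass : ∀ i, ∫ x, u i x ∂ν = m i) :
    Phi ν y m ψ - ∑ i, ∫ x, u i x * inner ℝ x (y i) ∂ν =
      ∫ x, ∑ i, u i x * (maxAff y ψ x - (inner ℝ x (y i) - ψ i)) ∂ν := by
  have hle : ∀ i, ∀ᵐ x ∂ν, |u i x| ≤ 1 := by
    intro i
    filter_upwards [hu1] with x hx
    rw [abs_of_nonneg (hu0 i x), ← hx]
    exact Finset.single_le_sum (f := fun i => u i x) (fun j _ => hu0 j x) (Finset.mem_univ i)
  have i1 : ∀ i, Integrable (fun x => u i x * maxAff y ψ x) ν := fun i =>
    integral_mul_bound hD (continuous_maxAff y ψ) (hum i) (hle i)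
  have i2 : ∀ i, Integrable (fun x => u i x * inner ℝ x (y i)) ν := fun i =>
    integral_mul_bound hD (by fun_prop) (hum i) (hle i)
  have i3 : ∀ i, Integrable (fun x => u i x) ν := fun i => by
    have := integral_mul_bound hD (f := fun _ => (1:ℝ)) continuous_const (hum i) (hle i)
    simpa using this
  have i4 : ∀ i, Integrable (fun x => u i x * (maxAff y ψ x - (inner ℝ x (y i) - ψ i))) ν := by
    intro i
    have : (fun x => u i x * (maxAff y ψ x - (inner ℝ x (y i) - ψ i))) =
        fun x => u i x * maxAff y ψ x - u i x * inner ℝ x (y i) + u i x * ψ i := by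
      ext x; ring
    rw [this]
    exact ((i1 i).sub (i2 i)).add ((i3 i).mul_const _)
  rw [integral_finsetSum _ (fun i _ => i4 i)]
  have h5 : ∀ i, ∫ x, u i x * (maxAff y ψ x - (inner ℝ x (y i) - ψ i)) ∂ν =
      ∫ x, u i x * maxAff y ψ x ∂ν - ∫ x, u i x * inner ℝ x (y i) ∂ν + m i * ψ i := by
    intro i
    have : (fun x => u i x * (maxAff y ψ x - (inner ℝ x (y i) - ψ i))) =
        fun x => (u i x * maxAff y ψ x - u i x * inner ℝ x (y i)) + u i x * ψ i := by
      ext x; ring
    rw [this]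
    have e1 : Integrable (fun x => u i x * maxAff y ψ x - u i x * inner ℝ x (y i)) ν :=
      (i1 i).sub (i2 i)
    rw [integral_add e1 ((i3 i).mul_const _), integral_sub (i1 i) (i2 i), integral_mul_const,
      hmass i]
  simp_rw [h5]
  rw [Finset.sum_add_distrib, Finset.sum_sub_distrib, ← integral_finsetSum _ (fun i _ => i1 i)]
  have h6 : ∫ x, ∑ i, u i x * maxAff y ψ x ∂ν = ∫ x, maxAff y ψ x ∂ν := by
    apply integral_congr_ae
    filter_upwards [hu1] with x hx
    rw [← Finset.sum_mul, hx, one_mul]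
  rw [h6, Phi]
  ring

omit [Nonempty ι] in
theorem gap_nonneg [IsFiniteMeasure ν] (y : ι → E d)
    (ψ : ι → ℝ) {u : ι → E d → ℝ} (hu0 : ∀ i x, 0 ≤ u i x) (x : E d) :
    0 ≤ ∑ i, u i x * (maxAff y ψ x - (inner ℝ x (y i) - ψ i)) := by
  refine Finset.sum_nonneg fun i _ => mul_nonneg (hu0 i x) ?_
  have := le_maxAff y ψ x i
  linarith

theorem weak_duality [IsFiniteMeasure ν] {D : ℝ} (hD : ∀ᵐ x ∂ν, ‖x‖ ≤ D) (y : ι → E d)
    {m : ι → ℝ} (ψ : ι → ℝ) {u : ι → E d → ℝ} (hum : ∀ i, Measurable (u i))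
    (hu0 : ∀ i x, 0 ≤ u i x) (hu1 : ∀ᵐ x ∂ν, ∑ i, u i x = 1)
    (hmass : ∀ i, ∫ x, u i x ∂ν = m i) :
    ∑ i, ∫ x, u i x * inner ℝ x (y i) ∂ν ≤ Phi ν y m ψ := by
  have h := gap_eq hD y ψ hum hu0 hu1 hmass
  have h2 : 0 ≤ ∫ x, ∑ i, u i x * (maxAff y ψ x - (inner ℝ x (y i) - ψ i)) ∂ν :=
    integral_nonneg fun x => gap_nonneg (ν := ν) y ψ hu0 x
  linarith

/-- continuity of the integral in the dual variable -/
theorem continuous_integral_maxAff [IsFiniteMeasure ν] {D : ℝ} (hD : ∀ᵐ x ∂ν, ‖x‖ ≤ D)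
    (y : ι → E d) {h : E d → ℝ} (hm : Measurable h) {B : ℝ} (hB : ∀ᵐ x ∂ν, |h x| ≤ B) :
    Continuous (fun ψ : ι → ℝ => ∫ x, h x * maxAff y ψ x ∂ν) := by
  have hI : ∀ ψ : ι → ℝ, Integrable (fun x => h x * maxAff y ψ x) ν := fun ψ => by
    refine (integrable_maxAff hD y ψ).bdd_mul (c := B) hm.aestronglyMeasurable ?_
    simpa [Real.norm_eq_abs] using hB
  have hL : LipschitzWith (Real.toNNReal (|B| * ν.real univ))
      (fun ψ : ι → ℝ => ∫ x, h x * maxAff y ψ x ∂ν) := by
    refine LipschitzWith.of_dist_le_mul fun ψ ψ' => ?_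
    rw [Real.dist_eq, Real.coe_toNNReal _ (by positivity), ← integral_sub (hI ψ) (hI ψ')]
    have h1 : ∀ᵐ x ∂ν, ‖h x * maxAff y ψ x - h x * maxAff y ψ' x‖ ≤ |B| * dist ψ ψ' := by
      filter_upwards [hB] with x hx
      rw [← mul_sub, norm_mul, Real.norm_eq_abs, Real.norm_eq_abs]
      apply mul_le_mul (hx.trans (le_abs_self B)) _ (abs_nonneg _) (abs_nonneg _)
      refine abs_maxAff_sub_le fun i => ?_
      have : (inner ℝ x (y i) - ψ i) - (inner ℝ x (y i) - ψ' i) = - (ψ i - ψ' i) := by ring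
      rw [this, abs_neg, ← Real.dist_eq]
      exact dist_le_pi_dist ψ ψ' i
    have h2 := norm_integral_le_of_norm_le_const h1
    rw [Real.norm_eq_abs] at h2
    refine h2.trans (le_of_eq ?_)
    ring
  exact hL.continuous

theorem continuous_Phi [IsFiniteMeasure ν] {D : ℝ} (hD : ∀ᵐ x ∂ν, ‖x‖ ≤ D)
    (y : ι → E d) (m : ι → ℝ) : Continuous (fun ψ : ι → ℝ => Phi ν y m ψ) := by
  have h1 := continuous_integral_maxAff hD y (h := fun _ => (1:ℝ)) measurable_const (B := 1)
    (Filter.Eventually.of_forall fun x => by simp)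
  simp only [one_mul] at h1
  unfold Phi
  exact h1.add (by fun_prop)

omit [Fintype ι] in
theorem maxAff_shift [Finite ι] (y : ι → E d) (ψ : ι → ℝ) (c : ℝ) (x : E d) :
    maxAff y (fun i => ψ i - c) x = maxAff y ψ x + c := by
  apply le_antisymm
  · refine maxAff_le fun i => ?_
    have := le_maxAff y ψ x i
    linarith
  · have : maxAff y ψ x ≤ maxAff y (fun i => ψ i - c) x - c := by
      refine maxAff_le fun i => ?_
      have := le_maxAff y (fun i => ψ i - c) x i
      linarith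
    linarith

/-- invariance of the functional under adding constants -/
theorem Phi_shift [IsFiniteMeasure ν] {D : ℝ} (hD : ∀ᵐ x ∂ν, ‖x‖ ≤ D)
    (y : ι → E d) {m : ι → ℝ} (hsum : ∑ i, m i = ν.real univ) (ψ : ι → ℝ) (c : ℝ) :
    Phi ν y m (fun i => ψ i - c) = Phi ν y m ψ := by
  have h1 : Phi ν y m (fun i => ψ i - c) = ∫ x, (maxAff y ψ x + c) ∂ν +
      ∑ i, (m i * ψ i - m i * c) := by
    unfold Phi
    congr 1
    · exact integral_congr_ae (Filter.Eventually.of_forall fun x => maxAff_shift y ψ c x)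
    · exact Finset.sum_congr rfl fun i _ => by ring
  rw [h1, Phi, integral_add (integrable_maxAff hD y ψ) (integrable_const _),
    Finset.sum_sub_distrib, ← Finset.sum_mul, hsum, integral_const, smul_eq_mul]
  ring

/-- truncation does not increase the functional -/
theorem Phi_trunc [IsFiniteMeasure ν] {D R : ℝ} (hD : ∀ᵐ x ∂ν, ‖x‖ ≤ D) (hD0 : 0 ≤ D)
    {y : ι → E d} (hR : ∀ i, ‖y i‖ ≤ R) {m : ι → ℝ} (hm : ∀ i, 0 ≤ m i) {ψ : ι → ℝ}
    {i₀ : ι} (hi₀ : ψ i₀ = 0) :
    Phi ν y m (fun i => min (ψ i) (2 * D * R)) ≤ Phi ν y m ψ := by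
  have hR0 : 0 ≤ R := (norm_nonneg _).trans (hR i₀)
  unfold Phi
  apply add_le_add
  · apply integral_mono_ae (integrable_maxAff hD y _) (integrable_maxAff hD y _)
    filter_upwards [hD] with x hx
    refine maxAff_le fun i => ?_
    rcases le_total (ψ i) (2 * D * R) with h | h
    · rw [min_eq_left h]; exact le_maxAff y ψ x i
    · rw [min_eq_right h]
      have h1 := le_maxAff y ψ x i₀
      rw [hi₀] at h1
      have h2 : inner ℝ x (y i) ≤ D * R := (real_inner_le_norm _ _).trans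
        (mul_le_mul hx (hR i) (norm_nonneg _) hD0)
      have h3 : |inner ℝ x (y i₀)| ≤ D * R := (abs_real_inner_le_norm _ _).trans
        (mul_le_mul hx (hR i₀) (norm_nonneg _) hD0)
      have h4 := (abs_le.mp h3).1
      linarith
  · exact Finset.sum_le_sum fun i _ => mul_le_mul_of_nonneg_left (min_le_left _ _) (hm i)

/-- existence of minimizers -/
theorem exists_min [IsFiniteMeasure ν] {D R : ℝ} (hD : ∀ᵐ x ∂ν, ‖x‖ ≤ D) (hD0 : 0 ≤ D)
    {y : ι → E d} (hR : ∀ i, ‖y i‖ ≤ R) {m : ι → ℝ} (hm : ∀ i, 0 ≤ m i)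
    (hsum : ∑ i, m i = ν.real univ) :
    ∃ ψ : ι → ℝ, (∀ i, ψ i ∈ Icc 0 (2 * D * R)) ∧ ∀ ψ', Phi ν y m ψ ≤ Phi ν y m ψ' := by
  have i₀ : ι := Classical.arbitrary ι
  have hR0 : 0 ≤ R := (norm_nonneg _).trans (hR i₀)
  have hc : IsCompact (Set.pi univ fun _ : ι => Icc (0:ℝ) (2 * D * R)) :=
    isCompact_univ_pi fun _ => isCompact_Icc
  have hne : (Set.pi univ fun _ : ι => Icc (0:ℝ) (2 * D * R)).Nonempty :=
    ⟨fun _ => 0, fun i _ => ⟨le_rfl, by positivity⟩⟩
  obtain ⟨ψ, hψ, hmin⟩ := hc.exists_isMinOn hne (continuous_Phi hD y m).continuousOn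
  refine ⟨ψ, fun i => hψ i (mem_univ i), fun ψ' => ?_⟩
  obtain ⟨i₁, hi₁⟩ := Finite.exists_min ψ'
  rw [← Phi_shift hD y hsum ψ' (ψ' i₁)]
  refine le_trans ?_ (Phi_trunc hD hD0 hR hm (i₀ := i₁) (sub_self _))
  apply hmin
  intro i _
  refine ⟨le_min (sub_nonneg.mpr (hi₁ i)) (by positivity), min_le_right _ _⟩

/-- masses of cells at a minimizer: one-sided bound -/
theorem mass_le_of_min [IsFiniteMeasure ν] {D : ℝ} (hD : ∀ᵐ x ∂ν, ‖x‖ ≤ D)
    {m : ι → ℝ} {ψ : ι → ℝ} (hmin : ∀ ψ', Phi ν y m ψ ≤ Phi ν y m ψ') (i : ι) :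
    ν.real {x | ∀ j, j ≠ i → inner ℝ x (y j) - ψ j < inner ℝ x (y i) - ψ i} ≤ m i := by
  classical
  -- approximating sets
  set S : ℕ → Set (E d) := fun n => {x | ∀ j, j ≠ i →
    inner ℝ x (y j) - ψ j + 1 / ((n : ℝ) + 1) ≤ inner ℝ x (y i) - ψ i} with hS
  have hSm : ∀ n, MeasurableSet (S n) := by
    intro n
    have : S n = ⋂ j, ⋂ (_ : j ≠ i), {x : E d |
        inner ℝ x (y j) - ψ j + 1 / ((n : ℝ) + 1) ≤ inner ℝ x (y i) - ψ i} := by
      ext x; simp [hS]
    rw [this]
    refine (isClosed_iInter fun j => isClosed_iInter fun _ => ?_).measurableSet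
    exact isClosed_le (by fun_prop) (by fun_prop)
  have hSle : ∀ n, ν.real (S n) ≤ m i := by
    intro n
    set τ : ℝ := 1 / ((n : ℝ) + 1) with hτ
    have hτ0 : 0 < τ := by positivity
    have h1 := hmin (fun j => if j = i then ψ j + τ else ψ j)
    unfold Phi at h1
    have h2 : ∑ j, m j * (if j = i then ψ j + τ else ψ j) = ∑ j, m j * ψ j + m i * τ := by
      have : ∀ j, m j * (if j = i then ψ j + τ else ψ j) = m j * ψ j +
          (if j = i then m j * τ else 0) := by
        intro j; split_ifs <;> ring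
      simp_rw [this]
      rw [Finset.sum_add_distrib, Finset.sum_ite_eq' Finset.univ i]
      simp
    rw [h2] at h1
    have h3 : ∫ x, maxAff y (fun j => if j = i then ψ j + τ else ψ j) x ∂ν ≤
        ∫ x, (maxAff y ψ x - (S n).indicator (fun _ => τ) x) ∂ν := by
      apply integral_mono (integrable_maxAff hD y _)
        ((integrable_maxAff hD y _).sub ((integrable_const _).indicator (hSm n)))
      intro x
      simp only [Pi.sub_apply]
      by_cases hx : x ∈ S n
      · rw [indicator_of_mem hx]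
        refine maxAff_le fun j => ?_
        split_ifs with hj
        · subst hj; have := le_maxAff y ψ x j; linarith
        · have := hx j hj
          have h4 := le_maxAff y ψ x i
          linarith
      · rw [indicator_of_notMem hx, sub_zero]
        refine maxAff_le fun j => ?_
        split_ifs with hj
        · have := le_maxAff y ψ x j; linarith
        · exact le_maxAff y ψ x j
    rw [integral_sub (integrable_maxAff hD y _) ((integrable_const _).indicator (hSm n)),
      integral_indicator_const _ (hSm n), smul_eq_mul] at h3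
    have h4 : ν.real (S n) * τ ≤ m i * τ := by linarith
    exact le_of_mul_le_mul_right h4 hτ0
  have hmono : Monotone S := by
    intro n n' hnn x hx j hj
    have := hx j hj
    have h2 : 1 / ((n' : ℝ) + 1) ≤ 1 / ((n : ℝ) + 1) := by
      apply one_div_le_one_div_of_le (by positivity)
      have : (n : ℝ) ≤ n' := by exact_mod_cast hnn
      linarith
    linarith
  have hU : {x | ∀ j, j ≠ i → inner ℝ x (y j) - ψ j < inner ℝ x (y i) - ψ i} = ⋃ n, S n := by
    ext x
    simp only [mem_ofPred_eq, mem_iUnion, hS]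
    constructor
    · intro h
      by_cases hne : (Finset.univ.erase i : Finset ι).Nonempty
      · obtain ⟨j₀, hj₀, hmin₀⟩ := Finset.exists_min_image (Finset.univ.erase i)
          (fun j => (inner ℝ x (y i) - ψ i) - (inner ℝ x (y j) - ψ j)) hne
        have hpos : 0 < (inner ℝ x (y i) - ψ i) - (inner ℝ x (y j₀) - ψ j₀) :=
          sub_pos.mpr (h j₀ (Finset.ne_of_mem_erase hj₀))
        obtain ⟨n, hn⟩ := exists_nat_one_div_lt hpos
        refine ⟨n, fun j hj => ?_⟩
        have := hmin₀ j (Finset.mem_erase.mpr ⟨hj, Finset.mem_univ j⟩)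
        linarith
      · refine ⟨0, fun j hj => ?_⟩
        exact absurd ⟨j, Finset.mem_erase.mpr ⟨hj, Finset.mem_univ j⟩⟩ hne
    · rintro ⟨n, hn⟩ j hj
      have := hn j hj
      have h2 : 0 < 1 / ((n : ℝ) + 1) := by positivity
      linarith
  rw [hU]
  have htend := tendsto_measure_iUnion_atTop (μ := ν) hmono
  have htend2 : Filter.Tendsto (fun n => ν.real (S n)) Filter.atTop (nhds (ν.real (⋃ n, S n))) :=
    (ENNReal.tendsto_toReal (measure_ne_top _ _)).comp htend
  exact le_of_tendsto' htend2 hSle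

/-- fractional partition given by the cells -/
theorem ae_sum_indicator (hν : ν ≪ volume) (hy : Function.Injective y) (a : ι → ℝ) :
    ∀ᵐ x ∂ν, ∑ i, (cell univ y a i).indicator (fun _ => (1:ℝ)) x = 1 := by
  classical
  filter_upwards [ae_unique_cell hν hy a] with x hx
  obtain ⟨i, hi, hu⟩ := hx
  rw [Finset.sum_eq_single i]
  · rw [indicator_of_mem hi]
  · intro j _ hj
    rw [indicator_of_notMem (hu j hj)]
  · intro h; exact absurd (Finset.mem_univ i) h

theorem sum_mass_cells [IsFiniteMeasure ν] (hν : ν ≪ volume) (hy : Function.Injective y)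
    (a : ι → ℝ) : ∑ i, ν.real (cell univ y a i) = ν.real univ := by
  have h1 : ∀ i, ν.real (cell univ y a i) =
      ∫ x, (cell univ y a i).indicator (fun _ => (1:ℝ)) x ∂ν := by
    intro i
    rw [integral_indicator_const _ (measurableSet_cell_univ y a i)]; simp
  simp_rw [h1]
  rw [← integral_finsetSum _ (fun i _ => (integrable_const _).indicator
    (measurableSet_cell_univ y a i))]
  have h2 : ∫ x, ∑ i, (cell univ y a i).indicator (fun _ => (1:ℝ)) x ∂ν = ∫ x, (1:ℝ) ∂ν :=
    integral_congr_ae (ae_sum_indicator hν hy a)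
  rw [h2]; simp

/-- masses of cells at a minimizer -/
theorem mass_of_min [IsFiniteMeasure ν] {D : ℝ} (hD : ∀ᵐ x ∂ν, ‖x‖ ≤ D) (hν : ν ≪ volume)
    (hy : Function.Injective y) {m : ι → ℝ} (hsum : ∑ i, m i = ν.real univ)
    {ψ : ι → ℝ} (hmin : ∀ ψ', Phi ν y m ψ ≤ Phi ν y m ψ') (i : ι) :
    ν.real (cell univ y ψ i) = m i := by
  have hle : ∀ i, ν.real (cell univ y ψ i) ≤ m i := by
    intro i
    refine le_trans (le_of_eq ?_) (mass_le_of_min hD hmin i)
    apply measureReal_congr
    filter_upwards [ae_no_tie hν hy ψ] with x hx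
    apply propext
    constructor
    · intro h j hj
      exact lt_of_le_of_ne (h.2 j) (hx j i hj)
    · intro h
      refine ⟨mem_univ x, fun j => ?_⟩
      by_cases hj : j = i
      · rw [hj]
      · exact (h j hj).le
  have hs := sum_mass_cells hν hy (y := y) ψ
  rw [← hsum] at hs
  have h2 : ∑ i, (m i - ν.real (cell univ y ψ i)) = 0 := by
    rw [Finset.sum_sub_distrib, hs, sub_self]
  have h3 := (Finset.sum_eq_zero_iff_of_nonneg (fun i _ => sub_nonneg.mpr (hle i))).mp h2 i
    (Finset.mem_univ i)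
  linarith

/-- the value of the functional at a minimizer, as a transport integral -/
theorem value_of_mass [IsFiniteMeasure ν] {D : ℝ} (hD : ∀ᵐ x ∂ν, ‖x‖ ≤ D) (hν : ν ≪ volume)
    (hy : Function.Injective y) {m : ι → ℝ} {ψ : ι → ℝ}
    (hmass : ∀ i, ν.real (cell univ y ψ i) = m i) :
    Phi ν y m ψ = ∑ i, ∫ x in cell univ y ψ i, inner ℝ x (y i) ∂ν := by
  have h := gap_eq (ν := ν) hD y (m := m) ψ
    (u := fun i x => (cell univ y ψ i).indicator (fun _ => (1:ℝ)) x)
    (fun i => measurable_const.indicator (measurableSet_cell_univ y ψ i))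
    (fun i x => indicator_nonneg (fun _ _ => zero_le_one) x) (ae_sum_indicator hν hy ψ)
    (fun i => by rw [integral_indicator_const _ (measurableSet_cell_univ y ψ i), ← hmass i]; simp)
  have h2 : ∀ x, ∑ i, (cell univ y ψ i).indicator (fun _ => (1:ℝ)) x *
      (maxAff y ψ x - (inner ℝ x (y i) - ψ i)) = 0 := by
    intro x
    refine Finset.sum_eq_zero fun i _ => ?_
    by_cases hx : x ∈ cell univ y ψ i
    · rw [eq_of_mem_cell hx]; simp
    · rw [indicator_of_notMem hx, zero_mul]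
  simp_rw [h2] at h
  rw [integral_zero] at h
  have h3 : ∀ i, ∫ x, (cell univ y ψ i).indicator (fun _ => (1:ℝ)) x * inner ℝ x (y i) ∂ν =
      ∫ x in cell univ y ψ i, inner ℝ x (y i) ∂ν := by
    intro i
    rw [← integral_indicator (measurableSet_cell_univ y ψ i)]
    congr 1
    ext x
    by_cases hx : x ∈ cell univ y ψ i
    · rw [indicator_of_mem hx, indicator_of_mem hx, one_mul]
    · rw [indicator_of_notMem hx, indicator_of_notMem hx, zero_mul]
  simp_rw [h3] at h
  linarith

/-- lower bound by the cells of another configuration -/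
theorem cells_lower_bound [IsFiniteMeasure ν] {D : ℝ} (hD : ∀ᵐ x ∂ν, ‖x‖ ≤ D)
    (hν : ν ≪ volume) (hy : Function.Injective y) {m : ι → ℝ} {ψ : ι → ℝ}
    (hmass : ∀ i, ν.real (cell univ y ψ i) = m i) (y' : ι → E d) (ψ' : ι → ℝ) :
    ∑ i, ∫ x in cell univ y ψ i, inner ℝ x (y' i) ∂ν ≤ Phi ν y' m ψ' := by
  have h := weak_duality (ν := ν) hD y' (m := m) ψ'
    (u := fun i x => (cell univ y ψ i).indicator (fun _ => (1:ℝ)) x)
    (fun i => measurable_const.indicator (measurableSet_cell_univ y ψ i))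
    (fun i x => indicator_nonneg (fun _ _ => zero_le_one) x) (ae_sum_indicator hν hy ψ)
    (fun i => by rw [integral_indicator_const _ (measurableSet_cell_univ y ψ i), ← hmass i]; simp)
  refine le_trans (le_of_eq ?_) h
  refine Finset.sum_congr rfl fun i _ => ?_
  rw [← integral_indicator (measurableSet_cell_univ y ψ i)]
  congr 1
  ext x
  by_cases hx : x ∈ cell univ y ψ i
  · rw [indicator_of_mem hx, indicator_of_mem hx, one_mul]
  · rw [indicator_of_notMem hx, indicator_of_notMem hx, zero_mul]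

end functional

end Vale.Agent.P074.Semi
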